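import Vale.Agent.Lib.P074T.Dual
import Vale.Agent.Lib.P074.Conj

open MeasureTheory Set Filter Topology Metric
open scoped ENNReal

namespace Vale.Agent.P074T

open Vale.Agent.P074

set_option linter.unusedSectionVars false

variable {d : ℕ}


section bounds
variable {K : Set (E d)} {ι : Type} [Fintype ι] [Nonempty ι] {y : ι → E d} {m : ι → ℝ}

/-- A fractional assignment of the points of `K` to the sites, `κ`-close to the map `U`. -/
structure Assign (K : Set (E d)) (U : E d → E d) (y : ι → E d) (m : ι → ℝ) (κ : ℝ)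
    (w : ι → E d → ℝ) : Prop where
  meas : ∀ i, Measurable (w i)
  nonneg : ∀ i x, 0 ≤ w i x
  sum_one : ∀ᵐ x ∂(volume.restrict K), ∑ i, w i x = 1
  mass : ∀ i, ∫ x in K, w i x = m i
  close : ∀ᵐ x ∂(volume.restrict K), ∀ i, w i x ≠ 0 → ‖U x - y i‖ ≤ κ

omit [Fintype ι] [Nonempty ι] in
lemma bd_intOn (hKc : IsCompact K) {f : E d → ℝ} (hf : Measurable f) {C : ℝ}
    (hC : ∀ᵐ x ∂(volume.restrict K), ‖f x‖ ≤ C) : IntegrableOn f K :=
  Measure.integrableOn_of_bounded hKc.measure_lt_top.ne hf.aestronglyMeasurable hC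

omit [Fintype ι] [Nonempty ι] in
lemma cont_mul_intOn (hKc : IsCompact K) {f σ : E d → ℝ} (hf : Continuous f) (hσm : Measurable σ)
    {B : ℝ} (hσb : ∀ x ∈ K, |σ x| ≤ B) : IntegrableOn (fun x => f x * σ x) K := by
  obtain ⟨C, hC⟩ := hKc.exists_bound_of_continuousOn hf.continuousOn
  refine bd_intOn hKc (hf.measurable.mul hσm) (C := C * B) ?_
  filter_upwards [ae_restrict_mem hKc.measurableSet] with x hx
  rw [norm_mul]
  exact mul_le_mul (hC x hx) (hσb x hx) (norm_nonneg _) ((norm_nonneg _).trans (hC x hx))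

lemma continuous_gmax (y : ι → E d) (a : ι → ℝ) : Continuous (gmax y a) := by
  unfold gmax
  have h : ∀ i ∈ (Finset.univ : Finset ι), Continuous (fun x : E d => inner ℝ x (y i) - a i) := by
    intro i _
    fun_prop
  have := Continuous.finset_sup'_apply (s := Finset.univ) Finset.univ_nonempty h
  exact this

lemma le_gmax (y : ι → E d) (a : ι → ℝ) (x : E d) (i : ι) : inner ℝ x (y i) - a i ≤ gmax y a x :=
  Finset.le_sup' (fun i => inner ℝ x (y i) - a i) (Finset.mem_univ i)

lemma gmax_le (y : ι → E d) (a : ι → ℝ) (x : E d) {A : ℝ} (h : ∀ i, inner ℝ x (y i) - a i ≤ A) :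
    gmax y a x ≤ A :=
  Finset.sup'_le _ _ (fun i _ => h i)

omit [Nonempty ι] in
lemma sum_weight_le {w b : ι → ℝ} (h0 : ∀ i, 0 ≤ w i) (h1 : ∑ i, w i = 1) {A : ℝ}
    (h : ∀ i, w i ≠ 0 → b i ≤ A) : ∑ i, w i * b i ≤ A := by
  calc ∑ i, w i * b i ≤ ∑ i, w i * A := by
        apply Finset.sum_le_sum
        intro i _
        by_cases hi : w i = 0
        · simp [hi]
        · exact mul_le_mul_of_nonneg_left (h i hi) (h0 i)
    _ = A := by rw [← Finset.sum_mul, h1, one_mul]

omit [Nonempty ι] in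
lemma le_sum_weight {w b : ι → ℝ} (h0 : ∀ i, 0 ≤ w i) (h1 : ∑ i, w i = 1) {A : ℝ}
    (h : ∀ i, w i ≠ 0 → A ≤ b i) : A ≤ ∑ i, w i * b i := by
  calc A = ∑ i, w i * A := by rw [← Finset.sum_mul, h1, one_mul]
    _ ≤ ∑ i, w i * b i := by
        apply Finset.sum_le_sum
        intro i _
        by_cases hi : w i = 0
        · simp [hi]
        · exact mul_le_mul_of_nonneg_left (h i hi) (h0 i)

omit [Nonempty ι] in
lemma Assign.le_one {U : E d → E d} {κ : ℝ} {w : ι → E d → ℝ} (hw : Assign K U y m κ w) (i : ι) :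
    ∀ᵐ x ∂(volume.restrict K), ‖w i x‖ ≤ 1 := by
  filter_upwards [hw.sum_one] with x hx
  rw [Real.norm_eq_abs, abs_of_nonneg (hw.nonneg i x), ← hx]
  exact Finset.single_le_sum (f := fun i => w i x) (fun j _ => hw.nonneg j x) (Finset.mem_univ i)

omit [Nonempty ι] in
lemma Assign.intOn {U : E d → E d} {κ : ℝ} {w : ι → E d → ℝ} (hw : Assign K U y m κ w)
    (hKc : IsCompact K) (i : ι) : IntegrableOn (w i) K :=
  bd_intOn hKc (hw.meas i) (hw.le_one i)

omit [Nonempty ι] in
lemma Assign.sum_mass {U : E d → E d} {κ : ℝ} {w : ι → E d → ℝ} (hw : Assign K U y m κ w)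
    (hKc : IsCompact K) (c : ι → ℝ) :
    ∑ i, m i * c i = ∫ x in K, ∑ i, w i x * c i := by
  rw [integral_finsetSum]
  · apply Finset.sum_congr rfl
    intro i _
    rw [integral_mul_const, hw.mass i]
  · intro i _
    exact (hw.intOn hKc i).mul_const (c i)

omit [Nonempty ι] in
lemma Assign.sum_intOn {U : E d → E d} {κ : ℝ} {w : ι → E d → ℝ} (hw : Assign K U y m κ w)
    (hKc : IsCompact K) (c : ι → ℝ) : IntegrableOn (fun x => ∑ i, w i x * c i) K :=
  integrable_finsetSum _ (fun i _ => (hw.intOn hKc i).mul_const (c i))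

omit [Fintype ι] [Nonempty ι] in
lemma inner_U_intOn (hKc : IsCompact K) {RK : ℝ} (hRK : ∀ x ∈ K, ‖x‖ ≤ RK) {U : E d → E d}
    (hUm : Measurable U) {R : ℝ} (hUR : ∀ᵐ x ∂(volume.restrict K), ‖U x‖ ≤ R) :
    IntegrableOn (fun x => inner ℝ x (U x)) K := by
  refine bd_intOn hKc (measurable_id.inner hUm) (C := RK * R) ?_
  filter_upwards [ae_restrict_mem hKc.measurableSet, hUR] with x hx hx'
  calc ‖(inner ℝ x (U x) : ℝ)‖ ≤ ‖x‖ * ‖U x‖ := norm_inner_le_norm _ _
    _ ≤ RK * R := mul_le_mul (hRK x hx) hx' (norm_nonneg _) ((norm_nonneg _).trans (hRK x hx))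

/-- Upper bound of the value by a potential of `U`. -/
theorem val_upper (hKc : IsCompact K) (hne : K.Nonempty) {RK : ℝ} (hRK : ∀ x ∈ K, ‖x‖ ≤ RK)
    (hy : Function.Injective y) {σ : E d → ℝ} (hσm : Measurable σ) (hσ0 : ∀ x ∈ K, 0 ≤ σ x) {Bσ : ℝ}
    (hσb : ∀ x ∈ K, |σ x| ≤ Bσ) {a : ι → ℝ} (ha : ∀ i, ∫ x in cell K y a i, σ x = m i)
    {U : E d → E d} (hUm : Measurable U) {R : ℝ} (hUR : ∀ᵐ x ∂(volume.restrict K), ‖U x‖ ≤ R)
    {φ : E d → ℝ} (hφc : Continuous φ)
    (hφ : ∀ᵐ x ∂(volume.restrict K), ∀ z, φ x + inner ℝ (z - x) (U x) ≤ φ z)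
    {κ : ℝ} {w : ι → E d → ℝ} (hw : Assign K U y m κ w) :
    val K y a σ ≤ (∫ x in K, inner ℝ x (U x)) + (∫ x in K, φ x * (σ x - 1)) +
      κ * RK * volume.real K := by
  classical
  set b : ι → ℝ := fun i => conjK K φ (y i) with hb
  have h1 := val_le_dual hKc hσm hσ0 hσb hy ha b
  obtain ⟨x0, hx0⟩ := hne
  have hRK0 : 0 ≤ RK := (norm_nonneg x0).trans (hRK x0 hx0)
  have hKm : MeasurableSet K := hKc.measurableSet
  have hKf : volume K ≠ ⊤ := hKc.measure_lt_top.ne
  have : IsFiniteMeasure (volume.restrict K) := isFiniteMeasure_restrict.mpr hKf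
  have hφint : IntegrableOn φ K := hφc.continuousOn.integrableOn_compact hKc
  have hφσ : IntegrableOn (fun x => φ x * σ x) K := cont_mul_intOn hKc hφc hσm hσb
  have hgσ : IntegrableOn (fun x => gmax y b x * σ x) K :=
    cont_mul_intOn hKc (continuous_gmax y b) hσm hσb
  have hIU : IntegrableOn (fun x => inner ℝ x (U x)) K := inner_U_intOn hKc hRK hUm hUR
  -- `gmax ≤ φ` on `K`
  have h2 : ∫ x in K, gmax y b x * σ x ≤ ∫ x in K, φ x * σ x := by
    apply setIntegral_mono_on hgσ hφσ hKm
    intro x hx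
    apply mul_le_mul_of_nonneg_right _ (hσ0 x hx)
    apply gmax_le
    intro i
    have := le_conj hKc hφc (z := y i) hx
    simp only [hb]
    linarith
  -- the mass term
  have h3 : ∑ i, m i * b i ≤ ∫ x in K, (inner ℝ x (U x) - φ x + κ * RK) := by
    rw [hw.sum_mass hKc b]
    apply integral_mono_ae (hw.sum_intOn hKc b)
    · exact (hIU.sub hφint).add (integrable_const _)
    · filter_upwards [ae_restrict_mem hKm, hw.sum_one, hw.close, hφ] with x hx hx1 hx2 hx3
      apply sum_weight_le (fun i => hw.nonneg i x) hx1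
      intro i hi
      have e1 := conj_eq hKc hφc hx hx3
      have e2 := conj_lip hKc ⟨x0, hx0⟩ hφc hRK (y i) (U x)
      have e3 : ‖y i - U x‖ ≤ κ := by
        rw [norm_sub_rev]
        exact hx2 i hi
      have e4 : RK * ‖y i - U x‖ ≤ RK * κ := mul_le_mul_of_nonneg_left e3 hRK0
      simp only [hb]
      rw [e1] at e2
      linarith
  have e5 : ∫ x in K, (inner ℝ x (U x) - φ x + κ * RK) =
      (∫ x in K, inner ℝ x (U x)) - (∫ x in K, φ x) + κ * RK * volume.real K := by
    have hh : IntegrableOn (fun x => inner ℝ x (U x) - φ x) K := hIU.sub hφint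
    rw [integral_add hh (integrable_const _), integral_sub hIU hφint,
      setIntegral_const, smul_eq_mul]
    ring
  have e6 : ∫ x in K, φ x * (σ x - 1) = (∫ x in K, φ x * σ x) - ∫ x in K, φ x := by
    rw [← integral_sub hφσ hφint]
    apply integral_congr_ae
    filter_upwards with x
    ring
  rw [e5] at h3
  rw [e6]
  linarith

/-- Lower bound of the value at a perturbed density obtained by moving the mass `s ζ` by `δ e`. -/
theorem val_lower (hKc : IsCompact K) {RK : ℝ} (hRK : ∀ x ∈ K, ‖x‖ ≤ RK)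
    (hy : Function.Injective y) {e : E d} {δ s : ℝ} (hδ : 0 ≤ δ) (hs : 0 ≤ s)
    {ζ : E d → ℝ} (hζm : Measurable ζ) (hζ0 : ∀ x, 0 ≤ ζ x) (hζ1 : ∀ x, s * ζ x ≤ 1)
    (hζK : ∀ x, ζ x ≠ 0 → x ∈ K ∧ x + δ • e ∈ K)
    {a : ι → ℝ}
    (ha : ∀ i, ∫ x in cell K y a i, (1 - s * ζ x + s * ζ (x - δ • e)) = m i)
    {U : E d → E d} (hUm : Measurable U) {R : ℝ} (hUR : ∀ᵐ x ∂(volume.restrict K), ‖U x‖ ≤ R)
    {κ : ℝ} (hκ : 0 ≤ κ) {w : ι → E d → ℝ} (hw : Assign K U y m κ w) :
    (∫ x in K, inner ℝ x (U x)) + s * δ * (∫ x in K, ζ x * inner ℝ e (U x)) -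
        κ * RK * volume.real K ≤ val K y a (fun x => 1 - s * ζ x + s * ζ (x - δ • e)) := by
  classical
  have hKm : MeasurableSet K := hKc.measurableSet
  have : IsFiniteMeasure (volume.restrict K) :=
    isFiniteMeasure_restrict.mpr hKc.measure_lt_top.ne
  set θ : E d → ℝ := fun x => s * ζ x with hθdef
  have hθm : Measurable θ := hζm.const_mul s
  have hθ0 : ∀ x, 0 ≤ θ x := fun x => mul_nonneg hs (hζ0 x)
  have hθ1 : ∀ x, θ x ≤ 1 := hζ1
  have hθK : ∀ x, θ x ≠ 0 → x ∈ K ∧ x + δ • e ∈ K := by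
    intro x hx
    apply hζK
    intro h0
    apply hx
    simp [hθdef, h0]
  have hθb : ∀ x ∈ K, |θ x| ≤ 1 := by
    intro x _
    rw [abs_of_nonneg (hθ0 x)]
    exact hθ1 x
  set σ : E d → ℝ := fun x => 1 - s * ζ x + s * ζ (x - δ • e) with hσdef
  have hσm : Measurable σ := by
    have h1 : Measurable (fun x => θ (x - δ • e)) := hθm.comp (measurable_id.sub_const _)
    exact (measurable_const.sub hθm).add h1
  have hσb : ∀ x ∈ K, |σ x| ≤ 2 := by
    intro x _
    have h1 := hθ0 x
    have h2 := hθ1 x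
    have h3 := hθ0 (x - δ • e)
    have h4 := hθ1 (x - δ • e)
    change |1 - θ x + θ (x - δ • e)| ≤ 2
    rw [abs_le]
    constructor <;> linarith
  have hval := val_eq_dual hKc hσm hσb hy ha
  rw [hval]
  set g : E d → ℝ := gmax y a with hgdef
  have hgc : Continuous g := continuous_gmax y a
  -- translation
  have htr : ∫ x in K, g x * θ (x - δ • e) = ∫ x in K, g (x + δ • e) * θ x := by
    have e1 : ∫ x in K, g x * θ (x - δ • e) = ∫ x, g x * θ (x - δ • e) := by
      apply setIntegral_eq_integral_of_forall_compl_eq_zero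
      intro x hx
      have : θ (x - δ • e) = 0 := by
        by_contra h0
        have := (hθK _ h0).2
        rw [sub_add_cancel] at this
        exact hx this
      simp [this]
    have e2 : ∫ x in K, g (x + δ • e) * θ x = ∫ x, g (x + δ • e) * θ x := by
      apply setIntegral_eq_integral_of_forall_compl_eq_zero
      intro x hx
      have : θ x = 0 := by
        by_contra h0
        exact hx (hθK _ h0).1
      simp [this]
    rw [e1, e2]
    have e3 := integral_sub_right_eq_self (μ := (volume : Measure (E d)))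
      (fun x => g (x + δ • e) * θ x) (δ • e)
    rw [← e3]
    apply integral_congr_ae
    filter_upwards with x
    simp
  -- integrability
  have hIU : IntegrableOn (fun x => inner ℝ x (U x)) K := inner_U_intOn hKc hRK hUm hUR
  have hi1 : IntegrableOn (fun x => g x * (1 - θ x)) K := by
    refine cont_mul_intOn hKc hgc (measurable_const.sub hθm) (B := 1) ?_
    intro x _
    have h1 := hθ0 x
    have h2 := hθ1 x
    rw [abs_le]
    constructor <;> linarith
  have hi2 : IntegrableOn (fun x => g (x + δ • e) * θ x) K :=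
    cont_mul_intOn hKc (hgc.comp (continuous_id.add continuous_const)) hθm hθb
  have hi2' : IntegrableOn (fun x => g x * θ (x - δ • e)) K := by
    refine cont_mul_intOn hKc hgc (hθm.comp (measurable_id.sub_const _)) (B := 1) ?_
    intro x _
    rw [abs_of_nonneg (hθ0 _)]
    exact hθ1 _
  have hi3 := hw.sum_intOn hKc a
  have hθU : IntegrableOn (fun x => θ x * inner ℝ e (U x)) K := by
    refine bd_intOn hKc (hθm.mul (measurable_const.inner hUm)) (C := 1 * (‖e‖ * R)) ?_
    filter_upwards [hUR, ae_restrict_mem hKm] with x hx hx'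
    rw [norm_mul]
    apply mul_le_mul _ _ (norm_nonneg _) zero_le_one
    · rw [Real.norm_eq_abs]
      exact hθb x hx'
    · calc ‖(inner ℝ e (U x) : ℝ)‖ ≤ ‖e‖ * ‖U x‖ := norm_inner_le_norm _ _
        _ ≤ ‖e‖ * R := mul_le_mul_of_nonneg_left hx (norm_nonneg _)
  -- decomposition of the dual functional
  have e1 : ∫ x in K, g x * σ x =
      (∫ x in K, g x * (1 - θ x)) + ∫ x in K, g (x + δ • e) * θ x := by
    rw [← htr, ← integral_add hi1 hi2']
    apply integral_congr_ae
    filter_upwards with x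
    change g x * (1 - θ x + θ (x - δ • e)) = _
    ring
  have e10 : (∫ x in K, g x * (1 - θ x)) + (∫ x in K, g (x + δ • e) * θ x) +
      ∫ x in K, ∑ i, w i x * a i =
      ∫ x in K, (g x * (1 - θ x) + g (x + δ • e) * θ x + ∑ i, w i x * a i) := by
    have hh : IntegrableOn (fun x => g x * (1 - θ x) + g (x + δ • e) * θ x) K := hi1.add hi2
    rw [integral_add hh hi3, integral_add hi1 hi2]
  rw [e1, hw.sum_mass hKc a, e10]
  -- lower bound of the integrand
  have hlow : ∀ᵐ x ∂(volume.restrict K), ∀ z : E d, ‖z‖ ≤ RK →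
      inner ℝ z (U x) - κ * RK ≤ gmax y a z + ∑ i, w i x * a i := by
    filter_upwards [hw.sum_one, hw.close] with x hx1 hx2 z hz
    have e2 : gmax y a z + ∑ i, w i x * a i = ∑ i, w i x * (gmax y a z + a i) := by
      simp only [mul_add, Finset.sum_add_distrib]
      rw [← Finset.sum_mul, hx1, one_mul]
    rw [e2]
    apply le_sum_weight (fun i => hw.nonneg i x) hx1
    intro i hi
    have e3 := le_gmax y a z i
    have e4 : inner ℝ z (y i) = inner ℝ z (U x) - inner ℝ z (U x - y i) := by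
      rw [inner_sub_right]
      ring
    have e5 : (inner ℝ z (U x - y i) : ℝ) ≤ ‖z‖ * ‖U x - y i‖ := real_inner_le_norm _ _
    have e6 : ‖z‖ * ‖U x - y i‖ ≤ RK * κ := by
      have hRK0 : 0 ≤ RK := (norm_nonneg z).trans hz
      exact mul_le_mul hz (hx2 i hi) (norm_nonneg _) hRK0
    linarith
  have hmain : ∫ x in K, (inner ℝ x (U x) - κ * RK + δ * (θ x * inner ℝ e (U x))) ≤
      ∫ x in K, (g x * (1 - θ x) + g (x + δ • e) * θ x + ∑ i, w i x * a i) := by
    apply integral_mono_ae
    · exact (hIU.sub (integrable_const _)).add (hθU.const_mul δ)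
    · exact (hi1.add hi2).add hi3
    · filter_upwards [ae_restrict_mem hKm, hlow] with x hx hl
      have h1 := hl x (hRK x hx)
      have h0a := hθ0 x
      have h0b := hθ1 x
      change g x * (1 - θ x) + g (x + δ • e) * θ x + ∑ i, w i x * a i ≥ _
      by_cases h0 : θ x = 0
      · rw [h0]
        simp only [hgdef] at *
        simp only [zero_mul, mul_zero, add_zero, sub_zero, mul_one]
        exact h1
      · have h2 := hl (x + δ • e) (hRK _ (hθK x h0).2)
        rw [inner_add_left, inner_smul_left] at h2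
        simp only [conj_trivial] at h2
        simp only [hgdef] at *
        set A := ∑ i, w i x * a i
        set P : ℝ := inner ℝ x (U x)
        set Q : ℝ := inner ℝ e (U x)
        set G1 := gmax y a x
        set G2 := gmax y a (x + δ • e)
        have k1 : (1 - θ x) * (P - κ * RK) ≤ (1 - θ x) * (G1 + A) :=
          mul_le_mul_of_nonneg_left h1 (by linarith)
        have k2 : θ x * (P + δ * Q - κ * RK) ≤ θ x * (G2 + A) :=
          mul_le_mul_of_nonneg_left h2 h0a
        nlinarith [k1, k2]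
  have e7 : ∫ x in K, (inner ℝ x (U x) - κ * RK + δ * (θ x * inner ℝ e (U x))) =
      (∫ x in K, inner ℝ x (U x)) - κ * RK * volume.real K +
        δ * ∫ x in K, θ x * inner ℝ e (U x) := by
    have hh : IntegrableOn (fun x => inner ℝ x (U x) - κ * RK) K := hIU.sub (integrable_const _)
    have hh2 : IntegrableOn (fun x => δ * (θ x * inner ℝ e (U x))) K := hθU.const_mul δ
    rw [integral_add hh hh2,
      integral_sub hIU (integrable_const _), setIntegral_const, smul_eq_mul, integral_const_mul]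
    ring
  have e8 : ∫ x in K, θ x * inner ℝ e (U x) = s * ∫ x in K, ζ x * inner ℝ e (U x) := by
    rw [← integral_const_mul]
    apply integral_congr_ae
    filter_upwards with x
    simp only [hθdef]
    ring
  rw [e7, e8] at hmain
  have : s * δ * (∫ x in K, ζ x * inner ℝ e (U x)) = δ * (s * ∫ x in K, ζ x * inner ℝ e (U x)) := by
    ring
  rw [this]
  linarith

end bounds

end Vale.Agent.P074T
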