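import Vale.Agent.Lib.P074.Defs

open MeasureTheory Set Filter Topology Metric
open scoped ENNReal

namespace Vale.Agent.P074T

open Vale.Agent.P074

set_option linter.unusedSectionVars false

variable {d : ℕ}


/-- The Laguerre cell of the site `y i` with weights `a`, inside `K`. -/
def cell (K : Set (E d)) {ι : Type} (y : ι → E d) (a : ι → ℝ) (i : ι) : Set (E d) :=
  {x | x ∈ K ∧ ∀ j, inner ℝ x (y j) - a j ≤ inner ℝ x (y i) - a i}

section cells
variable {K : Set (E d)} {ι : Type} [Fintype ι] {y : ι → E d} {a a' : ι → ℝ}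

lemma cell_subset (i : ι) : cell K y a i ⊆ K := fun _ hx => hx.1

lemma cell_eq_inter (i : ι) :
    cell K y a i = K ∩ ⋂ j, {x | inner ℝ x (y j) - a j ≤ inner ℝ x (y i) - a i} := by
  ext x; simp [cell]

lemma isClosed_cell_aux (i : ι) :
    IsClosed (⋂ j, {x : E d | inner ℝ x (y j) - a j ≤ inner ℝ x (y i) - a i}) := by
  apply isClosed_iInter
  intro j
  exact isClosed_le (by fun_prop) (by fun_prop)

lemma isCompact_cell (hK : IsCompact K) (i : ι) : IsCompact (cell K y a i) := by
  rw [cell_eq_inter]
  exact hK.inter_right (isClosed_cell_aux i)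

lemma measurableSet_cell (hK : MeasurableSet K) (i : ι) : MeasurableSet (cell K y a i) := by
  rw [cell_eq_inter]
  exact hK.inter (isClosed_cell_aux i).measurableSet

lemma midpoint_mem_cell (hK : Convex ℝ K) {i : ι} {x x' : E d} (hx : x ∈ cell K y a i)
    (hx' : x' ∈ cell K y a' i) :
    (1 / 2 : ℝ) • (x + x') ∈ cell K y (fun j => (a j + a' j) / 2) i := by
  refine ⟨?_, fun j => ?_⟩
  · have := hK hx.1 hx'.1 (by norm_num : (0 : ℝ) ≤ 1 / 2) (by norm_num : (0 : ℝ) ≤ 1 / 2)
      (by norm_num)
    rwa [← smul_add] at this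
  · have h1 := hx.2 j
    have h2 := hx'.2 j
    simp only [real_inner_smul_left, inner_add_left]
    linarith

lemma exists_mem_cell [Nonempty ι] {x : E d} (hx : x ∈ K) : ∃ i, x ∈ cell K y a i := by
  obtain ⟨i, hi⟩ := Finite.exists_max (fun j => inner ℝ x (y j) - a j)
  exact ⟨i, hx, hi⟩

lemma volume_hyperplane_null {w : E d} (hw : w ≠ 0) (c : ℝ) :
    volume {x : E d | inner ℝ x w = c} = 0 := by
  have hw2 : inner ℝ w w ≠ 0 := by
    simpa [inner_self_eq_zero] using hw
  set x0 : E d := (c / inner ℝ w w) • w with hx0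
  have hx0w : inner ℝ x0 w = c := by
    rw [hx0, real_inner_smul_left]
    field_simp
  let s : AffineSubspace ℝ (E d) := AffineSubspace.mk' x0 ((Submodule.span ℝ {w})ᗮ)
  have hs : s ≠ ⊤ := by
    intro h
    have h1 : x0 + w ∈ s := by rw [h]; trivial
    have h2 : (x0 + w) -ᵥ x0 ∈ (Submodule.span ℝ {w})ᗮ := (AffineSubspace.mem_mk' ..).1 h1
    have h3 : w ∈ (Submodule.span ℝ {w})ᗮ := by simpa using h2
    rw [Submodule.mem_orthogonal_singleton_iff_inner_left] at h3
    exact hw2 h3
  have hsub : {x : E d | inner ℝ x w = c} ⊆ s := by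
    intro x hx
    refine (AffineSubspace.mem_mk' ..).2 ?_
    rw [Submodule.mem_orthogonal_singleton_iff_inner_left, vsub_eq_sub, inner_sub_left]
    have : inner ℝ x w = c := hx
    rw [this, hx0w, sub_self]
  exact measure_mono_null hsub (Measure.addHaar_affineSubspace volume s hs)

lemma cell_inter_null (hy : Function.Injective y) {i j : ι} (hij : i ≠ j) :
    volume (cell K y a i ∩ cell K y a j) = 0 := by
  have hw : y i - y j ≠ 0 := sub_ne_zero.2 (fun h => hij (hy h))
  refine measure_mono_null ?_ (volume_hyperplane_null hw (a i - a j))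
  rintro x ⟨hx1, hx2⟩
  have h1 := hx1.2 j
  have h2 := hx2.2 i
  show inner ℝ x (y i - y j) = a i - a j
  rw [inner_sub_right]
  linarith

lemma iUnion_cell [Nonempty ι] : ⋃ i, cell K y a i = K := by
  apply Subset.antisymm
  · exact iUnion_subset cell_subset
  · intro x hx
    obtain ⟨i, hi⟩ := exists_mem_cell (y := y) (a := a) hx
    exact mem_iUnion.2 ⟨i, hi⟩

lemma sum_setIntegral_cell_gen {G : Type*} [NormedAddCommGroup G] [NormedSpace ℝ G]
    [Nonempty ι] (hK : MeasurableSet K) (hy : Function.Injective y)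
    {F : E d → G} (hF : IntegrableOn F K) :
    ∑ i, ∫ x in cell K y a i, F x = ∫ x in K, F x := by
  have h := integral_iUnion_ae (μ := volume) (s := fun i => cell K y a i) (f := F)
    (fun i => (measurableSet_cell hK i).nullMeasurableSet)
    (fun i j hij => (cell_inter_null hy hij))
    (by rwa [iUnion_cell])
  rw [iUnion_cell, tsum_fintype] at h
  exact h.symm

/-- Cells partition `K` up to null sets: integrals add up. -/
lemma sum_setIntegral_cell [Nonempty ι] (hK : MeasurableSet K) (hy : Function.Injective y)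
    {F : E d → ℝ} (hF : IntegrableOn F K) :
    ∑ i, ∫ x in cell K y a i, F x = ∫ x in K, F x :=
  sum_setIntegral_cell_gen hK hy hF

/-- vector-valued version -/
lemma sum_setIntegral_cell_vec [Nonempty ι] (hK : MeasurableSet K) (hy : Function.Injective y)
    {F : E d → E d} (hF : IntegrableOn F K) :
    ∑ i, ∫ x in cell K y a i, F x = ∫ x in K, F x :=
  sum_setIntegral_cell_gen hK hy hF

end cells

end Vale.Agent.P074T
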