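import Vale.Agent.Lib.P074T.Bounds

open MeasureTheory Set Filter Topology Metric
open scoped ENNReal

namespace Vale.Agent.P074T

open Vale.Agent.P074

set_option linter.unusedSectionVars false

variable {d : ℕ}

lemma exists_quantizer_aux (κ : ℝ) (t : Finset (E d)) (ht : t.Nonempty) :
    ∃ q : E d → E d, Measurable q ∧ (∀ y, q y ∈ t) ∧
      ∀ y, (∃ c ∈ t, y ∈ ball c κ) → y ∈ ball (q y) κ := by
  classical
  induction ht using Finset.Nonempty.cons_induction with
  | singleton a =>
    refine ⟨fun _ => a, measurable_const, by simp, ?_⟩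
    rintro y ⟨c, hc, hy⟩
    simp only [Finset.mem_singleton] at hc
    subst hc
    exact hy
  | cons a s h hs ih =>
    obtain ⟨q, hqm, hqt, hq⟩ := ih
    refine ⟨fun y => if y ∈ ball a κ then a else q y, ?_, ?_, ?_⟩
    · exact Measurable.ite measurableSet_ball measurable_const hqm
    · intro y
      by_cases hy : y ∈ ball a κ
      · simp [hy]
      · simp [hy, hqt y]
    · rintro y ⟨c, hc, hy⟩
      by_cases hya : y ∈ ball a κ
      · simp [hya]
      · simp only [hya, if_false]
        apply hq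
        rw [Finset.mem_cons] at hc
        rcases hc with rfl | hc
        · exact absurd hy hya
        · exact ⟨c, hc, hy⟩

lemma exists_quantizer {Y : Set (E d)} (hY : IsCompact Y) (hne : Y.Nonempty) {κ : ℝ}
    (hκ : 0 < κ) :
    ∃ (t : Finset (E d)) (q : E d → t), Measurable q ∧ ∀ y ∈ Y, ‖y - (q y : E d)‖ ≤ κ := by
  classical
  obtain ⟨s, -, hsf, hs⟩ := hY.finite_cover_balls hκ
  have hsne : s.Nonempty := by
    obtain ⟨y, hy⟩ := hne
    obtain ⟨c, hc, -⟩ := mem_iUnion₂.1 (hs hy)
    exact ⟨c, hc⟩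
  have htne : hsf.toFinset.Nonempty := by
    rwa [Set.Finite.toFinset_nonempty]
  obtain ⟨q, hqm, hqt, hq⟩ := exists_quantizer_aux κ hsf.toFinset htne
  refine ⟨hsf.toFinset, fun y => ⟨q y, hqt y⟩, hqm.subtype_mk, ?_⟩
  intro y hy
  obtain ⟨c, hc, hyc⟩ := mem_iUnion₂.1 (hs hy)
  have := hq y ⟨c, by simpa using hc, hyc⟩
  rw [mem_ball, dist_eq_norm] at this
  exact this.le

lemma restrict_real_preimage {K : Set (E d)} (hKc : IsCompact K) (hK0 : volume K ≠ 0)
    {ρ : Measure (E d)} {U : E d → E d} (hU : Measurable U) (hUρ : (unif K).map U = ρ)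
    {A : Set (E d)} (hA : MeasurableSet A) :
    (volume.restrict K).real (U ⁻¹' A) = volume.real K * ρ.real A := by
  have h1 : ρ A = (volume K)⁻¹ * (volume.restrict K) (U ⁻¹' A) := by
    rw [← hUρ, Measure.map_apply hU hA]
    simp [unif]
  have hK1 : volume K ≠ ⊤ := hKc.measure_lt_top.ne
  have hV : volume.real K ≠ 0 := by
    simp [measureReal_def, ENNReal.toReal_eq_zero_iff, hK0, hK1]
  rw [measureReal_def ρ A, h1, ENNReal.toReal_mul, ENNReal.toReal_inv, ← measureReal_def,
    ← measureReal_def, mul_inv_cancel_left₀ hV]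

lemma assign_of {K Y : Set (E d)} (hKc : IsCompact K) (hK0 : volume K ≠ 0)
    (hYm : MeasurableSet Y)
    {J ι : Type} [Fintype J] [DecidableEq J] [Fintype ι] [Nonempty ι] [MeasurableSpace J]
    [MeasurableSingletonClass J]
    {q : E d → J} (hq : Measurable q) {c : J → E d} {κ : ℝ}
    (hqY : ∀ y ∈ Y, ‖y - c (q y)‖ ≤ κ)
    {ρ : Measure (E d)} [IsProbabilityMeasure ρ] (hρY : ρ Yᶜ = 0) {U : E d → E d}
    (hU : Measurable U) (hUρ : (unif K).map U = ρ)
    {r : ι → J} {w : ι → ℝ} (hw : ∀ i, 0 < w i)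
    (hsum : ∀ j, ∑ i, (if r i = j then w i else 0) = ρ.real (q ⁻¹' {j})) :
    Assign K U (fun i => c (r i)) (fun i => volume.real K * w i) κ
      (fun i x => if q (U x) = r i then w i / ρ.real (q ⁻¹' {r i}) else 0) := by
  have hA : ∀ j, MeasurableSet (q ⁻¹' {j}) := fun j => hq (measurableSet_singleton j)
  have hpos : ∀ i, 0 < ρ.real (q ⁻¹' {r i}) := by
    intro i
    rw [← hsum (r i)]
    calc 0 < w i := hw i
      _ = (if r i = r i then w i else 0) := by simp
      _ ≤ _ := Finset.single_le_sum (f := fun i' => if r i' = r i then w i' else 0)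
          (fun i' _ => by
            show 0 ≤ (if r i' = r i then w i' else 0)
            split_ifs
            · exact (hw i').le
            · exact le_rfl) (Finset.mem_univ i)
  have hUm : ∀ j, MeasurableSet ((fun x => q (U x)) ⁻¹' {j}) :=
    fun j => (hq.comp hU) (measurableSet_singleton j)
  -- almost every point has its cell of positive mass
  have hnull : ∀ᵐ x ∂(volume.restrict K), ρ.real (q ⁻¹' {q (U x)}) ≠ 0 := by
    have h1 : ∀ j, ∀ᵐ x ∂(volume.restrict K), q (U x) = j → ρ.real (q ⁻¹' {j}) ≠ 0 := by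
      intro j
      by_cases hj : ρ.real (q ⁻¹' {j}) = 0
      · have hr := restrict_real_preimage hKc hK0 hU hUρ (hA j)
        rw [hj, mul_zero] at hr
        have hfin : (volume.restrict K) (U ⁻¹' (q ⁻¹' {j})) ≠ ⊤ := by
          refine ne_of_lt (lt_of_le_of_lt (measure_mono (subset_univ _)) ?_)
          rw [Measure.restrict_apply_univ]
          exact hKc.measure_lt_top
        have h0 : (volume.restrict K) (U ⁻¹' (q ⁻¹' {j})) = 0 := by
          rw [measureReal_def, ENNReal.toReal_eq_zero_iff] at hr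
          exact hr.resolve_right hfin
        have h2 : ∀ᵐ x ∂(volume.restrict K), x ∉ U ⁻¹' (q ⁻¹' {j}) :=
          measure_eq_zero_iff_ae_notMem.1 h0
        filter_upwards [h2] with x hx hxj
        exact absurd (by simpa using hxj) hx
      · exact Filter.Eventually.of_forall (fun _ _ => hj)
    have h3 := ae_all_iff.2 h1
    filter_upwards [h3] with x hx
    exact hx _ rfl
  refine ⟨?_, ?_, ?_, ?_, ?_⟩
  · intro i
    exact Measurable.ite (hUm (r i)) measurable_const measurable_const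
  · intro i x
    show 0 ≤ (if q (U x) = r i then w i / ρ.real (q ⁻¹' {r i}) else 0)
    split_ifs
    · exact (div_pos (hw i) (hpos i)).le
    · exact le_rfl
  · filter_upwards [hnull] with x hx
    have h1 : ∀ i, (if q (U x) = r i then w i / ρ.real (q ⁻¹' {r i}) else 0)
        = (if r i = q (U x) then w i else 0) / ρ.real (q ⁻¹' {q (U x)}) := by
      intro i
      by_cases h : q (U x) = r i
      · simp [h]
      · have h' : ¬ r i = q (U x) := fun e => h e.symm
        simp [h, h']
    simp only [h1]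
    rw [← Finset.sum_div, hsum, div_self hx]
  · intro i
    have h1 : (fun x => if q (U x) = r i then w i / ρ.real (q ⁻¹' {r i}) else 0)
        = ((fun x => q (U x)) ⁻¹' {r i}).indicator (fun _ => w i / ρ.real (q ⁻¹' {r i})) := by
      funext x
      by_cases h : q (U x) = r i
      · rw [indicator_of_mem (by simpa using h), if_pos h]
      · rw [indicator_of_notMem (by simpa using h), if_neg h]
    show ∫ x in K, (if q (U x) = r i then w i / ρ.real (q ⁻¹' {r i}) else 0) = _
    rw [h1, integral_indicator_const _ (hUm (r i)), smul_eq_mul]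
    have h2 : (fun x => q (U x)) ⁻¹' {r i} = U ⁻¹' (q ⁻¹' {r i}) := rfl
    rw [h2, restrict_real_preimage hKc hK0 hU hUρ (hA (r i))]
    have := (hpos i).ne'
    field_simp
  · have hae : ∀ᵐ x ∂(volume.restrict K), U x ∈ Y := by
      have h0 : (volume.restrict K) (U ⁻¹' Yᶜ) = 0 := by
        have hr := restrict_real_preimage hKc hK0 hU hUρ hYm.compl
        have h4 : ρ.real Yᶜ = 0 := by simp [measureReal_def, hρY]
        rw [h4, mul_zero] at hr
        have hfin : (volume.restrict K) (U ⁻¹' Yᶜ) ≠ ⊤ := by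
          refine ne_of_lt (lt_of_le_of_lt (measure_mono (subset_univ _)) ?_)
          rw [Measure.restrict_apply_univ]
          exact hKc.measure_lt_top
        rw [measureReal_def, ENNReal.toReal_eq_zero_iff] at hr
        exact hr.resolve_right hfin
      have h5 := measure_eq_zero_iff_ae_notMem.1 h0
      filter_upwards [h5] with x hx
      by_contra hxY
      exact hx hxY
    filter_upwards [hae] with x hx i hne
    have hri : q (U x) = r i := by
      by_contra h
      exact hne (if_neg h)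
    show ‖U x - c (r i)‖ ≤ κ
    rw [← hri]
    exact hqY _ hx

lemma coupling_prob' {μ ν : Measure (E d)} [IsProbabilityMeasure μ] {π : Measure (E d × E d)}
    (hπ : IsCoupling μ ν π) : IsProbabilityMeasure π := by
  constructor
  have := measure_univ (μ := μ)
  rw [← hπ.1, Measure.map_apply measurable_fst MeasurableSet.univ] at this
  simpa using this

lemma ae_fst_snd_mem' {μ ν : Measure (E d)} {π : Measure (E d × E d)} (hπ : IsCoupling μ ν π)
    {Y : Set (E d)} (hYm : MeasurableSet Y) (hμ : μ Yᶜ = 0) (hν : ν Yᶜ = 0) :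
    ∀ᵐ p ∂π, p.1 ∈ Y ∧ p.2 ∈ Y := by
  have h1 : π (Prod.fst ⁻¹' Yᶜ) = 0 := by
    rw [← Measure.map_apply measurable_fst hYm.compl, hπ.1]
    exact hμ
  have h2 : π (Prod.snd ⁻¹' Yᶜ) = 0 := by
    rw [← Measure.map_apply measurable_snd hYm.compl, hπ.2]
    exact hν
  have h1' : ∀ᵐ p ∂π, p.1 ∈ Y := by
    rw [ae_iff]
    exact h1
  have h2' : ∀ᵐ p ∂π, p.2 ∈ Y := by
    rw [ae_iff]
    exact h2
  filter_upwards [h1', h2'] with p a b
  exact ⟨a, b⟩

lemma coupling_cells {J : Type} [Fintype J] [DecidableEq J] [MeasurableSpace J]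
    [MeasurableSingletonClass J] {q : E d → J} (hq : Measurable q) {μ ν : Measure (E d)}
    [IsProbabilityMeasure μ] {π : Measure (E d × E d)} (hπ : IsCoupling μ ν π) :
    ∃ P : J × J → ℝ, (∀ z, 0 ≤ P z) ∧
      (∀ j, ∑ z, (if z.1 = j then P z else 0) = μ.real (q ⁻¹' {j})) ∧
      (∀ l, ∑ z, (if z.2 = l then P z else 0) = ν.real (q ⁻¹' {l})) ∧
      (∀ h : J × J → ℝ, ∑ z, P z * h z = ∫ p, h (q p.1, q p.2) ∂π) := by
  have := coupling_prob' hπ
  have hqq : Measurable (fun p : E d × E d => (q p.1, q p.2)) :=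
    (hq.comp measurable_fst).prodMk (hq.comp measurable_snd)
  set π' : Measure (J × J) := π.map (fun p : E d × E d => (q p.1, q p.2)) with hπ'
  have : IsProbabilityMeasure π' := Measure.isProbabilityMeasure_map hqq.aemeasurable
  have hfilter : ∀ (S : J × J → Prop) [DecidablePred S], ∑ z, (if S z then π'.real {z} else 0)
      = π.real ((fun p : E d × E d => (q p.1, q p.2)) ⁻¹' {z | S z}) := by
    intro S _
    rw [← Finset.sum_filter, sum_measureReal_singleton]
    have h1 : ((Finset.univ.filter S : Finset (J × J)) : Set (J × J)) = {z | S z} := by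
      ext z; simp
    rw [h1, measureReal_def, hπ', Measure.map_apply hqq (Set.toFinite _).measurableSet,
      measureReal_def]
  refine ⟨fun z => π'.real {z}, fun z => measureReal_nonneg, ?_, ?_, ?_⟩
  · intro j
    rw [hfilter (fun z => z.1 = j)]
    have h2 : (fun p : E d × E d => (q p.1, q p.2)) ⁻¹' {z | z.1 = j}
        = Prod.fst ⁻¹' (q ⁻¹' {j}) := by
      ext p; simp
    rw [h2, ← hπ.1, measureReal_def, measureReal_def,
      Measure.map_apply measurable_fst (hq (measurableSet_singleton j))]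
  · intro l
    rw [hfilter (fun z => z.2 = l)]
    have h2 : (fun p : E d × E d => (q p.1, q p.2)) ⁻¹' {z | z.2 = l}
        = Prod.snd ⁻¹' (q ⁻¹' {l}) := by
      ext p; simp
    rw [h2, ← hπ.2, measureReal_def, measureReal_def,
      Measure.map_apply measurable_snd (hq (measurableSet_singleton l))]
  · intro h
    have h1 : ∫ z, h z ∂π' = ∫ p, h (q p.1, q p.2) ∂π := by
      rw [hπ']
      exact integral_map hqq.aemeasurable (Measurable.of_discrete (f := h)).aestronglyMeasurable
    rw [← h1, integral_fintype Integrable.of_finite]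
    simp

lemma cost_minkowski {π : Measure (E d × E d)} [IsProbabilityMeasure π] {Y : Set (E d)}
    (hY : ∀ᵐ p ∂π, p.1 ∈ Y ∧ p.2 ∈ Y) {R : ℝ} (hR : ∀ y ∈ Y, ‖y‖ ≤ R)
    {g : E d × E d → ℝ} (hgm : Measurable g) {κ : ℝ} (hκ : 0 ≤ κ)
    (hg : ∀ᵐ p ∂π, |g p| ≤ ‖p.1 - p.2‖ + 2 * κ) :
    ∫ p, (g p) ^ 2 ∂π ≤
      (Real.sqrt (∫⁻ p, ENNReal.ofReal (‖p.1 - p.2‖ ^ 2) ∂π).toReal + 2 * κ) ^ 2 := by
  set f : E d × E d → ℝ := fun p => ‖p.1 - p.2‖ with hf
  have hfm : Measurable f := (continuous_norm.comp (continuous_fst.sub continuous_snd)).measurable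
  have hfb : ∀ᵐ p ∂π, ‖f p‖ ≤ 2 * R := by
    filter_upwards [hY] with p hp
    have h1 := hR _ hp.1
    have h2 := hR _ hp.2
    rw [norm_norm]
    exact (norm_sub_le _ _).trans (by linarith)
  have hfi : Integrable f π := Integrable.of_bound hfm.aestronglyMeasurable _ hfb
  have hf2b : ∀ᵐ p ∂π, ‖(f p) ^ 2‖ ≤ (2 * R) ^ 2 := by
    filter_upwards [hfb] with p hp
    rw [norm_pow]
    exact pow_le_pow_left₀ (norm_nonneg _) hp 2
  have hf2i : Integrable (fun p => (f p) ^ 2) π :=
    Integrable.of_bound (hfm.pow_const 2).aestronglyMeasurable _ hf2b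
  set I : ℝ := ∫ p, (f p) ^ 2 ∂π with hI
  have hIeq : (∫⁻ p, ENNReal.ofReal (‖p.1 - p.2‖ ^ 2) ∂π).toReal = I := by
    rw [hI, integral_eq_lintegral_of_nonneg_ae
      (Filter.Eventually.of_forall (fun p => sq_nonneg _)) hf2i.aestronglyMeasurable]
  rw [hIeq]
  set m : ℝ := ∫ p, f p ∂π with hm
  have hI0 : 0 ≤ I := integral_nonneg (fun p => sq_nonneg _)
  have hmI : m ^ 2 ≤ I := by
    have h0 : 0 ≤ ∫ p, (f p - m) ^ 2 ∂π := integral_nonneg (fun p => sq_nonneg _)
    have h1 : ∫ p, (f p - m) ^ 2 ∂π = I - 2 * m * m + m ^ 2 := by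
      have h2 : (fun p => (f p - m) ^ 2) = fun p => (f p) ^ 2 - 2 * m * f p + m ^ 2 := by
        funext p; ring
      have hA : Integrable (fun p => (f p) ^ 2 - 2 * m * f p) π := hf2i.sub (hfi.const_mul _)
      rw [h2, integral_add hA (integrable_const _),
        integral_sub hf2i (hfi.const_mul _), integral_const_mul]
      simp [hI, hm]
    nlinarith
  have hmle : m ≤ Real.sqrt I := Real.le_sqrt_of_sq_le hmI
  have hle : ∫ p, (g p) ^ 2 ∂π ≤ ∫ p, ((f p) ^ 2 + 4 * κ * f p + 4 * κ ^ 2) ∂π := by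
    apply integral_mono_of_nonneg (Filter.Eventually.of_forall (fun p => sq_nonneg _))
    · have hA : Integrable (fun p => (f p) ^ 2 + 4 * κ * f p) π := hf2i.add (hfi.const_mul _)
      exact hA.add (integrable_const _)
    · filter_upwards [hg] with p hp
      have h3 : (g p) ^ 2 = |g p| ^ 2 := (sq_abs _).symm
      show (g p) ^ 2 ≤ (f p) ^ 2 + 4 * κ * f p + 4 * κ ^ 2
      rw [h3]
      have h4 : |g p| ^ 2 ≤ (f p + 2 * κ) ^ 2 := pow_le_pow_left₀ (abs_nonneg _) hp 2
      nlinarith
  have heq : ∫ p, ((f p) ^ 2 + 4 * κ * f p + 4 * κ ^ 2) ∂π = I + 4 * κ * m + 4 * κ ^ 2 := by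
    have hA : Integrable (fun p => (f p) ^ 2 + 4 * κ * f p) π := hf2i.add (hfi.const_mul _)
    rw [integral_add hA (integrable_const _),
      integral_add hf2i (hfi.const_mul _), integral_const_mul]
    simp [hI, hm]
  rw [heq] at hle
  have hsq : Real.sqrt I ^ 2 = I := Real.sq_sqrt hI0
  nlinarith [mul_le_mul_of_nonneg_left hmle hκ]

lemma sum_subtype_supp {Z : Type} [Fintype Z] (p : Z → Prop) [DecidablePred p]
    [Fintype {z // p z}] (f : Z → ℝ) (hf : ∀ z, ¬ p z → f z = 0) :
    ∑ i : {z // p z}, f i.1 = ∑ z, f z := by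
  rw [← Finset.sum_subtype (Finset.univ.filter p) (by simp) f]
  exact Finset.sum_filter_of_ne (fun x _ hx => by_contra (fun h => hx (hf x h)))

/-- Discretization of a coupling. -/
theorem exists_discretization {K Y : Set (E d)} (hKc : IsCompact K) (hK0 : volume K ≠ 0)
    (hY : IsCompact Y) {μ ν : Measure (E d)} [IsProbabilityMeasure μ] [IsProbabilityMeasure ν]
    (hμY : μ Yᶜ = 0) (hνY : ν Yᶜ = 0) {T S : E d → E d} (hT : Measurable T) (hS : Measurable S)
    (hTμ : (unif K).map T = μ) (hSν : (unif K).map S = ν) {π : Measure (E d × E d)}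
    (hπ : IsCoupling μ ν π) {κ : ℝ} (hκ : 0 < κ) :
    ∃ (ι : Type) (_ : Fintype ι) (_ : Nonempty ι) (m : ι → ℝ) (y0 y1 : ι → E d)
      (wT wS : ι → E d → ℝ),
      (∀ i, 0 < m i) ∧ ∑ i, m i = volume.real K ∧
      (∀ i j, i ≠ j → y0 i ≠ y0 j ∨ y1 i ≠ y1 j) ∧
      Assign K T y0 m κ wT ∧ Assign K S y1 m κ wS ∧
      Real.sqrt (∑ i, m i * ‖y1 i - y0 i‖ ^ 2) ≤ Real.sqrt (volume.real K) *
        (Real.sqrt (∫⁻ p, ENNReal.ofReal (‖p.1 - p.2‖ ^ 2) ∂π).toReal + 2 * κ) := by
  classical
  have hYm : MeasurableSet Y := hY.measurableSet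
  have hYne : Y.Nonempty := by
    by_contra h
    rw [Set.not_nonempty_iff_eq_empty] at h
    subst h
    simp at hμY
  obtain ⟨t, q, hq, hqY⟩ := exists_quantizer hY hYne hκ
  have hπp := coupling_prob' hπ
  obtain ⟨P, hP0, hP1, hP2, hPh⟩ := coupling_cells hq hπ
  have hPsum : ∑ z, P z = 1 := by
    have := hPh (fun _ => 1)
    simpa using this
  let ι : Type := {z : t × t // 0 < P z}
  haveI hιF : Fintype ι := Subtype.fintype _
  have hιne : Nonempty ι := by
    by_contra hne
    have hz : ∀ z, P z = 0 := by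
      intro z
      by_contra hzz
      exact hne ⟨⟨z, lt_of_le_of_ne (hP0 z) (Ne.symm hzz)⟩⟩
    simp [hz] at hPsum
  have hV : 0 < volume.real K := by
    have hK1 : volume K ≠ ⊤ := hKc.measure_lt_top.ne
    rw [measureReal_def]
    exact ENNReal.toReal_pos hK0 hK1
  let c : t → E d := fun j => (j : E d)
  have hcT := assign_of hKc hK0 hYm (ι := ι) hq (c := c) (κ := κ) hqY hμY hT hTμ
    (r := fun i => i.1.1) (w := fun i => P i.1) (fun i => i.2)
    (fun j => by
      rw [← hP1 j]
      exact sum_subtype_supp (fun z => 0 < P z) (fun z => if z.1 = j then P z else 0)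
        (fun z hz => by
          have : P z = 0 := le_antisymm (not_lt.1 hz) (hP0 z)
          simp [this]))
  have hcS := assign_of hKc hK0 hYm (ι := ι) hq (c := c) (κ := κ) hqY hνY hS hSν
    (r := fun i => i.1.2) (w := fun i => P i.1) (fun i => i.2)
    (fun j => by
      rw [← hP2 j]
      exact sum_subtype_supp (fun z => 0 < P z) (fun z => if z.2 = j then P z else 0)
        (fun z hz => by
          have : P z = 0 := le_antisymm (not_lt.1 hz) (hP0 z)
          simp [this]))
  refine ⟨ι, hιF, hιne, fun i => volume.real K * P i.1, fun i => c i.1.1, fun i => c i.1.2,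
    _, _, fun i => mul_pos hV i.2, ?_, ?_, hcT, hcS, ?_⟩
  · rw [← Finset.mul_sum]
    have h := sum_subtype_supp (fun z => 0 < P z) P (fun z hz => le_antisymm (not_lt.1 hz) (hP0 z))
    have h' : ∑ i : ι, P i.1 = ∑ z, P z := h
    rw [h', hPsum, mul_one]
  · intro i j hij
    by_contra hcon
    rw [not_or, not_not, not_not] at hcon
    apply hij
    apply Subtype.ext
    apply Prod.ext
    · exact Subtype.ext hcon.1
    · exact Subtype.ext hcon.2
  · have h1 : ∑ i : ι, volume.real K * P i.1 * ‖c i.1.2 - c i.1.1‖ ^ 2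
        = volume.real K * ∑ z, P z * ‖c z.2 - c z.1‖ ^ 2 := by
      rw [Finset.mul_sum, ← sum_subtype_supp (fun z => 0 < P z)
        (fun z => volume.real K * (P z * ‖c z.2 - c z.1‖ ^ 2))
        (fun z hz => by
          have : P z = 0 := le_antisymm (not_lt.1 hz) (hP0 z)
          simp [this])]
      exact Finset.sum_congr rfl (fun i _ => by ring)
    rw [h1, Real.sqrt_mul hV.le]
    apply mul_le_mul_of_nonneg_left _ (Real.sqrt_nonneg _)
    have h2 : ∑ z, P z * ‖c z.2 - c z.1‖ ^ 2 = ∫ p, ‖c (q p.2) - c (q p.1)‖ ^ 2 ∂π :=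
      hPh (fun z => ‖c z.2 - c z.1‖ ^ 2)
    rw [h2]
    obtain ⟨R, hR⟩ := hY.isBounded.exists_norm_le
    have hae := ae_fst_snd_mem' hπ hYm hμY hνY
    have hgm : Measurable (fun p : E d × E d => ‖c (q p.2) - c (q p.1)‖) := by
      have hcq : Measurable (fun y : E d => c (q y)) := measurable_subtype_coe.comp hq
      exact ((hcq.comp measurable_snd).sub (hcq.comp measurable_fst)).norm
    have hcost := cost_minkowski hae hR hgm hκ.le (by
      filter_upwards [hae] with p hp
      rw [abs_of_nonneg (norm_nonneg _)]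
      have h3 := hqY _ hp.1
      have h4 := hqY _ hp.2
      have h5 : c (q p.2) - c (q p.1) = (p.2 - p.1) + (p.1 - c (q p.1)) - (p.2 - c (q p.2)) := by
        abel
      rw [h5]
      calc _ ≤ ‖(p.2 - p.1) + (p.1 - c (q p.1))‖ + ‖p.2 - c (q p.2)‖ := norm_sub_le _ _
        _ ≤ ‖p.2 - p.1‖ + ‖p.1 - c (q p.1)‖ + ‖p.2 - c (q p.2)‖ := by
            gcongr
            exact norm_add_le _ _
        _ ≤ _ := by
            rw [norm_sub_rev p.2 p.1]
            have h3' : ‖p.1 - c (q p.1)‖ ≤ κ := h3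
            have h4' : ‖p.2 - c (q p.2)‖ ≤ κ := h4
            linarith)
    apply Real.sqrt_le_iff.2
    refine ⟨add_nonneg (Real.sqrt_nonneg _) (by positivity), hcost⟩

end Vale.Agent.P074T
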