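import Vale.Agent.Lib.P074T.Cells

open MeasureTheory Set Filter Topology Metric
open scoped ENNReal

namespace Vale.Agent.P074T

open Vale.Agent.P074

set_option linter.unusedSectionVars false

variable {d : ℕ}


/-- `g x = max_i (⟨x, y i⟩ - a i)`. -/
noncomputable def gmax {ι : Type} [Fintype ι] [Nonempty ι] (y : ι → E d) (a : ι → ℝ) (x : E d) : ℝ :=
  Finset.univ.sup' Finset.univ_nonempty (fun i => inner ℝ x (y i) - a i)

/-- The first moment of a cell with respect to the density `σ`. -/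
noncomputable def xv (K : Set (E d)) {ι : Type} (y : ι → E d) (a : ι → ℝ) (σ : E d → ℝ) (i : ι) : E d :=
  ∫ x in cell K y a i, σ x • x

/-- The value of the semi-discrete problem at a Laguerre solution. -/
noncomputable def val (K : Set (E d)) {ι : Type} [Fintype ι] (y : ι → E d) (a : ι → ℝ) (σ : E d → ℝ) : ℝ :=
  ∑ i, inner ℝ (xv K y a σ i) (y i)

section dual
variable {K : Set (E d)} {ι : Type} [Fintype ι] [Nonempty ι] {y y' : ι → E d} {a b : ι → ℝ}
  {σ : E d → ℝ} {m : ι → ℝ}

lemma dual_le_gmax (y : ι → E d) (a : ι → ℝ) (x : E d) (i : ι) :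
    inner ℝ x (y i) - a i ≤ gmax y a x :=
  Finset.le_sup' (fun i => inner ℝ x (y i) - a i) (Finset.mem_univ i)

lemma dual_gmax_le {y : ι → E d} {a : ι → ℝ} {x : E d} {A : ℝ}
    (h : ∀ i, inner ℝ x (y i) - a i ≤ A) : gmax y a x ≤ A :=
  Finset.sup'_le _ _ (fun i _ => h i)

lemma dual_continuous_gmax (y : ι → E d) (a : ι → ℝ) : Continuous (gmax y a) := by
  unfold gmax
  have h : ∀ i ∈ (Finset.univ : Finset ι), Continuous (fun x : E d => inner ℝ x (y i) - a i) := by
    intro i _
    fun_prop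
  exact Continuous.finset_sup'_apply (s := Finset.univ) Finset.univ_nonempty h

omit [Fintype ι] [Nonempty ι] in
lemma dual_intOn_mul (hKc : IsCompact K) (hσm : Measurable σ) {Bσ : ℝ}
    (hσb : ∀ x ∈ K, |σ x| ≤ Bσ) {f : E d → ℝ} (hf : Continuous f) :
    IntegrableOn (fun x => f x * σ x) K := by
  obtain ⟨C, hC⟩ := hKc.exists_bound_of_continuousOn hf.continuousOn
  refine Measure.integrableOn_of_bounded hKc.measure_lt_top.ne
    (hf.measurable.mul hσm).aestronglyMeasurable (M := C * Bσ) ?_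
  filter_upwards [ae_restrict_mem hKc.measurableSet] with x hx
  rw [norm_mul]
  have h1 := hC x hx
  have h2 : ‖σ x‖ ≤ Bσ := by
    rw [Real.norm_eq_abs]
    exact hσb x hx
  exact mul_le_mul h1 h2 (norm_nonneg _) ((norm_nonneg _).trans h1)

omit [Fintype ι] [Nonempty ι] in
lemma dual_intOn_sigma (hKc : IsCompact K) (hσm : Measurable σ) {Bσ : ℝ}
    (hσb : ∀ x ∈ K, |σ x| ≤ Bσ) : IntegrableOn σ K := by
  simpa using dual_intOn_mul hKc hσm hσb (f := fun _ => (1 : ℝ)) continuous_const

omit [Fintype ι] [Nonempty ι] in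
lemma dual_intOn_smul (hKc : IsCompact K) (hσm : Measurable σ) {Bσ : ℝ}
    (hσb : ∀ x ∈ K, |σ x| ≤ Bσ) : IntegrableOn (fun x => σ x • x) K := by
  obtain ⟨C, hC⟩ := hKc.exists_bound_of_continuousOn (continuous_id (X := E d)).continuousOn
  refine Measure.integrableOn_of_bounded hKc.measure_lt_top.ne
    (hσm.smul measurable_id).aestronglyMeasurable (M := Bσ * C) ?_
  filter_upwards [ae_restrict_mem hKc.measurableSet] with x hx
  rw [norm_smul]
  have h1 := hC x hx
  have h2 : ‖σ x‖ ≤ Bσ := by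
    rw [Real.norm_eq_abs]
    exact hσb x hx
  exact mul_le_mul h2 h1 (norm_nonneg _) ((norm_nonneg _).trans h2)

omit [Nonempty ι] in
/-- The inner product of a moment with a vector, as an integral over the cell. -/
lemma inner_xv (hKc : IsCompact K) (hσm : Measurable σ) {Bσ : ℝ}
    (hσb : ∀ x ∈ K, |σ x| ≤ Bσ) (i : ι) (w : E d) :
    inner ℝ (xv K y a σ i) w = ∫ x in cell K y a i, inner ℝ x w * σ x := by
  have hint : IntegrableOn (fun x => σ x • x) (cell K y a i) :=
    (dual_intOn_smul hKc hσm hσb).mono_set (cell_subset i)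
  have h := integral_inner (𝕜 := ℝ) hint w
  unfold xv
  rw [real_inner_comm, ← h]
  apply integral_congr_ae
  filter_upwards with x
  rw [real_inner_smul_right, real_inner_comm]
  ring

/-- The basic inequality: any sites `y'` and weights `b`. -/
lemma sum_inner_xv_le (hKc : IsCompact K) (hσm : Measurable σ) (hσ0 : ∀ x ∈ K, 0 ≤ σ x) {Bσ : ℝ}
    (hσb : ∀ x ∈ K, |σ x| ≤ Bσ) (hy : Function.Injective y)
    (ha : ∀ i, ∫ x in cell K y a i, σ x = m i) (y' : ι → E d) (b : ι → ℝ) :
    ∑ i, inner ℝ (xv K y a σ i) (y' i) ≤ (∫ x in K, gmax y' b x * σ x) + ∑ i, m i * b i := by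
  have hKm := hKc.measurableSet
  have h1 : ∑ i, ∫ x in cell K y a i, gmax y' b x * σ x = ∫ x in K, gmax y' b x * σ x :=
    sum_setIntegral_cell hKm hy (dual_intOn_mul hKc hσm hσb (dual_continuous_gmax y' b))
  rw [← h1, ← Finset.sum_add_distrib]
  apply Finset.sum_le_sum
  intro i _
  rw [inner_xv hKc hσm hσb i (y' i)]
  have hσi : IntegrableOn σ (cell K y a i) :=
    (dual_intOn_sigma hKc hσm hσb).mono_set (cell_subset i)
  have hg : IntegrableOn (fun x => gmax y' b x * σ x) (cell K y a i) :=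
    (dual_intOn_mul hKc hσm hσb (dual_continuous_gmax y' b)).mono_set (cell_subset i)
  have hl : IntegrableOn (fun x => inner ℝ x (y' i) * σ x) (cell K y a i) :=
    (dual_intOn_mul hKc hσm hσb (f := fun x => inner ℝ x (y' i)) (by fun_prop)).mono_set
      (cell_subset i)
  have h2 : m i * b i = ∫ x in cell K y a i, b i * σ x := by
    rw [integral_const_mul, ha i]
    ring
  rw [h2, ← integral_add hg (hσi.const_mul _)]
  apply setIntegral_mono_on hl (hg.add (hσi.const_mul _)) (measurableSet_cell hKm i)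
  intro x hx
  have h3 := dual_le_gmax y' b x i
  have h4 := mul_le_mul_of_nonneg_right (by linarith : inner ℝ x (y' i) ≤ gmax y' b x + b i)
    (hσ0 x (cell_subset i hx))
  rw [add_mul] at h4
  exact h4

/-- Value equals the dual functional at the solution. -/
lemma val_eq_dual (hKc : IsCompact K) (hσm : Measurable σ) {Bσ : ℝ} (hσb : ∀ x ∈ K, |σ x| ≤ Bσ)
    (hy : Function.Injective y) (ha : ∀ i, ∫ x in cell K y a i, σ x = m i) :
    val K y a σ = (∫ x in K, gmax y a x * σ x) + ∑ i, m i * a i := by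
  have hKm := hKc.measurableSet
  have h1 : ∑ i, ∫ x in cell K y a i, gmax y a x * σ x = ∫ x in K, gmax y a x * σ x :=
    sum_setIntegral_cell hKm hy (dual_intOn_mul hKc hσm hσb (dual_continuous_gmax y a))
  rw [← h1, ← Finset.sum_add_distrib]
  unfold val
  apply Finset.sum_congr rfl
  intro i _
  rw [inner_xv hKc hσm hσb i (y i)]
  have hσi : IntegrableOn σ (cell K y a i) :=
    (dual_intOn_sigma hKc hσm hσb).mono_set (cell_subset i)
  have hg : IntegrableOn (fun x => gmax y a x * σ x) (cell K y a i) :=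
    (dual_intOn_mul hKc hσm hσb (dual_continuous_gmax y a)).mono_set (cell_subset i)
  have h2 : m i * a i = ∫ x in cell K y a i, a i * σ x := by
    rw [integral_const_mul, ha i]
    ring
  rw [h2, ← integral_add hg (hσi.const_mul _)]
  apply setIntegral_congr_fun (measurableSet_cell hKm i)
  intro x hx
  have h3 : gmax y a x = inner ℝ x (y i) - a i :=
    le_antisymm (dual_gmax_le (fun j => hx.2 j)) (dual_le_gmax y a x i)
  show inner ℝ x (y i) * σ x = gmax y a x * σ x + a i * σ x
  rw [h3]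
  ring

/-- Weak duality: the value is below the dual functional at any weights. -/
lemma val_le_dual (hKc : IsCompact K) (hσm : Measurable σ) (hσ0 : ∀ x ∈ K, 0 ≤ σ x) {Bσ : ℝ}
    (hσb : ∀ x ∈ K, |σ x| ≤ Bσ) (hy : Function.Injective y)
    (ha : ∀ i, ∫ x in cell K y a i, σ x = m i) (b : ι → ℝ) :
    val K y a σ ≤ (∫ x in K, gmax y b x * σ x) + ∑ i, m i * b i :=
  sum_inner_xv_le hKc hσm hσ0 hσb hy ha y b

/-- Subgradient inequality between two solutions at different sites. -/
lemma subgrad (hKc : IsCompact K) (hσm : Measurable σ) (hσ0 : ∀ x ∈ K, 0 ≤ σ x) {Bσ : ℝ}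
    (hσb : ∀ x ∈ K, |σ x| ≤ Bσ) (hy : Function.Injective y) (hy' : Function.Injective y')
    {a' : ι → ℝ} (ha : ∀ i, ∫ x in cell K y a i, σ x = m i)
    (ha' : ∀ i, ∫ x in cell K y' a' i, σ x = m i) :
    ∑ i, inner ℝ (xv K y a σ i) (y' i) ≤ val K y' a' σ := by
  rw [val_eq_dual hKc hσm hσb hy' ha']
  exact sum_inner_xv_le hKc hσm hσ0 hσb hy ha y' a'

end dual

end Vale.Agent.P074T
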