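import Vale.Agent.Lib.P074T.Cells

open MeasureTheory Set Filter Topology Metric
open scoped ENNReal

namespace Vale.Agent.P074T

open Vale.Agent.P074

set_option linter.unusedSectionVars false

variable {d : ℕ}

section sd
variable {ι : Type} [Fintype ι] [Nonempty ι] {y : ι → E d}

/-- Auxiliary maximum function of the semi-discrete dual functional. -/
noncomputable def gSD (y : ι → E d) (a : ι → ℝ) (x : E d) : ℝ :=
  Finset.univ.sup' Finset.univ_nonempty (fun i => inner ℝ x (y i) - a i)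

lemma le_gSD (a : ι → ℝ) (x : E d) (i : ι) : inner ℝ x (y i) - a i ≤ gSD y a x :=
  Finset.le_sup' (fun i => inner ℝ x (y i) - a i) (Finset.mem_univ i)

lemma gSD_le {a : ι → ℝ} {x : E d} {c : ℝ} (h : ∀ i, inner ℝ x (y i) - a i ≤ c) :
    gSD y a x ≤ c :=
  Finset.sup'_le _ _ (fun i _ => h i)

lemma continuous_gSD (a : ι → ℝ) : Continuous (gSD y a) := by
  unfold gSD
  refine Continuous.finset_sup'_apply _ (fun i _ => ?_)
  fun_prop

lemma gSD_le_add {a b : ι → ℝ} {δ : ℝ} (h : ∀ i, b i - a i ≤ δ) (x : E d) :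
    gSD y a x ≤ gSD y b x + δ := by
  apply gSD_le
  intro i
  have h1 := le_gSD (y := y) b x i
  have h2 := h i
  linarith

variable {K : Set (E d)} {σ : E d → ℝ} {Bσ : ℝ} {m : ι → ℝ}

lemma integrableOn_sigma (hKc : IsCompact K) (hσm : Measurable σ)
    (hσ0 : ∀ x ∈ K, 0 ≤ σ x) (hσb : ∀ x ∈ K, σ x ≤ Bσ) : IntegrableOn σ K := by
  refine Measure.integrableOn_of_bounded (M := Bσ) hKc.measure_lt_top.ne
    hσm.aestronglyMeasurable ?_
  refine (ae_restrict_iff' hKc.measurableSet).2 (Eventually.of_forall fun x hx => ?_)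
  rw [Real.norm_eq_abs, abs_of_nonneg (hσ0 x hx)]
  exact hσb x hx

lemma integrableOn_gSD_mul (hKc : IsCompact K) (hσm : Measurable σ)
    (hσ0 : ∀ x ∈ K, 0 ≤ σ x) (hσb : ∀ x ∈ K, σ x ≤ Bσ) (a : ι → ℝ) :
    IntegrableOn (fun x => gSD y a x * σ x) K := by
  obtain ⟨C, hC⟩ := hKc.exists_bound_of_continuousOn (continuous_gSD (y := y) a).continuousOn
  refine Measure.integrableOn_of_bounded (M := C * Bσ) hKc.measure_lt_top.ne
    ((continuous_gSD a).measurable.mul hσm).aestronglyMeasurable ?_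
  refine (ae_restrict_iff' hKc.measurableSet).2 (Eventually.of_forall fun x hx => ?_)
  rw [norm_mul, Real.norm_eq_abs (σ x), abs_of_nonneg (hσ0 x hx)]
  exact mul_le_mul (hC x hx) (hσb x hx) (hσ0 x hx) ((norm_nonneg _).trans (hC x hx))

lemma integral_gSD_le (hKc : IsCompact K) (hσm : Measurable σ)
    (hσ0 : ∀ x ∈ K, 0 ≤ σ x) (hσb : ∀ x ∈ K, σ x ≤ Bσ) {a b : ι → ℝ} {δ : ℝ}
    (h : ∀ i, b i - a i ≤ δ) :
    ∫ x in K, gSD y a x * σ x ≤ (∫ x in K, gSD y b x * σ x) + δ * ∫ x in K, σ x := by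
  have hσi := integrableOn_sigma hKc hσm hσ0 hσb
  have ha := integrableOn_gSD_mul (y := y) hKc hσm hσ0 hσb a
  have hb := integrableOn_gSD_mul (y := y) hKc hσm hσ0 hσb b
  rw [← integral_const_mul, ← integral_add hb (hσi.const_mul δ)]
  refine setIntegral_mono_on ha (hb.add (hσi.const_mul δ)) hKc.measurableSet (fun x hx => ?_)
  have h1 := gSD_le_add (y := y) h x
  nlinarith [hσ0 x hx]

/-- The semi-discrete dual functional. -/
noncomputable def FSD (K : Set (E d)) (σ : E d → ℝ) (m : ι → ℝ) (y : ι → E d) (a : ι → ℝ) : ℝ :=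
  (∫ x in K, gSD y a x * σ x) + ∑ i, m i * a i

lemma FSD_lipschitz (hKc : IsCompact K) (hσm : Measurable σ)
    (hσ0 : ∀ x ∈ K, 0 ≤ σ x) (hσb : ∀ x ∈ K, σ x ≤ Bσ) (hm : ∀ i, 0 < m i) (a b : ι → ℝ) :
    FSD K σ m y a ≤ FSD K σ m y b + ((∫ x in K, σ x) + ∑ i, m i) * dist a b := by
  have h1 : ∀ i, b i - a i ≤ dist a b := fun i => by
    have := dist_le_pi_dist a b i
    rw [Real.dist_eq] at this
    have := abs_sub_comm (a i) (b i)
    have := le_abs_self (b i - a i)
    linarith
  have h2 : ∀ i, a i - b i ≤ dist a b := fun i => by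
    have := dist_le_pi_dist a b i
    rw [Real.dist_eq] at this
    have := le_abs_self (a i - b i)
    linarith
  have h3 := integral_gSD_le (y := y) hKc hσm hσ0 hσb h1
  have h4 : ∑ i, m i * a i ≤ ∑ i, m i * b i + (∑ i, m i) * dist a b := by
    rw [Finset.sum_mul, ← Finset.sum_add_distrib]
    refine Finset.sum_le_sum (fun i _ => ?_)
    nlinarith [hm i, h2 i]
  unfold FSD
  linarith

lemma FSD_continuous (hKc : IsCompact K) (hσm : Measurable σ)
    (hσ0 : ∀ x ∈ K, 0 ≤ σ x) (hσb : ∀ x ∈ K, σ x ≤ Bσ) (hm : ∀ i, 0 < m i) :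
    Continuous (FSD K σ m y) :=
  (LipschitzWith.of_le_add_mul' _ (FSD_lipschitz hKc hσm hσ0 hσb hm)).continuous

/-- Shifting weights by a constant does not raise the functional. -/
lemma FSD_shift_le (hKc : IsCompact K) (hσm : Measurable σ)
    (hσ0 : ∀ x ∈ K, 0 ≤ σ x) (hσb : ∀ x ∈ K, σ x ≤ Bσ)
    (hsum : ∑ i, m i = ∫ x in K, σ x) (a : ι → ℝ) (c : ℝ) :
    FSD K σ m y (fun i => a i - c) ≤ FSD K σ m y a := by
  have h3 := integral_gSD_le (y := y) (a := fun i => a i - c) (b := a) (δ := c)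
    hKc hσm hσ0 hσb (fun i => by simp)
  have h4 : ∑ i, m i * (a i - c) = ∑ i, m i * a i - c * ∑ i, m i := by
    rw [Finset.mul_sum, ← Finset.sum_sub_distrib]
    exact Finset.sum_congr rfl (fun i _ => by ring)
  unfold FSD
  rw [h4, hsum]
  linarith

/-- The dual functional attains a global minimum. -/
lemma exists_global_min (hKc : IsCompact K) (hσm : Measurable σ)
    (hσ0 : ∀ x ∈ K, 0 ≤ σ x) (hσb : ∀ x ∈ K, σ x ≤ Bσ) (hm : ∀ i, 0 < m i)
    (hsum : ∑ i, m i = ∫ x in K, σ x) :
    ∃ a : ι → ℝ, ∀ b : ι → ℝ, FSD K σ m y a ≤ FSD K σ m y b := by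
  classical
  obtain ⟨RK, hRK⟩ := hKc.isBounded.exists_norm_le
  set RK' : ℝ := max RK 0 with hRK'
  have hRK'0 : 0 ≤ RK' := le_max_right _ _
  have hRK'b : ∀ x ∈ K, ‖x‖ ≤ RK' := fun x hx => (hRK x hx).trans (le_max_left _ _)
  set C : ℝ := RK' * ∑ i, ‖y i‖ with hC
  have hC0 : 0 ≤ C := mul_nonneg hRK'0 (Finset.sum_nonneg fun i _ => norm_nonneg _)
  have hinner : ∀ x ∈ K, ∀ i, |inner ℝ x (y i)| ≤ C := fun x hx i => by
    refine (abs_real_inner_le_norm _ _).trans ?_
    refine mul_le_mul (hRK'b x hx) ?_ (norm_nonneg _) hRK'0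
    exact Finset.single_le_sum (f := fun i => ‖y i‖) (fun i _ => norm_nonneg _) (Finset.mem_univ i)
  set S : ℝ := ∫ x in K, σ x with hS
  have hS0 : 0 ≤ S := setIntegral_nonneg hKc.measurableSet hσ0
  obtain ⟨i₀, hi₀⟩ := Finite.exists_min m
  set R : ℝ := 2 * C * S / m i₀ with hR
  have hR0 : 0 ≤ R := div_nonneg (by positivity) (hm i₀).le
  have hσi := integrableOn_sigma hKc hσm hσ0 hσb
  -- the minimizer over the box
  have hBox : IsCompact (Icc (0 : ι → ℝ) (fun _ => R)) := isCompact_Icc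
  have hne : (Icc (0 : ι → ℝ) (fun _ => R)).Nonempty :=
    ⟨0, le_refl _, fun i => by simpa using hR0⟩
  obtain ⟨a, haBox, hamin⟩ := hBox.exists_isMinOn hne
    (FSD_continuous (y := y) hKc hσm hσ0 hσb hm).continuousOn
  -- bound at zero
  have hF0 : FSD K σ m y 0 ≤ C * S := by
    unfold FSD
    simp only [Pi.zero_apply, mul_zero, Finset.sum_const_zero, add_zero]
    rw [hS, ← integral_const_mul]
    refine setIntegral_mono_on (integrableOn_gSD_mul hKc hσm hσ0 hσb 0) (hσi.const_mul C)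
      hKc.measurableSet (fun x hx => ?_)
    have : gSD y 0 x ≤ C := gSD_le (fun i => by
      have := hinner x hx i
      have := le_abs_self (inner ℝ x (y i))
      simp only [Pi.zero_apply, sub_zero]
      linarith)
    exact mul_le_mul_of_nonneg_right this (hσ0 x hx)
  have haF : FSD K σ m y a ≤ C * S := (hamin ⟨le_refl _, fun i => by simpa using hR0⟩).trans hF0
  refine ⟨a, fun b => ?_⟩
  -- normalize b
  obtain ⟨k, hk⟩ := Finite.exists_min b
  set b' : ι → ℝ := fun i => b i - b k with hb'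
  have hb'0 : ∀ i, 0 ≤ b' i := fun i => sub_nonneg.2 (hk i)
  have hb'k : b' k = 0 := sub_self _
  have hFb : FSD K σ m y b' ≤ FSD K σ m y b := FSD_shift_le hKc hσm hσ0 hσb hsum b (b k)
  refine le_trans ?_ hFb
  by_cases hbox : ∀ i, b' i ≤ R
  · exact hamin ⟨fun i => by simpa using hb'0 i, fun i => by simpa using hbox i⟩
  · push Not at hbox
    obtain ⟨j, hj⟩ := hbox
    refine haF.trans ?_
    -- lower bound on the functional at b'
    have hlow1 : -(C * S) ≤ ∫ x in K, gSD y b' x * σ x := by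
      rw [hS, ← integral_const_mul, ← integral_neg]
      refine setIntegral_mono_on ((hσi.const_mul C).neg) (integrableOn_gSD_mul hKc hσm hσ0 hσb b')
        hKc.measurableSet (fun x hx => ?_)
      have h1 := le_gSD (y := y) b' x k
      rw [hb'k, sub_zero] at h1
      have h2 := hinner x hx k
      have h3 := neg_abs_le (inner ℝ x (y k))
      have : -C ≤ gSD y b' x := by linarith
      have h4 := mul_le_mul_of_nonneg_right this (hσ0 x hx)
      simpa using h4
    have hlow2 : 2 * C * S ≤ ∑ i, m i * b' i := by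
      have h5 : m j * b' j ≤ ∑ i, m i * b' i :=
        Finset.single_le_sum (f := fun i => m i * b' i)
          (fun i _ => mul_nonneg (hm i).le (hb'0 i)) (Finset.mem_univ j)
      have h6 : m i₀ * R ≤ m j * b' j :=
        mul_le_mul (hi₀ j) hj.le hR0 (hm j).le
      have h7 : m i₀ * R = 2 * C * S := by
        rw [hR]; field_simp [(hm i₀).ne']
      linarith
    unfold FSD
    linarith

/-- The enlarged cell. -/
def cellE (y : ι → E d) (a : ι → ℝ) (i : ι) (ε : ℝ) : Set (E d) :=
  {x | ∀ j, inner ℝ x (y j) - a j ≤ inner ℝ x (y i) - a i + ε}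

lemma isClosed_cellE (a : ι → ℝ) (i : ι) (ε : ℝ) : IsClosed (cellE y a i ε) := by
  have : cellE y a i ε = ⋂ j, {x | inner ℝ x (y j) - a j ≤ inner ℝ x (y i) - a i + ε} := by
    ext x; simp [cellE]
  rw [this]
  apply isClosed_iInter
  intro j
  exact isClosed_le (by fun_prop) (by fun_prop)

/-- First order condition at a minimizer, with an enlarged cell. -/
lemma mass_le_enlarged (hKc : IsCompact K) (hσm : Measurable σ)
    (hσ0 : ∀ x ∈ K, 0 ≤ σ x) (hσb : ∀ x ∈ K, σ x ≤ Bσ)
    {a : ι → ℝ} (ha : ∀ b : ι → ℝ, FSD K σ m y a ≤ FSD K σ m y b) (i : ι) {ε : ℝ} (hε : 0 < ε) :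
    m i ≤ ∫ x in K ∩ cellE y a i ε, σ x := by
  classical
  have hσi := integrableOn_sigma hKc hσm hσ0 hσb
  set aε : ι → ℝ := fun j => a j - if j = i then ε else 0 with haε
  have h1 := ha aε
  have hsum : ∑ j, m j * aε j = ∑ j, m j * a j - m i * ε := by
    have : ∀ j, m j * aε j = m j * a j - (if j = i then m j * ε else 0) := fun j => by
      by_cases hj : j = i
      · simp [haε, hj]; ring
      · simp [haε, hj]
    simp_rw [this]
    rw [Finset.sum_sub_distrib, Finset.sum_ite_eq' Finset.univ i]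
    simp
  have hmeas : MeasurableSet (cellE y a i ε) := (isClosed_cellE a i ε).measurableSet
  have hind : IntegrableOn ((cellE y a i ε).indicator σ) K := hσi.indicator hmeas
  have hpt : ∀ x ∈ K, gSD y aε x * σ x ≤
      gSD y a x * σ x + ε * (cellE y a i ε).indicator σ x := by
    intro x hx
    by_cases hxA : x ∈ cellE y a i ε
    · rw [indicator_of_mem hxA]
      have : gSD y aε x ≤ gSD y a x + ε := gSD_le_add (fun j => by
        by_cases hj : j = i
        · simp [haε, hj]
        · simp [haε, hj]; exact hε.le) x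
      nlinarith [hσ0 x hx]
    · rw [indicator_of_notMem hxA]
      have hxA' : ∃ j₀, inner ℝ x (y i) - a i + ε < inner ℝ x (y j₀) - a j₀ := by
        by_contra hcon
        push Not at hcon
        exact hxA hcon
      obtain ⟨j₀, hj₀⟩ := hxA'
      have : gSD y aε x ≤ gSD y a x := gSD_le (fun j => by
        by_cases hj : j = i
        · subst hj
          have h2 := le_gSD (y := y) a x j₀
          simp only [haε, if_true]
          linarith
        · simp only [haε, hj, if_false, sub_zero]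
          exact le_gSD a x j)
      have h3 := mul_le_mul_of_nonneg_right this (hσ0 x hx)
      simpa using h3
  have h2 : ∫ x in K, gSD y aε x * σ x ≤
      (∫ x in K, gSD y a x * σ x) + ε * ∫ x in K ∩ cellE y a i ε, σ x := by
    rw [← setIntegral_indicator hmeas, ← integral_const_mul,
      ← integral_add (integrableOn_gSD_mul hKc hσm hσ0 hσb a) (hind.const_mul ε)]
    exact setIntegral_mono_on (integrableOn_gSD_mul hKc hσm hσ0 hσb aε)
      ((integrableOn_gSD_mul hKc hσm hσ0 hσb a).add (hind.const_mul ε)) hKc.measurableSet hpt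
  unfold FSD at h1
  rw [hsum] at h1
  have h3 : ε * m i ≤ ε * ∫ x in K ∩ cellE y a i ε, σ x := by linarith
  exact le_of_mul_le_mul_left h3 hε

/-- First order condition at a minimizer, with the exact cell. -/
lemma mass_le_cell (hKc : IsCompact K) (hσm : Measurable σ)
    (hσ0 : ∀ x ∈ K, 0 ≤ σ x) (hσb : ∀ x ∈ K, σ x ≤ Bσ)
    {a : ι → ℝ} (ha : ∀ b : ι → ℝ, FSD K σ m y a ≤ FSD K σ m y b) (i : ι) :
    m i ≤ ∫ x in cell K y a i, σ x := by
  have hσi := integrableOn_sigma hKc hσm hσ0 hσb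
  set s : ℕ → Set (E d) := fun n => K ∩ cellE y a i (1 / ((n : ℝ) + 1)) with hs
  have hsm : ∀ n, MeasurableSet (s n) := fun n =>
    hKc.measurableSet.inter (isClosed_cellE a i _).measurableSet
  have hanti : Antitone s := by
    intro n n' hn x hx
    refine ⟨hx.1, fun j => (hx.2 j).trans ?_⟩
    have : (1 : ℝ) / ((n' : ℝ) + 1) ≤ 1 / ((n : ℝ) + 1) := by
      apply one_div_le_one_div_of_le (by positivity)
      have : (n : ℝ) ≤ n' := by exact_mod_cast hn
      linarith
    linarith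
  have hfi : ∃ n, IntegrableOn σ (s n) := ⟨0, hσi.mono_set inter_subset_left⟩
  have hlim := tendsto_setIntegral_of_antitone hsm hanti hfi
  have hinter : ⋂ n, s n = cell K y a i := by
    ext x
    simp only [mem_iInter, hs, mem_inter_iff, cell, Set.mem_ofPred_eq, cellE]
    constructor
    · intro h
      refine ⟨(h 0).1, fun j => ?_⟩
      refine le_of_forall_pos_le_add (fun δ hδ => ?_)
      obtain ⟨n, hn⟩ := exists_nat_one_div_lt hδ
      have h1 := (h n).2 j
      linarith
    · intro h n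
      refine ⟨h.1, fun j => ?_⟩
      have h1 := h.2 j
      have : (0 : ℝ) < 1 / ((n : ℝ) + 1) := by positivity
      linarith
  rw [hinter] at hlim
  refine ge_of_tendsto' hlim (fun n => ?_)
  exact mass_le_enlarged hKc hσm hσ0 hσb ha i (by positivity)

end sd

/-- Semi-discrete optimal transport: existence of Laguerre weights for given masses. -/
theorem exists_weights {K : Set (E d)} (hKc : IsCompact K) {σ : E d → ℝ} (hσm : Measurable σ)
    (hσ0 : ∀ x ∈ K, 0 ≤ σ x) {Bσ : ℝ} (hσb : ∀ x ∈ K, σ x ≤ Bσ) {ι : Type} [Fintype ι] [Nonempty ι]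
    {y : ι → E d} (hy : Function.Injective y) {m : ι → ℝ} (hm : ∀ i, 0 < m i)
    (hsum : ∑ i, m i = ∫ x in K, σ x) :
    ∃ a : ι → ℝ, ∀ i, ∫ x in cell K y a i, σ x = m i := by
  obtain ⟨a, ha⟩ := exists_global_min (y := y) hKc hσm hσ0 hσb hm hsum
  refine ⟨a, ?_⟩
  have hle : ∀ i ∈ Finset.univ, m i ≤ ∫ x in cell K y a i, σ x :=
    fun i _ => mass_le_cell hKc hσm hσ0 hσb ha i
  have heq : ∑ i, m i = ∑ i, ∫ x in cell K y a i, σ x := by
    rw [hsum, sum_setIntegral_cell hKc.measurableSet hy (integrableOn_sigma hKc hσm hσ0 hσb)]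
  have := (Finset.sum_eq_sum_iff_of_le hle).1 heq
  exact fun i => (this i (Finset.mem_univ i)).symm

end Vale.Agent.P074T
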