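import Vale.Agent.Lib.P074.Defs

open MeasureTheory Set Filter Topology Metric
open scoped ENNReal

namespace Vale.Agent.P074T

open Vale.Agent.P074

set_option linter.unusedSectionVars false

variable {d : ℕ}


/-- Abstract telescoping along a finite grid. -/
lemma tele {N : ℕ} {t Ψ Ψ' S S' : ℕ → ℝ} {B Λ h : ℝ} (ht : ∀ k < N, t k < t (k + 1))
    (hh : ∀ k < N, t (k + 1) - t k ≤ h)
    (hsub : ∀ k ≤ N, ∀ l ≤ N, Ψ k + (t l - t k) * S k ≤ Ψ l)
    (hsub' : ∀ k ≤ N, ∀ l ≤ N, Ψ' k + (t l - t k) * S' k ≤ Ψ' l)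
    (hB : ∀ k ≤ N, S k - S' k ≤ B) (hB0 : 0 ≤ B) (hΛ : ∀ k ≤ N, |S k| ≤ Λ) (hh0 : 0 ≤ h) :
    (Ψ N - Ψ 0) - (Ψ' N - Ψ' 0) ≤ B * (t N - t 0) + 2 * Λ * h := by
  have key : ∀ n ≤ N, (Ψ n - Ψ 0) - (Ψ' n - Ψ' 0) ≤ B * (t n - t 0) + h * (S n - S 0) := by
    intro n
    induction n with
    | zero =>
      intro _
      simp
    | succ k ih =>
      intro hk
      have hkN : k < N := hk
      have hk1 : k ≤ N := hkN.le
      have ih' := ih hk1
      have h1 := hsub (k + 1) hk k hk1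
      have h2 := hsub k hk1 (k + 1) hk
      have h3 := hsub' k hk1 (k + 1) hk
      have h4 := hB k hk1
      have hΔ : 0 < t (k + 1) - t k := sub_pos.2 (ht k hkN)
      have hΔh := hh k hkN
      -- monotonicity of S
      have hmono : S k ≤ S (k + 1) := by
        have h5 : (t (k + 1) - t k) * S k ≤ (t (k + 1) - t k) * S (k + 1) := by
          nlinarith
        exact le_of_mul_le_mul_left h5 hΔ
      have h6 : (t (k + 1) - t k) * (S (k + 1) - S k) ≤ h * (S (k + 1) - S k) :=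
        mul_le_mul_of_nonneg_right hΔh (sub_nonneg.2 hmono)
      have h7 : (t (k + 1) - t k) * (S k - S' k) ≤ (t (k + 1) - t k) * B :=
        mul_le_mul_of_nonneg_left h4 hΔ.le
      nlinarith
  have h0 := key N le_rfl
  have hN := abs_le.1 (hΛ N le_rfl)
  have hZ := abs_le.1 (hΛ 0 (Nat.zero_le _))
  have h8 : h * (S N - S 0) ≤ h * (2 * Λ) :=
    mul_le_mul_of_nonneg_left (by linarith [hN.2, hZ.1]) hh0
  linarith

/-- A grid avoiding a finite bad set. -/
lemma exists_grid {Bad : Set ℝ} (hBad : Bad.Finite) {ε : ℝ} (hε : 0 < ε) :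
    ∃ (N : ℕ) (t : ℕ → ℝ), (∀ k ≤ N, t k ∉ Bad ∧ 0 < t k ∧ t k < 1) ∧ t 0 < ε ∧ 1 - ε < t N ∧
      (∀ k < N, t k < t (k + 1)) ∧ (∀ k < N, t (k + 1) - t k ≤ ε) := by
  obtain ⟨n, hn⟩ := exists_nat_gt (2 / ε)
  set c : ℝ := (n : ℝ) + 1 with hc
  have hc0 : 0 < c := by positivity
  have hδ : 2 / c ≤ ε := by
    rw [div_le_iff₀ hc0]
    rw [div_lt_iff₀ hε] at hn
    nlinarith
  have hex : ∀ k : ℕ, ∃ s, s ∈ Ioo ((k : ℝ) / c) (((k : ℝ) + 1) / c) ∧ s ∉ Bad := by
    intro k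
    have hlt : (k : ℝ) / c < ((k : ℝ) + 1) / c :=
      div_lt_div_of_pos_right (by linarith) hc0
    obtain ⟨s, hs⟩ := ((Ioo_infinite hlt).sdiff hBad).nonempty
    exact ⟨s, hs.1, hs.2⟩
  choose t ht1 ht2 using hex
  have hdiv : ∀ x y : ℝ, x ≤ y → x / c ≤ y / c :=
    fun x y hxy => div_le_div_of_nonneg_right hxy hc0.le
  refine ⟨n, t, ?_, ?_, ?_, ?_, ?_⟩
  · intro k hk
    refine ⟨ht2 k, ?_, ?_⟩
    · have h1 := (ht1 k).1
      have h2 : 0 ≤ (k : ℝ) / c := by positivity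
      linarith
    · have h1 := (ht1 k).2
      have hk' : (k : ℝ) ≤ n := by exact_mod_cast hk
      have h2 : ((k : ℝ) + 1) / c ≤ c / c := hdiv _ _ (by rw [hc]; linarith)
      rw [div_self hc0.ne'] at h2
      linarith
  · have h1 := (ht1 0).2
    have h2 : 1 / c ≤ 2 / c := hdiv _ _ (by norm_num)
    simp only [Nat.cast_zero, zero_add] at h1
    linarith
  · have h1 := (ht1 n).1
    have h2 : (n : ℝ) / c = 1 - 1 / c := by
      rw [hc]
      field_simp
      ring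
    have h3 : 1 / c ≤ 2 / c := hdiv _ _ (by norm_num)
    have h4 : 0 < 1 / c := by positivity
    linarith
  · intro k _
    have h1 := (ht1 k).2
    have h2 := (ht1 (k + 1)).1
    rw [Nat.cast_succ] at h2
    linarith
  · intro k _
    have h1 := (ht1 k).1
    have h2 := (ht1 (k + 1)).2
    rw [Nat.cast_succ] at h2
    have h3 : ((k : ℝ) + 1 + 1) / c = (k : ℝ) / c + 2 / c := by
      field_simp
      ring
    linarith

end Vale.Agent.P074T
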