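import Vale.Agent.Lib.P074T.LemmaG
import Vale.Agent.Lib.P074T.SemiDiscrete
import Vale.Agent.Lib.P074T.Dual
import Vale.Agent.Lib.P074T.Tele

open MeasureTheory Set Filter Topology Metric
open scoped ENNReal

namespace Vale.Agent.P074T

open Vale.Agent.P074

set_option linter.unusedSectionVars false

variable {d : ℕ}

/-- Interpolated sites. -/
noncomputable def yt {ι : Type} (y0 y1 : ι → E d) (t : ℝ) (i : ι) : E d := (1 - t) • y0 i + t • y1 i

lemma intOn_of_bdd {G : Type*} [NormedAddCommGroup G] {S : Set (E d)} {f : E d → G} {M : ℝ}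
    (hS : MeasurableSet S) (hfin : volume S ≠ ∞) (hf : AEStronglyMeasurable f volume)
    (hb : ∀ x ∈ S, ‖f x‖ ≤ M) : IntegrableOn f S :=
  Measure.integrableOn_of_bounded hfin hf (ae_restrict_of_forall_mem hS hb)

lemma sq_setIntegral_le {S : Set (E d)} {f : E d → ℝ} (hf : IntegrableOn f S)
    (hf2 : IntegrableOn (fun x => f x ^ 2) S) (hV : 0 < volume.real S) (hfin : volume S ≠ ∞) :
    (∫ x in S, f x) ^ 2 ≤ volume.real S * ∫ x in S, f x ^ 2 := by
  set A : ℝ := (∫ x in S, f x) / volume.real S with hA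
  have h0 : 0 ≤ ∫ x in S, (f x - A) ^ 2 := integral_nonneg (fun x => sq_nonneg _)
  have hc : IntegrableOn (fun _ : E d => A ^ 2) S := integrableOn_const hfin
  have hl : IntegrableOn (fun x => 2 * A * f x) S := hf.const_mul _
  have hsub : IntegrableOn (fun x => f x ^ 2 - 2 * A * f x) S := hf2.sub hl
  have h1 : ∫ x in S, (f x - A) ^ 2 = (∫ x in S, f x ^ 2) - 2 * A * (∫ x in S, f x) +
      A ^ 2 * volume.real S := by
    have e : ∀ x, (f x - A) ^ 2 = (f x ^ 2 - 2 * A * f x) + A ^ 2 := fun x => by ring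
    simp_rw [e]
    rw [integral_add hsub hc, integral_sub hf2 hl, integral_const_mul, setIntegral_const]
    simp [smul_eq_mul, mul_comm]
  rw [h1] at h0
  have hAV : A * volume.real S = ∫ x in S, f x := by rw [hA]; field_simp
  have h2 : A ^ 2 * volume.real S = A * (∫ x in S, f x) := by rw [← hAV]; ring
  rw [h2] at h0
  have h3 : 0 ≤ (∫ x in S, f x ^ 2) - A * (∫ x in S, f x) := by linarith
  have h4 : (∫ x in S, f x) ^ 2 = volume.real S * (A * (∫ x in S, f x)) := by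
    rw [← hAV]; ring
  rw [h4]
  exact mul_le_mul_of_nonneg_left (by linarith) hV.le

section gap

variable {K : Set (E d)} {c : E d} {D : ℝ} {ι : Type} [Fintype ι] [Nonempty ι] {y : ι → E d}
  {m : ι → ℝ} {η : E d → ℝ} {a a' : ι → ℝ}

/-- the per-cell facts -/
lemma gap_cell (hKc : IsCompact K) (hD : 0 < D) (hKD : ∀ x ∈ K, ‖x - c‖ ≤ D)
    (hηm : Measurable η) (hη : ∀ x ∈ K, |η x| ≤ 1 / 10) {i : ι} (hm : 0 < m i)
    (ha : ∫ x in cell K y a i, (1 : ℝ) = m i)
    (ha' : ∫ x in cell K y a' i, (1 + η x) = m i) :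
    let V := vol K y a i
    let V' := vol K y a' i
    let Eη := ∫ x in cell K y a' i, η x ^ 2
    let J : E d := ∫ x in cell K y a' i, η x • (x - c)
    0 < V ∧ 0 < V' ∧ V' ≤ 5 / 4 * V ∧ V ≤ 5 / 4 * V' ∧ V = m i ∧
    (V - V') ^ 2 / V ≤ 5 / 4 * Eη ∧ ‖J‖ ^ 2 / V ≤ 5 / 4 * D ^ 2 * Eη ∧
    xv K y a' (fun x => 1 + η x) i - xv K y a (fun _ => 1) i =
      (mom K y a' c i - mom K y a c i) + J := by
  intro V V' Eη J
  have hKm : MeasurableSet K := hKc.measurableSet
  set C := cell K y a i with hC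
  set C' := cell K y a' i with hC'
  have hCm : MeasurableSet C := measurableSet_cell hKm i
  have hC'm : MeasurableSet C' := measurableSet_cell hKm i
  have hCfin : volume C ≠ ∞ := (isCompact_cell hKc i).measure_lt_top.ne
  have hC'fin : volume C' ≠ ∞ := (isCompact_cell hKc i).measure_lt_top.ne
  have hC'K : C' ⊆ K := cell_subset i
  have hCK : C ⊆ K := cell_subset i
  have hVm : V = m i := by
    have h : ∫ x in C, (1 : ℝ) = V := by
      rw [setIntegral_const]; simp [V, vol, hC]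
    rw [← h, ha]
  have hηi : IntegrableOn η C' :=
    intOn_of_bdd (M := 1 / 10) hC'm hC'fin hηm.aestronglyMeasurable
      (fun x hx => by rw [Real.norm_eq_abs]; exact hη x (hC'K hx))
  have hη2i : IntegrableOn (fun x => η x ^ 2) C' :=
    intOn_of_bdd (M := (1 / 10) ^ 2) hC'm hC'fin (hηm.pow_const 2).aestronglyMeasurable
      (fun x hx => by
        rw [Real.norm_eq_abs, abs_pow]
        exact pow_le_pow_left₀ (abs_nonneg _) (hη x (hC'K hx)) 2)
  have habsi : IntegrableOn (fun x => |η x|) C' := hηi.abs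
  have habs2i : IntegrableOn (fun x => |η x| ^ 2) C' := by
    simpa [sq_abs] using hη2i
  have h1i : IntegrableOn (fun _ : E d => (1 : ℝ)) C' := integrableOn_const hC'fin
  have hm' : m i = V' + ∫ x in C', η x := by
    rw [← ha', integral_add h1i hηi, setIntegral_const]
    simp [V', vol, hC']
  have hηbd : |∫ x in C', η x| ≤ 1 / 10 * V' := by
    have := norm_setIntegral_le_of_norm_le_const (μ := volume) (s := C') (f := η) (C := 1 / 10)
      hC'fin.lt_top (fun x hx => by rw [Real.norm_eq_abs]; exact hη x (hC'K hx))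
    simpa [V', vol, hC', Real.norm_eq_abs] using this
  have hηbd' := abs_le.1 hηbd
  have hV'pos : 0 < V' := by
    by_contra h
    have h0 : V' ≤ 0 := not_lt.1 h
    linarith [hηbd'.2]
  have hVpos : 0 < V := by rw [hVm]; exact hm
  have h1 : V' ≤ 5 / 4 * V := by rw [hVm, hm']; linarith [hηbd'.1]
  have h2 : V ≤ 5 / 4 * V' := by rw [hVm, hm']; linarith [hηbd'.2]
  have hV'real : 0 < volume.real C' := hV'pos
  have hCS : (∫ x in C', η x) ^ 2 ≤ V' * Eη := sq_setIntegral_le hηi hη2i hV'real hC'fin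
  have hEη : 0 ≤ Eη := integral_nonneg (fun x => sq_nonneg _)
  have hdiff : V - V' = ∫ x in C', η x := by rw [hVm, hm']; ring
  have e1 : (V - V') ^ 2 / V ≤ 5 / 4 * Eη := by
    rw [div_le_iff₀ hVpos, hdiff]
    have : V' * Eη ≤ 5 / 4 * V * Eη := mul_le_mul_of_nonneg_right h1 hEη
    linarith
  -- the vector `J`
  have hJbd : ‖J‖ ≤ D * ∫ x in C', |η x| := by
    have hg : Integrable (fun x => D * |η x|) (volume.restrict C') := habsi.const_mul D
    have := norm_integral_le_of_norm_le (μ := volume.restrict C') (f := fun x => η x • (x - c)) hg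
      ((ae_restrict_iff' hC'm).2 (Eventually.of_forall (fun x hx => by
        rw [norm_smul, Real.norm_eq_abs, mul_comm]
        exact mul_le_mul_of_nonneg_right (hKD x (hC'K hx)) (abs_nonneg _))))
    rwa [integral_const_mul] at this
  have habsCS : (∫ x in C', |η x|) ^ 2 ≤ V' * ∫ x in C', |η x| ^ 2 :=
    sq_setIntegral_le habsi habs2i hV'real hC'fin
  have habssq : ∫ x in C', |η x| ^ 2 = Eη := by simp only [sq_abs]; rfl
  rw [habssq] at habsCS
  have hJ2 : ‖J‖ ^ 2 ≤ D ^ 2 * (V' * Eη) := by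
    have h3 : ‖J‖ ^ 2 ≤ (D * ∫ x in C', |η x|) ^ 2 :=
      pow_le_pow_left₀ (norm_nonneg _) hJbd 2
    rw [mul_pow] at h3
    exact h3.trans (mul_le_mul_of_nonneg_left habsCS (sq_nonneg _))
  have e2 : ‖J‖ ^ 2 / V ≤ 5 / 4 * D ^ 2 * Eη := by
    rw [div_le_iff₀ hVpos]
    have h4 : V' * Eη ≤ 5 / 4 * V * Eη := mul_le_mul_of_nonneg_right h1 hEη
    have h5 : D ^ 2 * (V' * Eη) ≤ D ^ 2 * (5 / 4 * V * Eη) :=
      mul_le_mul_of_nonneg_left h4 (sq_nonneg _)
    linarith
  refine ⟨hVpos, hV'pos, h1, h2, hVm, e1, e2, ?_⟩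
  -- decomposition
  have hxc' : IntegrableOn (fun x : E d => x - c) C' :=
    (continuous_id.sub continuous_const).continuousOn.integrableOn_compact (isCompact_cell hKc i)
  have hxc : IntegrableOn (fun x : E d => x - c) C :=
    (continuous_id.sub continuous_const).continuousOn.integrableOn_compact (isCompact_cell hKc i)
  have hcc : IntegrableOn (fun _ : E d => c) C := integrableOn_const hCfin
  have hJi : IntegrableOn (fun x => η x • (x - c)) C' :=
    intOn_of_bdd (M := 1 / 10 * D) hC'm hC'fin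
      ((hηm.smul (measurable_id.sub measurable_const)).aestronglyMeasurable)
      (fun x hx => by
        rw [norm_smul, Real.norm_eq_abs]
        exact mul_le_mul (hη x (hC'K hx)) (hKD x (hC'K hx)) (norm_nonneg _) (by norm_num))
  have hsmc : IntegrableOn (fun x => (1 + η x) • c) C' :=
    (h1i.add hηi).smul_const c
  have e3 : xv K y a' (fun x => 1 + η x) i = mom K y a' c i + J + (m i) • c := by
    unfold xv mom
    have e : ∀ x : E d, (1 + η x) • x = ((x - c) + η x • (x - c)) + (1 + η x) • c := fun x => by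
      simp only [add_smul, one_smul, smul_sub]
      abel
    simp_rw [e]
    have hsum1 : IntegrableOn (fun x => (x - c) + η x • (x - c)) C' := hxc'.add hJi
    rw [integral_add hsum1 hsmc, integral_add hxc' hJi, integral_smul_const, ha']
  have e4 : xv K y a (fun _ => 1) i = mom K y a c i + (m i) • c := by
    unfold xv mom
    have e : ∀ x : E d, (1 : ℝ) • x = (x - c) + c := fun x => by simp
    simp_rw [e]
    rw [integral_add hxc hcc, setIntegral_const]
    congr 2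
  rw [e3, e4]
  abel

/-- **Key estimate at fixed sites.**  `σ = 1` against `σ' = 1 + η`. -/
theorem moment_gap {K : Set (E d)} (hKc : IsCompact K) (hKconv : Convex ℝ K) {c : E d} {D : ℝ}
    (hD : 0 < D) (hKD : ∀ x ∈ K, ‖x - c‖ ≤ D) {ι : Type} [Fintype ι] [Nonempty ι] {y : ι → E d}
    (hy : Function.Injective y) {m : ι → ℝ} (hm : ∀ i, 0 < m i) {η : E d → ℝ} (hηm : Measurable η)
    (hη : ∀ x ∈ K, |η x| ≤ 1 / 10) {a a' : ι → ℝ}
    (ha : ∀ i, ∫ x in cell K y a i, (1 : ℝ) = m i)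
    (ha' : ∀ i, ∫ x in cell K y a' i, (1 + η x) = m i) (v : ι → E d) :
    ∑ i, inner ℝ (xv K y a' (fun x => 1 + η x) i - xv K y a (fun _ => 1) i) (v i) ≤
      34 * D * Real.sqrt (∫ x in K, η x ^ 2) * Real.sqrt (∑ i, m i * ‖v i‖ ^ 2) := by
  have hKm : MeasurableSet K := hKc.measurableSet
  have hfacts := fun i => gap_cell (y := y) (a := a) (a' := a') hKc hD hKD hηm hη (hm i) (ha i) (ha' i)
  simp only at hfacts
  set V : ι → ℝ := fun i => vol K y a i with hVdef
  set V' : ι → ℝ := fun i => vol K y a' i with hV'def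
  set Eη : ι → ℝ := fun i => ∫ x in cell K y a' i, η x ^ 2 with hEη
  set J : ι → E d := fun i => ∫ x in cell K y a' i, η x • (x - c) with hJ
  set Dv : ι → E d := fun i =>
    xv K y a' (fun x => 1 + η x) i - xv K y a (fun _ => 1) i with hDv
  have hVpos : ∀ i, 0 < V i := fun i => (hfacts i).1
  have hV'pos : ∀ i, 0 < V' i := fun i => (hfacts i).2.1
  have h1 : ∀ i, V' i ≤ 5 / 4 * V i := fun i => (hfacts i).2.2.1
  have h2 : ∀ i, V i ≤ 5 / 4 * V' i := fun i => (hfacts i).2.2.2.1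
  have hVm : ∀ i, V i = m i := fun i => (hfacts i).2.2.2.2.1
  have hT : ∀ i, (V i - V' i) ^ 2 / V i ≤ 5 / 4 * Eη i := fun i => (hfacts i).2.2.2.2.2.1
  have hJb : ∀ i, ‖J i‖ ^ 2 / V i ≤ 5 / 4 * D ^ 2 * Eη i := fun i => (hfacts i).2.2.2.2.2.2.1
  have hdec : ∀ i, Dv i = (mom K y a' c i - mom K y a c i) + J i :=
    fun i => (hfacts i).2.2.2.2.2.2.2
  -- the sum of the `Eη`
  have hη2K : IntegrableOn (fun x => η x ^ 2) K :=
    intOn_of_bdd (M := (1 / 10) ^ 2) hKm hKc.measure_lt_top.ne (hηm.pow_const 2).aestronglyMeasurable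
      (fun x hx => by
        rw [Real.norm_eq_abs, abs_pow]
        exact pow_le_pow_left₀ (abs_nonneg _) (hη x hx) 2)
  have hH : ∑ i, Eη i = ∫ x in K, η x ^ 2 := sum_setIntegral_cell hKm hy hη2K
  set H : ℝ := ∫ x in K, η x ^ 2 with hHdef
  have hG := lemma_G hKc hKconv hD hKD hy a a' hVpos hV'pos h1 h2
  -- the sum of `‖Dv‖² / m`
  have hsum : ∑ i, ‖Dv i‖ ^ 2 / m i ≤ (34 * D) ^ 2 * H := by
    have hpt : ∀ i, ‖Dv i‖ ^ 2 / m i ≤
        2 * (‖mom K y a c i - mom K y a' c i‖ ^ 2 / V i) + 2 * (5 / 4 * D ^ 2 * Eη i) := by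
      intro i
      rw [← hVm i, hdec i]
      have hpos := hVpos i
      have hn : ‖(mom K y a' c i - mom K y a c i) + J i‖ ^ 2 ≤
          2 * ‖mom K y a c i - mom K y a' c i‖ ^ 2 + 2 * ‖J i‖ ^ 2 := by
        have h3 := norm_add_le (mom K y a' c i - mom K y a c i) (J i)
        have h4 : ‖mom K y a' c i - mom K y a c i‖ = ‖mom K y a c i - mom K y a' c i‖ :=
          norm_sub_rev _ _
        rw [h4] at h3
        have h5 := norm_nonneg ((mom K y a' c i - mom K y a c i) + J i)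
        nlinarith [sq_nonneg (‖mom K y a c i - mom K y a' c i‖ - ‖J i‖),
          norm_nonneg (mom K y a c i - mom K y a' c i), norm_nonneg (J i)]
      calc ‖(mom K y a' c i - mom K y a c i) + J i‖ ^ 2 / V i
          ≤ (2 * ‖mom K y a c i - mom K y a' c i‖ ^ 2 + 2 * ‖J i‖ ^ 2) / V i :=
            div_le_div_of_nonneg_right hn hpos.le
        _ = 2 * (‖mom K y a c i - mom K y a' c i‖ ^ 2 / V i) + 2 * (‖J i‖ ^ 2 / V i) := by ring
        _ ≤ _ := by linarith [hJb i]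
    have hsumT : ∑ i, (V i - V' i) ^ 2 / V i ≤ 5 / 4 * H := by
      rw [← hH, Finset.mul_sum]
      exact Finset.sum_le_sum (fun i _ => hT i)
    calc ∑ i, ‖Dv i‖ ^ 2 / m i
        ≤ ∑ i, (2 * (‖mom K y a c i - mom K y a' c i‖ ^ 2 / V i) + 2 * (5 / 4 * D ^ 2 * Eη i)) :=
          Finset.sum_le_sum (fun i _ => hpt i)
      _ = 2 * ∑ i, ‖mom K y a c i - mom K y a' c i‖ ^ 2 / V i + 5 / 2 * D ^ 2 * H := by
          rw [← hH, Finset.sum_add_distrib, Finset.mul_sum, Finset.mul_sum]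
          congr 1
          exact Finset.sum_congr rfl (fun i _ => by ring)
      _ ≤ 2 * (400 * D ^ 2 * ∑ i, (V i - V' i) ^ 2 / V i) + 5 / 2 * D ^ 2 * H := by
          have := hG
          linarith
      _ ≤ 2 * (400 * D ^ 2 * (5 / 4 * H)) + 5 / 2 * D ^ 2 * H := by
          have := mul_le_mul_of_nonneg_left hsumT (by positivity : 0 ≤ 400 * D ^ 2)
          linarith
      _ ≤ (34 * D) ^ 2 * H := by
          have hH0 : 0 ≤ H := integral_nonneg (fun x => sq_nonneg _)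
          have : 0 ≤ D ^ 2 * H := by positivity
          nlinarith
  -- Cauchy-Schwarz
  have hCS : ∑ i, inner ℝ (Dv i) (v i) ≤
      Real.sqrt (∑ i, ‖Dv i‖ ^ 2 / m i) * Real.sqrt (∑ i, m i * ‖v i‖ ^ 2) := by
    have h3 : ∀ i, inner ℝ (Dv i) (v i) ≤
        (‖Dv i‖ / Real.sqrt (m i)) * (Real.sqrt (m i) * ‖v i‖) := by
      intro i
      have hs : 0 < Real.sqrt (m i) := Real.sqrt_pos.2 (hm i)
      have : (‖Dv i‖ / Real.sqrt (m i)) * (Real.sqrt (m i) * ‖v i‖) = ‖Dv i‖ * ‖v i‖ := by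
        field_simp
      rw [this]
      exact real_inner_le_norm _ _
    have h4 := Real.sum_mul_le_sqrt_mul_sqrt Finset.univ
      (fun i => ‖Dv i‖ / Real.sqrt (m i)) (fun i => Real.sqrt (m i) * ‖v i‖)
    have e1 : ∀ i, (‖Dv i‖ / Real.sqrt (m i)) ^ 2 = ‖Dv i‖ ^ 2 / m i := by
      intro i
      rw [div_pow, Real.sq_sqrt (hm i).le]
    have e2 : ∀ i, (Real.sqrt (m i) * ‖v i‖) ^ 2 = m i * ‖v i‖ ^ 2 := by
      intro i
      rw [mul_pow, Real.sq_sqrt (hm i).le]
    simp only [e1, e2] at h4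
    exact (Finset.sum_le_sum (fun i _ => h3 i)).trans h4
  have hfin : Real.sqrt (∑ i, ‖Dv i‖ ^ 2 / m i) ≤ 34 * D * Real.sqrt H := by
    have hH0 : 0 ≤ H := integral_nonneg (fun x => sq_nonneg _)
    calc Real.sqrt (∑ i, ‖Dv i‖ ^ 2 / m i) ≤ Real.sqrt ((34 * D) ^ 2 * H) := Real.sqrt_le_sqrt hsum
      _ = 34 * D * Real.sqrt H := by
          rw [Real.sqrt_mul (sq_nonneg _), Real.sqrt_sq (by positivity)]
  exact hCS.trans (mul_le_mul_of_nonneg_right hfin (Real.sqrt_nonneg _))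

lemma yt_shift {ι : Type} (y0 y1 : ι → E d) (s t : ℝ) (i : ι) :
    yt y0 y1 t i = yt y0 y1 s i + (t - s) • (y1 i - y0 i) := by
  simp only [yt, sub_smul, smul_sub, one_smul]
  abel

lemma bad_finite {ι : Type} [Fintype ι] {y0 y1 : ι → E d}
    (hne : ∀ i j, i ≠ j → y0 i ≠ y0 j ∨ y1 i ≠ y1 j) :
    {t : ℝ | ∃ i j, i ≠ j ∧ yt y0 y1 t i = yt y0 y1 t j}.Finite := by
  have hsub : {t : ℝ | ∃ i j, i ≠ j ∧ yt y0 y1 t i = yt y0 y1 t j} ⊆
      ⋃ i, ⋃ j, {t : ℝ | i ≠ j ∧ yt y0 y1 t i = yt y0 y1 t j} := by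
    rintro t ⟨i, j, hij, h⟩
    exact mem_iUnion.2 ⟨i, mem_iUnion.2 ⟨j, hij, h⟩⟩
  refine Set.Finite.subset (Set.finite_iUnion fun i => Set.finite_iUnion fun j => ?_) hsub
  apply Set.Subsingleton.finite
  rintro t ⟨hij, h⟩ t' ⟨_, h'⟩
  by_contra htt
  have hd : t' - t ≠ 0 := sub_ne_zero.2 (Ne.symm htt)
  have e1 := yt_shift y0 y1 t t' i
  have e2 := yt_shift y0 y1 t t' j
  rw [e1, e2, h] at h'
  have h3 : (t' - t) • (y1 i - y0 i) = (t' - t) • (y1 j - y0 j) := add_left_cancel h'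
  have h4 : y1 i - y0 i = y1 j - y0 j := smul_right_injective _ hd h3
  have h5 : y0 i = y0 j := by
    have e3 : yt y0 y1 t i = y0 i + t • (y1 i - y0 i) := by
      simp only [yt, sub_smul, smul_sub, one_smul]; abel
    have e4 : yt y0 y1 t j = y0 j + t • (y1 j - y0 j) := by
      simp only [yt, sub_smul, smul_sub, one_smul]; abel
    rw [e3, e4, h4] at h
    exact add_right_cancel h
  have h6 : y1 i = y1 j := by
    have : y1 i = (y1 i - y0 i) + y0 i := by abel
    rw [this, h4, h5]; abel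
  rcases hne i j hij with h7 | h7
  · exact h7 h5
  · exact h7 h6

/-- **The four-point inequality.** -/
theorem four_point {K : Set (E d)} (hKc : IsCompact K) (hKconv : Convex ℝ K) {c : E d} {D RK : ℝ}
    (hD : 0 < D) (hKD : ∀ x ∈ K, ‖x - c‖ ≤ D) (hRK : ∀ x ∈ K, ‖x‖ ≤ RK)
    {ι : Type} [Fintype ι] [Nonempty ι] {y0 y1 : ι → E d}
    (hne : ∀ i j, i ≠ j → y0 i ≠ y0 j ∨ y1 i ≠ y1 j)
    {m : ι → ℝ} (hm : ∀ i, 0 < m i) (hsum : ∑ i, m i = volume.real K)
    {η : E d → ℝ} (hηm : Measurable η) (hη : ∀ x ∈ K, |η x| ≤ 1 / 10)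
    (hη0 : ∫ x in K, η x = 0) {ε : ℝ} (hε : 0 < ε) :
    ∃ (t0 t1 : ℝ) (a0 a1 a0' a1' : ι → ℝ), 0 < t0 ∧ t0 < ε ∧ 1 - ε < t1 ∧ t1 < 1 ∧
      Function.Injective (yt y0 y1 t0) ∧ Function.Injective (yt y0 y1 t1) ∧
      (∀ i, ∫ x in cell K (yt y0 y1 t0) a0 i, (1 : ℝ) = m i) ∧
      (∀ i, ∫ x in cell K (yt y0 y1 t1) a1 i, (1 : ℝ) = m i) ∧
      (∀ i, ∫ x in cell K (yt y0 y1 t0) a0' i, (1 + η x) = m i) ∧
      (∀ i, ∫ x in cell K (yt y0 y1 t1) a1' i, (1 + η x) = m i) ∧
      (val K (yt y0 y1 t1) a1' (fun x => 1 + η x) - val K (yt y0 y1 t0) a0' (fun x => 1 + η x)) -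
        (val K (yt y0 y1 t1) a1 (fun _ => 1) - val K (yt y0 y1 t0) a0 (fun _ => 1)) ≤
      34 * D * Real.sqrt (∫ x in K, η x ^ 2) * Real.sqrt (∑ i, m i * ‖y1 i - y0 i‖ ^ 2) + ε := by
  have hKm : MeasurableSet K := hKc.measurableSet
  set v : ι → E d := fun i => y1 i - y0 i with hv
  have hBad := bad_finite (y0 := y0) (y1 := y1) hne
  set Λ : ℝ := |RK| * ∑ i, m i * ‖v i‖ with hΛdef
  have hΛ0 : 0 ≤ Λ := mul_nonneg (abs_nonneg _)
    (Finset.sum_nonneg (fun i _ => mul_nonneg (hm i).le (norm_nonneg _)))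
  set ε' : ℝ := min ε (ε / (2 * Λ + 1)) with hε'def
  have hε' : 0 < ε' := lt_min hε (by positivity)
  obtain ⟨N, t, hgood, ht0, htN, hinc, hstep⟩ := exists_grid hBad hε'
  have hinj : ∀ k ≤ N, Function.Injective (yt y0 y1 (t k)) := fun k hk i j hij => by
    by_contra hne'
    exact (hgood k hk).1 ⟨i, j, hne', hij⟩
  set σ' : E d → ℝ := fun x => 1 + η x with hσ'
  have hσ'm : Measurable σ' := measurable_const.add hηm
  have hσ'0 : ∀ x ∈ K, 0 ≤ σ' x := fun x hx => by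
    have := abs_le.1 (hη x hx)
    simp only [σ']; linarith [this.1]
  have hσ'b : ∀ x ∈ K, σ' x ≤ 11 / 10 := fun x hx => by
    have := abs_le.1 (hη x hx)
    simp only [σ']; linarith [this.2]
  have hσ'abs : ∀ x ∈ K, |σ' x| ≤ 11 / 10 := fun x hx => by
    rw [abs_of_nonneg (hσ'0 x hx)]; exact hσ'b x hx
  have hηi : IntegrableOn η K :=
    intOn_of_bdd (M := 1 / 10) hKm hKc.measure_lt_top.ne hηm.aestronglyMeasurable
      (fun x hx => by rw [Real.norm_eq_abs]; exact hη x hx)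
  have h1i : IntegrableOn (fun _ : E d => (1 : ℝ)) K := integrableOn_const hKc.measure_lt_top.ne
  have hs1 : ∑ i, m i = ∫ x in K, (fun _ : E d => (1 : ℝ)) x := by
    rw [hsum, setIntegral_const]; simp
  have hs2 : ∑ i, m i = ∫ x in K, σ' x := by
    simp only [σ']
    rw [integral_add h1i hηi, hη0, setIntegral_const, hsum]; simp
  have hw : ∀ k, ∃ b : ι → ℝ, k ≤ N →
      ∀ i, ∫ x in cell K (yt y0 y1 (t k)) b i, (1 : ℝ) = m i := by
    intro k
    by_cases hk : k ≤ N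
    · obtain ⟨b, hb⟩ := exists_weights (σ := fun _ => (1 : ℝ)) hKc measurable_const
        (fun _ _ => zero_le_one) (Bσ := 1) (fun _ _ => le_rfl) (hinj k hk) hm hs1
      exact ⟨b, fun _ => hb⟩
    · exact ⟨0, fun h => absurd h hk⟩
  choose a ha using hw
  have hw' : ∀ k, ∃ b : ι → ℝ, k ≤ N →
      ∀ i, ∫ x in cell K (yt y0 y1 (t k)) b i, σ' x = m i := by
    intro k
    by_cases hk : k ≤ N
    · obtain ⟨b, hb⟩ := exists_weights hKc hσ'm hσ'0 hσ'b (hinj k hk) hm hs2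
      exact ⟨b, fun _ => hb⟩
    · exact ⟨0, fun h => absurd h hk⟩
  choose a' ha' using hw'
  set Ψ : ℕ → ℝ := fun k => val K (yt y0 y1 (t k)) (a' k) σ' with hΨ
  set Ψ' : ℕ → ℝ := fun k => val K (yt y0 y1 (t k)) (a k) (fun _ => 1) with hΨ'
  set S : ℕ → ℝ := fun k => ∑ i, inner ℝ (xv K (yt y0 y1 (t k)) (a' k) σ' i) (v i) with hS
  set S' : ℕ → ℝ := fun k => ∑ i, inner ℝ (xv K (yt y0 y1 (t k)) (a k) (fun _ => 1) i) (v i)
    with hS'
  have hshift : ∀ (x : ι → E d) (k l : ℕ), ∑ i, inner ℝ (x i) (yt y0 y1 (t l) i) =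
      ∑ i, inner ℝ (x i) (yt y0 y1 (t k) i) + (t l - t k) * ∑ i, inner ℝ (x i) (v i) := by
    intro x k l
    rw [Finset.mul_sum, ← Finset.sum_add_distrib]
    refine Finset.sum_congr rfl (fun i _ => ?_)
    rw [yt_shift y0 y1 (t k) (t l) i, inner_add_right, real_inner_smul_right]
  have hsub : ∀ k ≤ N, ∀ l ≤ N, Ψ k + (t l - t k) * S k ≤ Ψ l := by
    intro k hk l hl
    have := subgrad (Bσ := 11 / 10) hKc hσ'm hσ'0 hσ'abs (hinj k hk) (hinj l hl) (ha' k hk) (ha' l hl)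
    rw [hshift _ k l] at this
    exact this
  have hsub' : ∀ k ≤ N, ∀ l ≤ N, Ψ' k + (t l - t k) * S' k ≤ Ψ' l := by
    intro k hk l hl
    have := subgrad (σ := fun _ => (1 : ℝ)) (Bσ := 1) hKc measurable_const
      (fun _ _ => zero_le_one) (fun _ _ => by simp) (hinj k hk) (hinj l hl) (ha k hk) (ha l hl)
    rw [hshift _ k l] at this
    exact this
  set B : ℝ := 34 * D * Real.sqrt (∫ x in K, η x ^ 2) * Real.sqrt (∑ i, m i * ‖v i‖ ^ 2) with hB
  have hB0 : 0 ≤ B := by positivity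
  have hgap : ∀ k ≤ N, S k - S' k ≤ B := by
    intro k hk
    have := moment_gap hKc hKconv hD hKD (hinj k hk) hm hηm hη (ha k hk) (ha' k hk) v
    rw [← Finset.sum_sub_distrib] at *
    refine le_trans (le_of_eq ?_) this
    exact Finset.sum_congr rfl (fun i _ => by rw [inner_sub_left])
  have hSbd : ∀ k ≤ N, |S k| ≤ Λ := by
    intro k hk
    have hx : ∀ i, ‖xv K (yt y0 y1 (t k)) (a' k) σ' i‖ ≤ |RK| * m i := by
      intro i
      set C := cell K (yt y0 y1 (t k)) (a' k) i with hC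
      have hCm : MeasurableSet C := measurableSet_cell hKm i
      have hCK : C ⊆ K := cell_subset i
      have hCfin : volume C ≠ ∞ := (isCompact_cell hKc i).measure_lt_top.ne
      have hσi : IntegrableOn σ' C :=
        intOn_of_bdd (M := 11 / 10) hCm hCfin hσ'm.aestronglyMeasurable
          (fun x hx => by rw [Real.norm_eq_abs]; exact hσ'abs x (hCK hx))
      have := norm_integral_le_of_norm_le (μ := volume.restrict C) (f := fun x => σ' x • x)
        (g := fun x => |RK| * σ' x) (hσi.const_mul _)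
        ((ae_restrict_iff' hCm).2 (Eventually.of_forall (fun x hx => by
          rw [norm_smul, Real.norm_eq_abs, abs_of_nonneg (hσ'0 x (hCK hx)), mul_comm]
          exact mul_le_mul_of_nonneg_right ((hRK x (hCK hx)).trans (le_abs_self _))
            (hσ'0 x (hCK hx)))))
      rw [integral_const_mul, ha' k hk i] at this
      exact this
    calc |S k| ≤ ∑ i, |inner ℝ (xv K (yt y0 y1 (t k)) (a' k) σ' i) (v i)| :=
          Finset.abs_sum_le_sum_abs _ _
      _ ≤ ∑ i, |RK| * (m i * ‖v i‖) := by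
          refine Finset.sum_le_sum (fun i _ => ?_)
          refine (abs_real_inner_le_norm _ _).trans ?_
          rw [← mul_assoc]
          exact mul_le_mul_of_nonneg_right (hx i) (norm_nonneg _)
      _ = Λ := by rw [hΛdef, Finset.mul_sum]
  have htele := tele hinc hstep hsub hsub' hgap hB0 hSbd hε'.le
  have h0 : 0 < t 0 := (hgood 0 (Nat.zero_le _)).2.1
  have hN1 : t N < 1 := (hgood N le_rfl).2.2
  have hN0 : 0 < t N := (hgood N le_rfl).2.1
  have hdiff : t N - t 0 ≤ 1 := by linarith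
  have hfinal : B * (t N - t 0) + 2 * Λ * ε' ≤ B + ε := by
    have h1 : B * (t N - t 0) ≤ B * 1 := mul_le_mul_of_nonneg_left hdiff hB0
    have h2 : ε' ≤ ε / (2 * Λ + 1) := min_le_right _ _
    have h3 : 2 * Λ * ε' ≤ 2 * Λ * (ε / (2 * Λ + 1)) :=
      mul_le_mul_of_nonneg_left h2 (by positivity)
    have h4 : 2 * Λ * (ε / (2 * Λ + 1)) ≤ ε := by
      have hp : 0 < 2 * Λ + 1 := by positivity
      rw [mul_div_assoc', div_le_iff₀ hp]
      nlinarith
    linarith
  refine ⟨t 0, t N, a 0, a N, a' 0, a' N, h0, lt_of_lt_of_le ht0 (min_le_left _ _), ?_, hN1,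
    hinj 0 (Nat.zero_le _), hinj N le_rfl, ha 0 (Nat.zero_le _), ha N le_rfl,
    ha' 0 (Nat.zero_le _), ha' N le_rfl, htele.trans hfinal⟩
  have : ε' ≤ ε := min_le_left _ _
  linarith

end gap

end Vale.Agent.P074T
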