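import Vale.Agent.Lib.P074T.FourPoint
import Vale.Agent.Lib.P074T.Discretize
import Vale.Agent.Lib.P074.Quarter

open MeasureTheory Set Filter Topology Metric
open scoped ENNReal

namespace Vale.Agent.P074T

open Vale.Agent.P074

set_option linter.unusedSectionVars false

variable {d : ℕ}


/-- The key inequality `(F)`. -/
theorem key_F {K Y : Set (E d)} (hKc : IsCompact K) (hKconv : Convex ℝ K) (hK0 : volume K ≠ 0)
    (hY : IsCompact Y) {c : E d} {D R : ℝ} (hD : 0 < D) (hKD : ∀ x ∈ K, ‖x - c‖ ≤ D)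
    {μ ν : Measure (E d)} [IsProbabilityMeasure μ] [IsProbabilityMeasure ν]
    (hμY : μ Yᶜ = 0) (hνY : ν Yᶜ = 0) {T S : E d → E d} (hT : IsOptimalMap K μ T)
    (hS : IsOptimalMap K ν S) (hYR : ∀ y ∈ Y, ‖y‖ ≤ R)
    {e : E d} (he : ‖e‖ = 1) {δ : ℝ} (hδ : 0 < δ) {ζ : E d → ℝ} (hζm : Measurable ζ)
    (hζ0 : ∀ x, 0 ≤ ζ x) (hζ1 : ∀ x, ζ x ≤ 2 * R)
    (hζK : ∀ x, ζ x ≠ 0 → x ∈ K ∧ x + δ • e ∈ K) :
    δ * ∫ x in K, ζ x * inner ℝ e (S x - T (x + δ • e)) ≤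
      68 * D * Real.sqrt (volume.real K) * Real.sqrt (∫ x in K, ζ x ^ 2) * W2 μ ν := sorry

end Vale.Agent.P074T
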