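import Vale.Agent.Lib.P074T.OneCell

open MeasureTheory Set Filter Topology Metric
open scoped ENNReal

namespace Vale.Agent.P074T
open Vale.Agent.P074
set_option linter.unusedSectionVars false
variable {d : ℕ}

/-- Volume of a cell (real number). -/
noncomputable def vol (K : Set (E d)) {ι : Type} (y : ι → E d) (a : ι → ℝ) (i : ι) : ℝ :=
  volume.real (cell K y a i)

/-- First moment of a cell about `c`. -/
noncomputable def mom (K : Set (E d)) {ι : Type} (y : ι → E d) (a : ι → ℝ) (c : E d) (i : ι) : E d :=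
  ∫ x in cell K y a i, (x - c)


namespace LemmaGaux

lemma c1_eq {D : ℝ} (hD : 0 < D) :
    16 * (16 * D ^ 2) * (D / ((31 / 2) * D ^ 2) ^ 2) ^ 2 = 4096 / (923521 * D ^ 4) := by
  field_simp
  ring

lemma c2_eq {D : ℝ} (hD : 0 < D) :
    16 * (16 * D ^ 2) * (1 / ((31 / 2) * D ^ 2) + D ^ 2 / ((31 / 2) * D ^ 2) ^ 2) ^ 2 =
      1115136 / (923521 * D ^ 2) := by
  field_simp
  ring

lemma sq_step (s s' : ℝ) : (s - s') ^ 2 * (4 * (s * s')) ≤ (s ^ 2 - s' ^ 2) ^ 2 := by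
  have : (s ^ 2 - s' ^ 2) ^ 2 - (s - s') ^ 2 * (4 * (s * s')) = ((s - s') ^ 2) ^ 2 := by ring
  have h0 : 0 ≤ ((s - s') ^ 2) ^ 2 := by positivity
  linarith

lemma low_w' {D V V' w' : ℝ} (hD : 0 < D) (h2 : V ≤ 5 / 4 * V')
    (hw1' : (31 / 2) * D ^ 2 * V' ≤ w') : (62 / 5) * D ^ 2 * V ≤ w' := by
  have h : D ^ 2 * V ≤ D ^ 2 * (5 / 4 * V') := by gcongr
  have e : (62 / 5) * D ^ 2 * V = (62 / 5) * (D ^ 2 * V) := by ring
  have e2 : (31 / 2) * D ^ 2 * V' = (62 / 5) * (D ^ 2 * (5 / 4 * V')) := by ring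
  rw [e2] at hw1'
  rw [e]
  linarith

lemma low_w {D V w : ℝ} (hD : 0 < D) (hV : 0 < V)
    (hw1 : (31 / 2) * D ^ 2 * V ≤ w) : (62 / 5) * D ^ 2 * V ≤ w := by
  have h0 : 0 < D ^ 2 * V := by positivity
  have e : (31 / 2) * D ^ 2 * V = (31 / 2) * (D ^ 2 * V) := by ring
  have e2 : (62 / 5) * D ^ 2 * V = (62 / 5) * (D ^ 2 * V) := by ring
  rw [e] at hw1
  rw [e2]
  linarith

lemma low_R {D V w w' : ℝ} (hD : 0 < D) (hV : 0 < V) (h3 : (62 / 5) * D ^ 2 * V ≤ w)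
    (h4 : (62 / 5) * D ^ 2 * V ≤ w') : (62 / 5) * D ^ 2 * V ≤ Real.sqrt (w * w') := by
  refine Real.le_sqrt_of_sq_le ?_
  have hp : 0 ≤ (62 / 5) * D ^ 2 * V := by positivity
  calc ((62 / 5) * D ^ 2 * V) ^ 2 = ((62 / 5) * D ^ 2 * V) * ((62 / 5) * D ^ 2 * V) := by ring
    _ ≤ w * w' := mul_le_mul h3 h4 hp (hp.trans h3)

lemma comp_ww {D V V' w w' : ℝ} (hD : 0 < D) (h1 : V' ≤ 5 / 4 * V) (h2 : V ≤ 5 / 4 * V')
    (hw2 : w ≤ 16 * D ^ 2 * V) (hw1' : (31 / 2) * D ^ 2 * V' ≤ w') : w ≤ (40 / 31) * w' := by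
  have h : D ^ 2 * V ≤ D ^ 2 * (5 / 4 * V') := by gcongr
  have e : 16 * D ^ 2 * V = 16 * (D ^ 2 * V) := by ring
  have e2 : (31 / 2) * D ^ 2 * V' = (31 / 2) * (4 / 5) * (D ^ 2 * (5 / 4 * V')) := by ring
  rw [e] at hw2
  rw [e2] at hw1'
  linarith

lemma term1_aux {D R V τ : ℝ} (hD : 0 < D) (hV : 0 < V) (hτ : 0 ≤ τ)
    (step5 : (62 / 5) * D ^ 2 * V ≤ R) :
    2 * (16 * D ^ 2) ^ 2 * (τ * V) ≤ 4 * R * ((52 / 5) * D ^ 2 * τ) := by
  have h4 : 4 * ((62 / 5) * D ^ 2 * V) * ((52 / 5) * D ^ 2 * τ) ≤ 4 * R * ((52 / 5) * D ^ 2 * τ) := by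
    gcongr
  have h5 : 4 * ((62 / 5) * D ^ 2 * V) * ((52 / 5) * D ^ 2 * τ) - 2 * (16 * D ^ 2) ^ 2 * (τ * V)
      = (96 / 25) * ((D ^ 2) ^ 2 * (τ * V)) := by ring
  have h6 : 0 ≤ (96 / 25) * ((D ^ 2) ^ 2 * (τ * V)) := by positivity
  linarith

lemma term2_aux {D R w w' dd e : ℝ} (hD : 0 < D) (hR : 0 < R) (hw : 0 < w) (hw' : 0 < w')
    (hR2 : R ^ 2 = w * w') (hcomp : w ≤ (40 / 31) * w')
    (he : R * dd ^ 2 ≤ 4096 / (923521 * D ^ 4) * e) :
    2 * (16 * D ^ 2) ^ 2 * (w * dd) ^ 2 ≤ 4 * R * ((37 / 50) * e) := by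
  have hD4 : 0 < D ^ 4 := by positivity
  have hce : (923521 * D ^ 4) * (R * dd ^ 2) ≤ 4096 * e := by
    have hpos : 0 < 923521 * D ^ 4 := by positivity
    have := mul_le_mul_of_nonneg_left he hpos.le
    rwa [show (923521 * D ^ 4) * (4096 / (923521 * D ^ 4) * e) = 4096 * e by field_simp] at this
  have h6 : 4 * R * ((37 / 50) * ((923521 * D ^ 4) * (R * dd ^ 2))) ≤
      4 * R * ((37 / 50) * (4096 * e)) := by gcongr
  have h7 : 4 * R * ((37 / 50) * ((923521 * D ^ 4) * (R * dd ^ 2))) =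
      (74 / 25) * (923521 * D ^ 4) * (w * w' * dd ^ 2) := by
    rw [← hR2]; ring
  have h8 : 4096 * (2 * (16 * D ^ 2) ^ 2 * (w * dd) ^ 2) ≤
      (74 / 25) * (923521 * D ^ 4) * (w * w' * dd ^ 2) := by
    have h10 : 0 ≤ D ^ 4 * dd ^ 2 * w * ((40 / 31) * w' - w) := by
      apply mul_nonneg (by positivity); linarith
    have h11 : 0 ≤ D ^ 4 * dd ^ 2 * w * w' := by positivity
    have e1 : 4096 * (2 * (16 * D ^ 2) ^ 2 * (w * dd) ^ 2) = 2097152 * (D ^ 4 * dd ^ 2 * w * w) := by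
      ring
    have e2 : (74 / 25) * (923521 * D ^ 4) * (w * w' * dd ^ 2) =
        (74 / 25 * 923521) * (D ^ 4 * dd ^ 2 * w * w') := by ring
    have e3 : D ^ 4 * dd ^ 2 * w * ((40 / 31) * w' - w) =
        (40 / 31) * (D ^ 4 * dd ^ 2 * w * w') - D ^ 4 * dd ^ 2 * w * w := by ring
    rw [e1, e2]
    rw [e3] at h10
    linarith
  have h12 : 4096 * (2 * (16 * D ^ 2) ^ 2 * (w * dd) ^ 2) ≤ 4096 * (4 * R * ((37 / 50) * e)) := by
    have : 4 * R * ((37 / 50) * (4096 * e)) = 4096 * (4 * R * ((37 / 50) * e)) := by ring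
    linarith
  exact le_of_mul_le_mul_left h12 (by norm_num)

lemma identity_x {w w' V V' : ℝ} (hw : 0 < w) (hw' : 0 < w') (hV' : 0 < V') :
    w - w' = (w' / V') * (V - V' - w * (V / w - V' / w')) := by
  field_simp
  ring

lemma arith_x {D w w' V V' e : ℝ} (hD : 0 < D) (hV : 0 < V) (hV' : 0 < V')
    (h1 : V' ≤ 5 / 4 * V) (h2 : V ≤ 5 / 4 * V')
    (hw1 : (31 / 2) * D ^ 2 * V ≤ w) (hw2 : w ≤ 16 * D ^ 2 * V)
    (hw1' : (31 / 2) * D ^ 2 * V' ≤ w') (hw2' : w' ≤ 16 * D ^ 2 * V')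
    (he : Real.sqrt (w * w') * (V / w - V' / w') ^ 2 ≤ 4096 / (923521 * D ^ 4) * e) :
    (Real.sqrt w - Real.sqrt w') ^ 2 ≤ (52 / 5) * D ^ 2 * ((V - V') ^ 2 / V) + (37 / 50) * e := by
  have hD2 : 0 < D ^ 2 := by positivity
  have hwp : 0 < w := lt_of_lt_of_le (by positivity) hw1
  have hwp' : 0 < w' := lt_of_lt_of_le (by positivity) hw1'
  have hsq : Real.sqrt w ^ 2 = w := Real.sq_sqrt hwp.le
  have hsq' : Real.sqrt w' ^ 2 = w' := Real.sq_sqrt hwp'.le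
  have hRs : Real.sqrt (w * w') = Real.sqrt w * Real.sqrt w' := Real.sqrt_mul hwp.le _
  have hRp : 0 < Real.sqrt (w * w') := Real.sqrt_pos.2 (mul_pos hwp hwp')
  have hR2 : Real.sqrt (w * w') ^ 2 = w * w' := Real.sq_sqrt (mul_pos hwp hwp').le
  have step1 : (Real.sqrt w - Real.sqrt w') ^ 2 * (4 * Real.sqrt (w * w')) ≤ (w - w') ^ 2 := by
    have := sq_step (Real.sqrt w) (Real.sqrt w')
    rw [hsq, hsq', ← hRs] at this
    exact this
  have hid := identity_x (V := V) hwp hwp' hV'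
  generalize hu : V - V' - w * (V / w - V' / w') = u at hid
  have hratio0 : 0 < w' / V' := by positivity
  have hratio1 : w' / V' ≤ 16 * D ^ 2 := by
    rw [div_le_iff₀ hV']; exact hw2'
  have step2 : (w - w') ^ 2 ≤ (16 * D ^ 2) ^ 2 * u ^ 2 := by
    rw [hid, mul_pow]
    gcongr
  have step3 : u ^ 2 ≤ 2 * (V - V') ^ 2 + 2 * (w * (V / w - V' / w')) ^ 2 := by
    rw [← hu]
    generalize V - V' = p
    generalize w * (V / w - V' / w') = q
    have : 2 * p ^ 2 + 2 * q ^ 2 - (p - q) ^ 2 = (p + q) ^ 2 := by ring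
    have h0 : 0 ≤ (p + q) ^ 2 := by positivity
    linarith
  have step5 := low_R hD hV (low_w hD hV hw1) (low_w' hD h2 hw1')
  have hcomp := comp_ww hD h1 h2 hw2 hw1'
  have hτ0 : 0 ≤ (V - V') ^ 2 / V := by positivity
  have hτV : (V - V') ^ 2 / V * V = (V - V') ^ 2 := by field_simp
  have term1 := term1_aux hD hV hτ0 step5
  rw [hτV] at term1
  have term2 := term2_aux hD hRp hwp hwp' hR2 hcomp he
  have hfinal : (Real.sqrt w - Real.sqrt w') ^ 2 * (4 * Real.sqrt (w * w')) ≤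
      ((52 / 5) * D ^ 2 * ((V - V') ^ 2 / V) + (37 / 50) * e) * (4 * Real.sqrt (w * w')) := by
    have h13 : (16 * D ^ 2) ^ 2 * u ^ 2 ≤
        (16 * D ^ 2) ^ 2 * (2 * (V - V') ^ 2 + 2 * (w * (V / w - V' / w')) ^ 2) := by gcongr
    have e4 : (16 * D ^ 2) ^ 2 * (2 * (V - V') ^ 2 + 2 * (w * (V / w - V' / w')) ^ 2) =
        2 * (16 * D ^ 2) ^ 2 * (V - V') ^ 2 + 2 * (16 * D ^ 2) ^ 2 * (w * (V / w - V' / w')) ^ 2 := by
      ring
    have e5 : ((52 / 5) * D ^ 2 * ((V - V') ^ 2 / V) + (37 / 50) * e) * (4 * Real.sqrt (w * w')) =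
        4 * Real.sqrt (w * w') * ((52 / 5) * D ^ 2 * ((V - V') ^ 2 / V)) +
        4 * Real.sqrt (w * w') * ((37 / 50) * e) := by ring
    rw [e5]
    linarith
  exact le_of_mul_le_mul_right hfinal (by positivity)

lemma dec_I {w w' : ℝ} (hw : 0 < w) (hw' : 0 < w') (I I' : E d) :
    I - I' = w • ((1 / w) • I - (1 / w') • I') + ((w - w') / w') • I' := by
  rw [smul_sub, smul_smul, smul_smul, mul_one_div_cancel hw.ne', one_smul]
  have : w * (1 / w') = 1 + (w - w') / w' := by field_simp; ring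
  rw [this, add_smul, one_smul]
  abel

lemma hb_aux {D V' w w' : ℝ} (hD : 0 < D) (hV' : 0 < V') (hw' : 0 < w')
    (hw1' : (31 / 2) * D ^ 2 * V' ≤ w') {I' : E d} (hI' : ‖I'‖ ≤ D * V') :
    ‖((w - w') / w') • I'‖ ^ 2 ≤ (w - w') ^ 2 * (4 / (961 * D ^ 2)) := by
  rw [norm_smul, Real.norm_eq_abs, mul_pow, sq_abs, div_pow]
  have h3 : ‖I'‖ ^ 2 ≤ (D * V') ^ 2 := by gcongr
  have h4 : ((31 / 2) * D ^ 2 * V') ^ 2 ≤ w' ^ 2 := by gcongr
  have h5 : (D * V') ^ 2 / w' ^ 2 ≤ 4 / (961 * D ^ 2) := by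
    rw [div_le_div_iff₀ (by positivity) (by positivity)]
    have e1 : (D * V') ^ 2 * (961 * D ^ 2) = 4 * (((31 / 2) * D ^ 2 * V') ^ 2) := by ring
    rw [e1]
    linarith
  calc (w - w') ^ 2 / w' ^ 2 * ‖I'‖ ^ 2 ≤ (w - w') ^ 2 / w' ^ 2 * (D * V') ^ 2 := by gcongr
    _ = (w - w') ^ 2 * ((D * V') ^ 2 / w' ^ 2) := by ring
    _ ≤ (w - w') ^ 2 * (4 / (961 * D ^ 2)) := by gcongr

lemma hww_aux {D V V' w w' : ℝ} (hD : 0 < D) (hV : 0 < V) (h1 : V' ≤ 5 / 4 * V)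
    (hw : 0 < w) (hw' : 0 < w') (hw2 : w ≤ 16 * D ^ 2 * V) (hw2' : w' ≤ 16 * D ^ 2 * V') :
    (w - w') ^ 2 ≤ 72 * D ^ 2 * V * (Real.sqrt w - Real.sqrt w') ^ 2 := by
  have hsq : Real.sqrt w ^ 2 = w := Real.sq_sqrt hw.le
  have hsq' : Real.sqrt w' ^ 2 = w' := Real.sq_sqrt hw'.le
  have h3 : (w - w') ^ 2 = (Real.sqrt w - Real.sqrt w') ^ 2 * (Real.sqrt w + Real.sqrt w') ^ 2 := by
    conv_lhs => rw [← hsq, ← hsq']
    ring
  have h4 : (Real.sqrt w + Real.sqrt w') ^ 2 ≤ 2 * (w + w') := by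
    have h0 : 0 ≤ (Real.sqrt w - Real.sqrt w') ^ 2 := by positivity
    have e : 2 * (Real.sqrt w ^ 2 + Real.sqrt w' ^ 2) - (Real.sqrt w + Real.sqrt w') ^ 2 =
        (Real.sqrt w - Real.sqrt w') ^ 2 := by ring
    rw [hsq, hsq'] at e
    linarith
  have h5 : w + w' ≤ 36 * D ^ 2 * V := by
    have h : D ^ 2 * V' ≤ D ^ 2 * (5 / 4 * V) := by gcongr
    have e1 : 16 * D ^ 2 * V = 16 * (D ^ 2 * V) := by ring
    have e2 : 16 * D ^ 2 * V' = 16 * (D ^ 2 * V') := by ring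
    have e3 : 36 * D ^ 2 * V = 36 * (D ^ 2 * V) := by ring
    have e4 : D ^ 2 * (5 / 4 * V) = 5 / 4 * (D ^ 2 * V) := by ring
    rw [e1] at hw2
    rw [e2] at hw2'
    rw [e3]
    rw [e4] at h
    linarith
  rw [h3]
  have h6 : (Real.sqrt w + Real.sqrt w') ^ 2 ≤ 72 * D ^ 2 * V := by linarith
  calc (Real.sqrt w - Real.sqrt w') ^ 2 * (Real.sqrt w + Real.sqrt w') ^ 2
      ≤ (Real.sqrt w - Real.sqrt w') ^ 2 * (72 * D ^ 2 * V) := by gcongr
    _ = 72 * D ^ 2 * V * (Real.sqrt w - Real.sqrt w') ^ 2 := by ring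

lemma w2R_aux {D V w w' : ℝ} (hD : 0 < D) (hV : 0 < V) (hw : 0 < w) (hw' : 0 < w')
    (hw2 : w ≤ 16 * D ^ 2 * V) (hlow : (62 / 5) * D ^ 2 * V ≤ w') :
    w ^ 2 ≤ (91 / 5) * D ^ 2 * V * Real.sqrt (w * w') := by
  have hR2 : Real.sqrt (w * w') ^ 2 = w * w' := Real.sq_sqrt (mul_pos hw hw').le
  have hsq2 : (w ^ 2) ^ 2 ≤ ((91 / 5) * D ^ 2 * V * Real.sqrt (w * w')) ^ 2 := by
    rw [mul_pow, hR2]
    have hw3 : w ^ 3 ≤ (16 * D ^ 2 * V) ^ 3 := by gcongr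
    have h7 : (16 * D ^ 2 * V) ^ 3 ≤ ((91 / 5) * D ^ 2 * V) ^ 2 * w' := by
      have h8 : ((91 / 5) * D ^ 2 * V) ^ 2 * ((62 / 5) * D ^ 2 * V) ≤ ((91 / 5) * D ^ 2 * V) ^ 2 * w' := by
        gcongr
      have h9 : 0 ≤ (D ^ 2 * V) ^ 3 := by positivity
      have e1 : (16 * D ^ 2 * V) ^ 3 = 4096 * (D ^ 2 * V) ^ 3 := by ring
      have e2 : ((91 / 5) * D ^ 2 * V) ^ 2 * ((62 / 5) * D ^ 2 * V) =
          (91 / 5) ^ 2 * (62 / 5) * (D ^ 2 * V) ^ 3 := by ring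
      rw [e2] at h8
      rw [e1]
      norm_num at h8 ⊢
      linarith
    calc (w ^ 2) ^ 2 = w ^ 3 * w := by ring
      _ ≤ (((91 / 5) * D ^ 2 * V) ^ 2 * w') * w := by
          gcongr
          exact hw3.trans h7
      _ = ((91 / 5) * D ^ 2 * V) ^ 2 * (w * w') := by ring
  exact le_of_pow_le_pow_left₀ (by norm_num : (2:ℕ) ≠ 0) (by positivity) hsq2

lemma arith_I {D w w' V V' e : ℝ} (hD : 0 < D) (hV : 0 < V) (hV' : 0 < V')
    (h1 : V' ≤ 5 / 4 * V) (h2 : V ≤ 5 / 4 * V')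
    (hw1 : (31 / 2) * D ^ 2 * V ≤ w) (hw2 : w ≤ 16 * D ^ 2 * V)
    (hw1' : (31 / 2) * D ^ 2 * V' ≤ w') (hw2' : w' ≤ 16 * D ^ 2 * V')
    {I I' G : E d} (hG : G = (1 / w) • I - (1 / w') • I') (hI' : ‖I'‖ ≤ D * V')
    (he : Real.sqrt (w * w') * ‖G‖ ^ 2 ≤ 1115136 / (923521 * D ^ 2) * e) :
    ‖I - I'‖ ^ 2 / V ≤ 44 * e + (3 / 5) * (Real.sqrt w - Real.sqrt w') ^ 2 := by
  have hD2 : 0 < D ^ 2 := by positivity
  have hwp : 0 < w := lt_of_lt_of_le (by positivity) hw1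
  have hwp' : 0 < w' := lt_of_lt_of_le (by positivity) hw1'
  have hRp : 0 < Real.sqrt (w * w') := Real.sqrt_pos.2 (mul_pos hwp hwp')
  have hdec : I - I' = w • G + ((w - w') / w') • I' := by rw [hG]; exact dec_I hwp hwp' I I'
  have hb := hb_aux (w := w) hD hV' hwp' hw1' hI'
  have hww := hww_aux hD hV h1 hwp hwp' hw2 hw2'
  have hw2R := w2R_aux hD hV hwp hwp' hw2 (low_w' hD h2 hw1')
  have he0 : 0 ≤ e := by
    have h0 : 0 ≤ Real.sqrt (w * w') * ‖G‖ ^ 2 := by positivity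
    have h1' : 0 < 1115136 / (923521 * D ^ 2) := by positivity
    by_contra hneg
    push Not at hneg
    have := mul_neg_of_pos_of_neg h1' hneg
    linarith
  have ha : ‖w • G‖ ^ 2 ≤ (91 / 5) * V * (1115136 / 923521) * e := by
    rw [norm_smul, Real.norm_eq_abs, mul_pow, sq_abs]
    calc w ^ 2 * ‖G‖ ^ 2 ≤ ((91 / 5) * D ^ 2 * V * Real.sqrt (w * w')) * ‖G‖ ^ 2 := by gcongr
      _ = (91 / 5) * D ^ 2 * V * (Real.sqrt (w * w') * ‖G‖ ^ 2) := by ring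
      _ ≤ (91 / 5) * D ^ 2 * V * (1115136 / (923521 * D ^ 2) * e) := by gcongr
      _ = (91 / 5) * V * (1115136 / 923521) * e := by field_simp
  have hsum : ‖I - I'‖ ^ 2 ≤ 2 * ‖w • G‖ ^ 2 + 2 * ‖((w - w') / w') • I'‖ ^ 2 := by
    rw [hdec]
    have h3 := norm_add_le (w • G) (((w - w') / w') • I')
    generalize ‖w • G‖ = p at *
    generalize ‖((w - w') / w') • I'‖ = q at *
    have h4 : ‖w • G + ((w - w') / w') • I'‖ ^ 2 ≤ (p + q) ^ 2 := by gcongr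
    have e5 : 2 * p ^ 2 + 2 * q ^ 2 - (p + q) ^ 2 = (p - q) ^ 2 := by ring
    have h0 : 0 ≤ (p - q) ^ 2 := by positivity
    linarith
  rw [div_le_iff₀ hV]
  have h5 : 2 * ‖((w - w') / w') • I'‖ ^ 2 ≤ (3 / 5) * (Real.sqrt w - Real.sqrt w') ^ 2 * V := by
    have h6 : (w - w') ^ 2 * (4 / (961 * D ^ 2)) ≤
        72 * D ^ 2 * V * (Real.sqrt w - Real.sqrt w') ^ 2 * (4 / (961 * D ^ 2)) := by
      gcongr
    have h7 : 72 * D ^ 2 * V * (Real.sqrt w - Real.sqrt w') ^ 2 * (4 / (961 * D ^ 2)) =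
        (288 / 961) * (V * (Real.sqrt w - Real.sqrt w') ^ 2) := by
      field_simp
      ring
    have h8 : 0 ≤ V * (Real.sqrt w - Real.sqrt w') ^ 2 := by positivity
    have e6 : (3 / 5) * (Real.sqrt w - Real.sqrt w') ^ 2 * V =
        (3 / 5) * (V * (Real.sqrt w - Real.sqrt w') ^ 2) := by ring
    rw [e6]
    linarith
  have h9 : 2 * ‖w • G‖ ^ 2 ≤ 44 * e * V := by
    have h0 : 0 ≤ V * e := by positivity
    have e7 : (91 / 5) * V * (1115136 / 923521) * e = (91 / 5) * (1115136 / 923521) * (V * e) := by ring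
    have e8 : 44 * e * V = 44 * (V * e) := by ring
    rw [e7] at ha
    rw [e8]
    norm_num at ha ⊢
    linarith
  have e9 : (44 * e + (3 / 5) * (Real.sqrt w - Real.sqrt w') ^ 2) * V =
      44 * e * V + (3 / 5) * (Real.sqrt w - Real.sqrt w') ^ 2 * V := by ring
  rw [e9]
  linarith


section measure
variable {K : Set (E d)} {c : E d} {D : ℝ}

lemma wt_cont (M : ℝ) (c : E d) : Continuous (wt M c) := by
  unfold wt
  fun_prop

lemma wt_low (hD : 0 < D) (hKD : ∀ x ∈ K, ‖x - c‖ ≤ D) {x : E d} (hx : x ∈ K) :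
    (31 / 2) * D ^ 2 ≤ wt (16 * D ^ 2) c x := by
  unfold wt
  have h := hKD x hx
  have h2 : ‖x - c‖ ^ 2 ≤ D ^ 2 := by gcongr
  linarith

lemma wt_up (x : E d) : wt (16 * D ^ 2) c x ≤ 16 * D ^ 2 := by
  unfold wt
  have h2 : 0 ≤ ‖x - c‖ ^ 2 := by positivity
  linarith

lemma wt_lip (hKD : ∀ x ∈ K, ‖x - c‖ ≤ D) {M : ℝ} {x x' : E d} (hx : x ∈ K) (hx' : x' ∈ K) :
    |wt M c x - wt M c x'| ≤ D * ‖x - x'‖ := by
  unfold wt
  have h1 := hKD x hx
  have h2 := hKD x' hx'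
  have h3 : |‖x' - c‖ - ‖x - c‖| ≤ ‖x - x'‖ := by
    have := abs_norm_sub_norm_le (x' - c) (x - c)
    rwa [show (x' - c) - (x - c) = x' - x by abel, norm_sub_rev x' x] at this
  have e : M - ‖x - c‖ ^ 2 / 2 - (M - ‖x' - c‖ ^ 2 / 2) =
      (‖x' - c‖ - ‖x - c‖) * ((‖x' - c‖ + ‖x - c‖) / 2) := by ring
  rw [e, abs_mul]
  have h4 : |(‖x' - c‖ + ‖x - c‖) / 2| ≤ D := by
    rw [abs_of_nonneg (by positivity)]
    linarith
  calc |‖x' - c‖ - ‖x - c‖| * |(‖x' - c‖ + ‖x - c‖) / 2| ≤ ‖x - x'‖ * D := by gcongr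
    _ = D * ‖x - x'‖ := mul_comm _ _

lemma inv_diff (hD : 0 < D) (hKD : ∀ x ∈ K, ‖x - c‖ ≤ D) {x x' : E d} (hx : x ∈ K) (hx' : x' ∈ K) :
    |1 / wt (16 * D ^ 2) c x - 1 / wt (16 * D ^ 2) c x'| ≤
      D / ((31 / 2) * D ^ 2) ^ 2 * ‖x - x'‖ := by
  have hW0 : 0 < (31 / 2) * D ^ 2 := by positivity
  have h1 := wt_low hD hKD hx
  have h2 := wt_low hD hKD hx'
  have hp1 : 0 < wt (16 * D ^ 2) c x := lt_of_lt_of_le hW0 h1
  have hp2 : 0 < wt (16 * D ^ 2) c x' := lt_of_lt_of_le hW0 h2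
  have e : 1 / wt (16 * D ^ 2) c x - 1 / wt (16 * D ^ 2) c x' =
      (wt (16 * D ^ 2) c x' - wt (16 * D ^ 2) c x) / (wt (16 * D ^ 2) c x * wt (16 * D ^ 2) c x') := by
    field_simp
  rw [e, abs_div, abs_of_pos (mul_pos hp1 hp2)]
  have h3 := wt_lip (M := 16 * D ^ 2) hKD hx' hx
  rw [norm_sub_rev] at h3
  have h4 : ((31 / 2) * D ^ 2) ^ 2 ≤ wt (16 * D ^ 2) c x * wt (16 * D ^ 2) c x' := by
    rw [sq]; exact mul_le_mul h1 h2 hW0.le hp1.le
  calc |wt (16 * D ^ 2) c x' - wt (16 * D ^ 2) c x| / (wt (16 * D ^ 2) c x * wt (16 * D ^ 2) c x')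
      ≤ (D * ‖x - x'‖) / ((31 / 2) * D ^ 2) ^ 2 := by
        apply div_le_div₀ (by positivity) h3 (by positivity) h4
    _ = D / ((31 / 2) * D ^ 2) ^ 2 * ‖x - x'‖ := by ring

lemma int_bounds (hD : 0 < D) (hKD : ∀ x ∈ K, ‖x - c‖ ≤ D) {S : Set (E d)} (hS : IsCompact S)
    (hSK : S ⊆ K) :
    (31 / 2) * D ^ 2 * volume.real S ≤ ∫ x in S, wt (16 * D ^ 2) c x ∧
    ∫ x in S, wt (16 * D ^ 2) c x ≤ 16 * D ^ 2 * volume.real S := by
  have hint : IntegrableOn (wt (16 * D ^ 2) c) S := (wt_cont _ _).continuousOn.integrableOn_compact hS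
  have hfin : volume S < ⊤ := hS.measure_lt_top
  have hconst : ∀ C : ℝ, IntegrableOn (fun _ : E d => C) S := fun C => integrableOn_const hfin.ne
  constructor
  · have := setIntegral_mono_on (hconst ((31 / 2) * D ^ 2)) hint hS.measurableSet
      (fun x hx => wt_low hD hKD (hSK hx))
    rw [setIntegral_const, smul_eq_mul] at this
    linarith
  · have := setIntegral_mono_on hint (hconst (16 * D ^ 2)) hS.measurableSet
      (fun x _ => wt_up x)
    rw [setIntegral_const, smul_eq_mul] at this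
    linarith

/-- `one_cell` for a quotient `n / wt`. -/
lemma key_n (hKconv : Convex ℝ K) (hD : 0 < D) (hKD : ∀ x ∈ K, ‖x - c‖ ≤ D)
    {C C' Cb : Set (E d)} (hC : IsCompact C) (hC' : IsCompact C') (hCb : IsCompact Cb)
    (hCK : C ⊆ K) (hC'K : C' ⊆ K) (hCbK : Cb ⊆ K)
    (hmid : ∀ x ∈ C, ∀ x' ∈ C', (1 / 2 : ℝ) • (x + x') ∈ Cb)
    (hω : 0 < ∫ x in C, wt (16 * D ^ 2) c x) (hω' : 0 < ∫ x in C', wt (16 * D ^ 2) c x)
    {n : E d → ℝ} (hn : Continuous n) {A Ln : ℝ} (hA0 : 0 ≤ A) (hLn0 : 0 ≤ Ln)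
    (hA : ∀ x ∈ K, |n x| ≤ A) (hLn : ∀ x ∈ K, ∀ x' ∈ K, n x - n x' ≤ Ln * ‖x - x'‖)
    (hL : 0 < Ln / ((31 / 2) * D ^ 2) + A * (D / ((31 / 2) * D ^ 2) ^ 2)) :
    Real.sqrt ((∫ x in C, wt (16 * D ^ 2) c x) * ∫ x in C', wt (16 * D ^ 2) c x) *
        ((∫ x in C, n x) / (∫ x in C, wt (16 * D ^ 2) c x) -
          (∫ x in C', n x) / (∫ x in C', wt (16 * D ^ 2) c x)) ^ 2 ≤
      16 * (16 * D ^ 2) * (Ln / ((31 / 2) * D ^ 2) + A * (D / ((31 / 2) * D ^ 2) ^ 2)) ^ 2 *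
        ((∫ x in Cb, wt (16 * D ^ 2) c x) -
        Real.sqrt ((∫ x in C, wt (16 * D ^ 2) c x) * ∫ x in C', wt (16 * D ^ 2) c x)) := by
  have hW0 : 0 < (31 / 2) * D ^ 2 := by positivity
  have hlow : ∀ x ∈ K, (31 / 2) * D ^ 2 ≤ wt (16 * D ^ 2) c x := fun x hx => wt_low hD hKD hx
  have hpos : ∀ x ∈ K, 0 < wt (16 * D ^ 2) c x := fun x hx => lt_of_lt_of_le hW0 (hlow x hx)
  set κ : E d → ℝ := fun x => n x / wt (16 * D ^ 2) c x with hκdef
  have hκm : Measurable κ := hn.measurable.div (wt_cont _ _).measurable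
  have hκB : ∀ x ∈ K, |κ x| ≤ A / ((31 / 2) * D ^ 2) := by
    intro x hx
    simp only [hκdef]
    rw [abs_div, abs_of_pos (hpos x hx)]
    exact div_le_div₀ hA0 (hA x hx) hW0 (hlow x hx)
  have hκ : ∀ x ∈ K, ∀ x' ∈ K, κ x - κ x' ≤
      (Ln / ((31 / 2) * D ^ 2) + A * (D / ((31 / 2) * D ^ 2) ^ 2)) * ‖x - x'‖ := by
    intro x hx x' hx'
    simp only [hκdef]
    have hpx := hpos x hx
    have hpx' := hpos x' hx'
    have e : n x / wt (16 * D ^ 2) c x - n x' / wt (16 * D ^ 2) c x' =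
        (n x - n x') * (1 / wt (16 * D ^ 2) c x) +
        n x' * (1 / wt (16 * D ^ 2) c x - 1 / wt (16 * D ^ 2) c x') := by
      field_simp
      ring
    rw [e]
    have h1 : (n x - n x') * (1 / wt (16 * D ^ 2) c x) ≤ Ln / ((31 / 2) * D ^ 2) * ‖x - x'‖ := by
      have hin : 1 / wt (16 * D ^ 2) c x ≤ 1 / ((31 / 2) * D ^ 2) :=
        one_div_le_one_div_of_le hW0 (hlow x hx)
      have hin0 : 0 ≤ 1 / wt (16 * D ^ 2) c x := by positivity
      calc (n x - n x') * (1 / wt (16 * D ^ 2) c x)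
          ≤ (Ln * ‖x - x'‖) * (1 / wt (16 * D ^ 2) c x) :=
            mul_le_mul_of_nonneg_right (hLn x hx x' hx') hin0
        _ ≤ (Ln * ‖x - x'‖) * (1 / ((31 / 2) * D ^ 2)) :=
            mul_le_mul_of_nonneg_left hin (by positivity)
        _ = Ln / ((31 / 2) * D ^ 2) * ‖x - x'‖ := by ring
    have h2 : n x' * (1 / wt (16 * D ^ 2) c x - 1 / wt (16 * D ^ 2) c x') ≤
        A * (D / ((31 / 2) * D ^ 2) ^ 2) * ‖x - x'‖ := by
      calc n x' * (1 / wt (16 * D ^ 2) c x - 1 / wt (16 * D ^ 2) c x')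
          ≤ |n x' * (1 / wt (16 * D ^ 2) c x - 1 / wt (16 * D ^ 2) c x')| := le_abs_self _
        _ = |n x'| * |1 / wt (16 * D ^ 2) c x - 1 / wt (16 * D ^ 2) c x'| := abs_mul _ _
        _ ≤ A * (D / ((31 / 2) * D ^ 2) ^ 2 * ‖x - x'‖) :=
            mul_le_mul (hA x' hx') (inv_diff hD hKD hx hx') (abs_nonneg _) hA0
        _ = A * (D / ((31 / 2) * D ^ 2) ^ 2) * ‖x - x'‖ := by ring
    have e2 : (Ln / ((31 / 2) * D ^ 2) + A * (D / ((31 / 2) * D ^ 2) ^ 2)) * ‖x - x'‖ =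
        Ln / ((31 / 2) * D ^ 2) * ‖x - x'‖ + A * (D / ((31 / 2) * D ^ 2) ^ 2) * ‖x - x'‖ := by ring
    rw [e2]
    exact add_le_add h1 h2
  have hcongr : ∀ {S : Set (E d)}, IsCompact S → S ⊆ K →
      ∫ x in S, wt (16 * D ^ 2) c x * κ x = ∫ x in S, n x := by
    intro S hS hSK
    refine setIntegral_congr_fun hS.measurableSet fun x hx => ?_
    simp only [hκdef]
    exact mul_div_cancel₀ _ (hpos x (hSK hx)).ne'
  have main := one_cell hKconv hD hKD le_rfl hC hC' hCb hCK hC'K hCbK hmid hω hω' hκm hL hκB hκ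
  rw [hcongr hC hCK, hcongr hC' hC'K] at main
  exact main

end measure

end LemmaGaux

open LemmaGaux in
/-- **Lemma G.** Two Laguerre tessellations of a convex body with the same sites have close
moments as soon as they have close volumes. -/
theorem lemma_G {K : Set (E d)} (hKc : IsCompact K) (hKconv : Convex ℝ K) {c : E d} {D : ℝ}
    (hD : 0 < D) (hKD : ∀ x ∈ K, ‖x - c‖ ≤ D) {ι : Type} [Fintype ι] [Nonempty ι] {y : ι → E d}
    (hy : Function.Injective y) (a a' : ι → ℝ)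
    (hV : ∀ i, 0 < vol K y a i) (hV' : ∀ i, 0 < vol K y a' i)
    (h1 : ∀ i, vol K y a' i ≤ 5 / 4 * vol K y a i) (h2 : ∀ i, vol K y a i ≤ 5 / 4 * vol K y a' i) :
    ∑ i, ‖mom K y a c i - mom K y a' c i‖ ^ 2 / vol K y a i ≤
      400 * D ^ 2 * ∑ i, (vol K y a i - vol K y a' i) ^ 2 / vol K y a i := by
  classical
  set W : E d → ℝ := wt (16 * D ^ 2) c with hW
  set ab : ι → ℝ := fun j => (a j + a' j) / 2 with hab
  set ω : ι → ℝ := fun i => ∫ x in cell K y a i, W x with hω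
  set ω' : ι → ℝ := fun i => ∫ x in cell K y a' i, W x with hω'
  set P : ι → ℝ := fun i => ∫ x in cell K y ab i, W x with hP
  set V : ι → ℝ := fun i => vol K y a i with hVd
  set V' : ι → ℝ := fun i => vol K y a' i with hV'd
  set R : ι → ℝ := fun i => Real.sqrt (ω i * ω' i) with hR
  set eps : ι → ℝ := fun i => P i - R i with heps
  set X : ι → ℝ := fun i => (Real.sqrt (ω i) - Real.sqrt (ω' i)) ^ 2 with hX
  have hC : ∀ i, IsCompact (cell K y a i) := fun i => isCompact_cell hKc i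
  have hC' : ∀ i, IsCompact (cell K y a' i) := fun i => isCompact_cell hKc i
  have hCb : ∀ i, IsCompact (cell K y ab i) := fun i => isCompact_cell hKc i
  have hmid : ∀ i, ∀ x ∈ cell K y a i, ∀ x' ∈ cell K y a' i,
      (1 / 2 : ℝ) • (x + x') ∈ cell K y ab i := fun i x hx x' hx' =>
    midpoint_mem_cell hKconv hx hx'
  have hb : ∀ i, (31 / 2) * D ^ 2 * V i ≤ ω i ∧ ω i ≤ 16 * D ^ 2 * V i := fun i =>
    int_bounds hD hKD (hC i) (cell_subset i)
  have hb' : ∀ i, (31 / 2) * D ^ 2 * V' i ≤ ω' i ∧ ω' i ≤ 16 * D ^ 2 * V' i := fun i =>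
    int_bounds hD hKD (hC' i) (cell_subset i)
  have hωp : ∀ i, 0 < ω i := fun i =>
    lt_of_lt_of_le (mul_pos (by positivity) (hV i)) (hb i).1
  have hωp' : ∀ i, 0 < ω' i := fun i =>
    lt_of_lt_of_le (mul_pos (by positivity) (hV' i)) (hb' i).1
  -- the first application of `one_cell`
  have hc1 : ∀ i, R i * (V i / ω i - V' i / ω' i) ^ 2 ≤ 4096 / (923521 * D ^ 4) * eps i := by
    intro i
    have hcn := key_n hKconv hD hKD (hC i) (hC' i) (hCb i) (cell_subset i) (cell_subset i)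
      (cell_subset i) (hmid i) (hωp i) (hωp' i) (n := fun _ => (1:ℝ)) continuous_const
      (A := 1) (Ln := 0) zero_le_one le_rfl (fun x _ => by simp) (fun x _ x' _ => by simp)
      (by simpa using (by positivity : 0 < D / ((31 / 2) * D ^ 2) ^ 2))
    have e1 : (∫ x in cell K y a i, (1:ℝ)) = V i := by
      simp [hVd, vol]
    have e2 : (∫ x in cell K y a' i, (1:ℝ)) = V' i := by
      simp [hV'd, vol]
    rw [e1, e2] at hcn
    have e3 : (0:ℝ) / ((31 / 2) * D ^ 2) + 1 * (D / ((31 / 2) * D ^ 2) ^ 2) =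
        D / ((31 / 2) * D ^ 2) ^ 2 := by simp
    rw [e3, c1_eq hD] at hcn
    exact hcn
  have heps0 : ∀ i, 0 ≤ eps i := by
    intro i
    have hh := hc1 i
    have h0 : 0 ≤ R i * (V i / ω i - V' i / ω' i) ^ 2 := by
      have : 0 ≤ R i := Real.sqrt_nonneg _
      positivity
    have h1' : 0 < 4096 / (923521 * D ^ 4) := by positivity
    by_contra hneg
    push Not at hneg
    have := mul_neg_of_pos_of_neg h1' hneg
    linarith
  -- the vector application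
  set I : ι → E d := fun i => mom K y a c i with hI
  set I' : ι → E d := fun i => mom K y a' c i with hI'
  set G : ι → E d := fun i => (1 / ω i) • I i - (1 / ω' i) • I' i with hG
  have hinner : ∀ {S : Set (E d)}, IsCompact S → ∀ e : E d,
      ∫ x in S, inner ℝ (x - c) e = inner ℝ (∫ x in S, (x - c)) e := by
    intro S hS e
    have hint : Integrable (fun x : E d => x - c) (volume.restrict S) :=
      (by fun_prop : Continuous fun x : E d => x - c).continuousOn.integrableOn_compact hS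
    have := integral_inner (𝕜 := ℝ) hint e
    rw [real_inner_comm]
    rw [← this]
    refine integral_congr_ae (Eventually.of_forall fun x => ?_)
    exact real_inner_comm _ _
  have hc2 : ∀ i, R i * ‖G i‖ ^ 2 ≤ 1115136 / (923521 * D ^ 2) * eps i := by
    intro i
    by_cases hG0 : G i = 0
    · rw [hG0, norm_zero]
      have : 0 ≤ 1115136 / (923521 * D ^ 2) * eps i :=
        mul_nonneg (by positivity) (heps0 i)
      simpa using this
    have hGn : 0 < ‖G i‖ := norm_pos_iff.2 hG0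
    set e : E d := (1 / ‖G i‖) • G i with he
    have hen : ‖e‖ = 1 := by
      rw [he, norm_smul, Real.norm_eq_abs, abs_of_pos (by positivity)]
      field_simp
    have hcn := key_n hKconv hD hKD (hC i) (hC' i) (hCb i) (cell_subset i) (cell_subset i)
      (cell_subset i) (hmid i) (hωp i) (hωp' i) (n := fun x => inner ℝ (x - c) e)
      (by fun_prop) (A := D) (Ln := 1) hD.le zero_le_one
      (fun x hx => by
        have := abs_real_inner_le_norm (x - c) e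
        rw [hen, mul_one] at this
        exact this.trans (hKD x hx))
      (fun x _ x' _ => by
        have e1 : inner ℝ (x - c) e - inner ℝ (x' - c) e = inner ℝ (x - x') e := by
          rw [← inner_sub_left]
          congr 1
          abel
        rw [e1, one_mul]
        have := real_inner_le_norm (x - x') e
        rwa [hen, mul_one] at this)
      (by positivity)
    rw [hinner (hC i) e, hinner (hC' i) e] at hcn
    have e5 : (1:ℝ) / ((31 / 2) * D ^ 2) + D * (D / ((31 / 2) * D ^ 2) ^ 2) =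
        1 / ((31 / 2) * D ^ 2) + D ^ 2 / ((31 / 2) * D ^ 2) ^ 2 := by ring
    rw [e5, c2_eq hD] at hcn
    have e6 : (inner ℝ (∫ x in cell K y a i, (x - c)) e) / (∫ x in cell K y a i, wt (16 * D ^ 2) c x) -
        (inner ℝ (∫ x in cell K y a' i, (x - c)) e) / (∫ x in cell K y a' i, wt (16 * D ^ 2) c x) =
        ‖G i‖ := by
      have e7 : inner ℝ (G i) e = ‖G i‖ := by
        rw [he, inner_smul_right, real_inner_self_eq_norm_sq]
        field_simp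
      rw [← e7, hG]
      simp only [inner_sub_left, inner_smul_left]
      simp [hI, hI', mom, hω, hω', hW, div_eq_inv_mul]
    rw [e6] at hcn
    exact hcn
  -- per cell bounds
  have hx1 : ∀ i, X i ≤ (52 / 5) * D ^ 2 * ((V i - V' i) ^ 2 / V i) + (37 / 50) * eps i := fun i =>
    arith_x hD (hV i) (hV' i) (h1 i) (h2 i) (hb i).1 (hb i).2 (hb' i).1 (hb' i).2 (hc1 i)
  have hI'n : ∀ i, ‖I' i‖ ≤ D * V' i := by
    intro i
    have := norm_setIntegral_le_of_norm_le_const (μ := volume) (s := cell K y a' i)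
      (f := fun x => x - c) (C := D) (hC' i).measure_lt_top
      (fun x hx => hKD x (cell_subset i hx))
    simpa [hI', mom, hV'd, vol] using this
  have hI1 : ∀ i, ‖I i - I' i‖ ^ 2 / V i ≤ 44 * eps i + (3 / 5) * X i := fun i =>
    arith_I hD (hV i) (hV' i) (h1 i) (h2 i) (hb i).1 (hb i).2 (hb' i).1 (hb' i).2 rfl (hI'n i) (hc2 i)
  -- accounting
  have hWint : IntegrableOn W K := (wt_cont _ _).continuousOn.integrableOn_compact hKc
  have hS1 : ∑ i, ω i = ∫ x in K, W x :=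
    sum_setIntegral_cell hKc.measurableSet hy hWint
  have hS2 : ∑ i, ω' i = ∫ x in K, W x :=
    sum_setIntegral_cell hKc.measurableSet hy hWint
  have hS3 : ∑ i, P i = ∫ x in K, W x :=
    sum_setIntegral_cell hKc.measurableSet hy hWint
  have hXeq : ∀ i, X i = ω i + ω' i - 2 * R i := by
    intro i
    have h3 : Real.sqrt (ω i) ^ 2 = ω i := Real.sq_sqrt (hωp i).le
    have h4 : Real.sqrt (ω' i) ^ 2 = ω' i := Real.sq_sqrt (hωp' i).le
    have h5 : R i = Real.sqrt (ω i) * Real.sqrt (ω' i) := Real.sqrt_mul (hωp i).le _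
    simp only [hX]
    rw [h5]
    nth_rewrite 2 [← h3]
    nth_rewrite 2 [← h4]
    ring
  have hsumX : ∑ i, X i = 2 * ∑ i, eps i := by
    simp only [hXeq, heps, Finset.sum_sub_distrib, Finset.sum_add_distrib, ← Finset.mul_sum]
    rw [hS1, hS2, hS3]
    ring
  set T := ∑ i, (V i - V' i) ^ 2 / V i with hT
  have hsum1 : ∑ i, X i ≤ (52 / 5) * D ^ 2 * T + (37 / 50) * ∑ i, eps i := by
    calc ∑ i, X i ≤ ∑ i, ((52 / 5) * D ^ 2 * ((V i - V' i) ^ 2 / V i) + (37 / 50) * eps i) :=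
          Finset.sum_le_sum fun i _ => hx1 i
      _ = (52 / 5) * D ^ 2 * T + (37 / 50) * ∑ i, eps i := by
          rw [Finset.sum_add_distrib, ← Finset.mul_sum, ← Finset.mul_sum]
  have hsum2 : ∑ i, ‖I i - I' i‖ ^ 2 / V i ≤ 44 * ∑ i, eps i + (3 / 5) * ∑ i, X i := by
    calc ∑ i, ‖I i - I' i‖ ^ 2 / V i ≤ ∑ i, (44 * eps i + (3 / 5) * X i) :=
          Finset.sum_le_sum fun i _ => hI1 i
      _ = 44 * ∑ i, eps i + (3 / 5) * ∑ i, X i := by
          rw [Finset.sum_add_distrib, ← Finset.mul_sum, ← Finset.mul_sum]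
  have hT0 : 0 ≤ T := Finset.sum_nonneg fun i _ => div_nonneg (sq_nonneg _) (hV i).le
  have hDT : 0 ≤ D ^ 2 * T := by positivity
  rw [hsumX] at hsum1 hsum2
  have e8 : (52 / 5) * D ^ 2 * T = (52 / 5) * (D ^ 2 * T) := by ring
  rw [e8] at hsum1
  have e9 : 400 * D ^ 2 * T = 400 * (D ^ 2 * T) := by ring
  change ∑ i, ‖I i - I' i‖ ^ 2 / V i ≤ 400 * D ^ 2 * T
  rw [e9]
  linarith

end Vale.Agent.P074T
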