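import Vale.Agent.Lib.P074T.PL
import Vale.Agent.Lib.P074T.Cells

open MeasureTheory Set Filter Topology Metric
open scoped ENNReal

namespace Vale.Agent.P074T

open Vale.Agent.P074

set_option linter.unusedSectionVars false

variable {d : ℕ}


/-- The quadratic weight. -/
noncomputable def wt (M : ℝ) (c : E d) (x : E d) : ℝ := M - ‖x - c‖ ^ 2 / 2

namespace OneCellAux

lemma wt_cont' (M : ℝ) (c : E d) : Continuous (wt M c) := by
  unfold wt
  fun_prop

/-- Parallelogram identity for the weight. -/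
lemma wt_mid (M : ℝ) (c x x' : E d) :
    wt M c ((1 / 2 : ℝ) • (x + x')) = (wt M c x + wt M c x') / 2 + ‖x - x'‖ ^ 2 / 8 := by
  unfold wt
  have h1 : (1 / 2 : ℝ) • (x + x') - c = (1 / 2 : ℝ) • ((x - c) + (x' - c)) := by
    ext i
    simp
    ring
  have h2 : x - x' = (x - c) - (x' - c) := by abel
  rw [h1, h2, norm_smul, Real.norm_eq_abs, abs_of_pos (by norm_num : (0:ℝ) < 1 / 2), mul_pow]
  have hp := parallelogram_law_with_norm ℝ (x - c) (x' - c)
  have : ‖(x - c) + (x' - c)‖ ^ 2 + ‖(x - c) - (x' - c)‖ ^ 2 =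
      2 * (‖x - c‖ ^ 2 + ‖x' - c‖ ^ 2) := by
    have := hp
    nlinarith
  nlinarith

/-- The elementary inequality `1 + u ≥ exp (u / 2)` for `0 ≤ u ≤ 1`. -/
lemma one_add_ge_exp_half {u : ℝ} (h0 : 0 ≤ u) (h1 : u ≤ 1) : Real.exp (u / 2) ≤ 1 + u := by
  have h2 : u / 2 ≤ 1 := by linarith
  have := Real.exp_bound_div_one_sub_of_interval (x := u / 2) (by positivity) (by linarith)
  have h4 : 1 / (1 - u / 2) ≤ 1 + u := by
    rw [div_le_iff₀ (by linarith)]
    nlinarith
  linarith

lemma lam_bound {M L lam k rho : ℝ} (hM : 0 < M)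
    (hk : |k| ≤ L * rho) :
    lam * k ≤ 2 * M * lam ^ 2 * L ^ 2 + rho ^ 2 / (8 * M) := by
  have h1 : lam * k ≤ |lam| * (L * rho) := by
    calc lam * k ≤ |lam * k| := le_abs_self _
      _ = |lam| * |k| := abs_mul _ _
      _ ≤ |lam| * (L * rho) := mul_le_mul_of_nonneg_left hk (abs_nonneg _)
  have h2 : 2 * M * lam ^ 2 * L ^ 2 + rho ^ 2 / (8 * M) - |lam| * (L * rho) =
      (4 * M * |lam| * L - rho) ^ 2 / (8 * M) := by
    have : lam ^ 2 = |lam| ^ 2 := (sq_abs lam).symm
    rw [this]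
    field_simp
    ring
  have h3 : 0 ≤ (4 * M * |lam| * L - rho) ^ 2 / (8 * M) := by positivity
  linarith

/-- Pointwise inequality for Prékopa–Leindler. -/
lemma pointwise {M L lam W1 W2 Wz k1 k2 rho : ℝ} (hM : 0 < M) (hL : 0 < L)
    (hW1 : 0 < W1) (hW2 : 0 < W2) (hW1M : W1 ≤ M) (hW2M : W2 ≤ M)
    (hrho0 : 0 ≤ rho) (hrho : rho ^ 2 ≤ 8 * M)
    (hWz : Wz = (W1 + W2) / 2 + rho ^ 2 / 8)
    (hk : |k1 - k2| ≤ L * rho) :
    (W1 * Real.exp (lam * k1)) * (W2 * Real.exp (-lam * k2)) ≤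
      (Real.exp (M * lam ^ 2 * L ^ 2) * Wz) ^ 2 := by
  set p := Real.sqrt (W1 * W2) with hp
  have hp2 : p ^ 2 = W1 * W2 := Real.sq_sqrt (mul_pos hW1 hW2).le
  have hp0 : 0 < p := Real.sqrt_pos.2 (mul_pos hW1 hW2)
  have hpam : p ≤ (W1 + W2) / 2 := by
    apply abs_le_of_sq_le_sq' _ (by positivity) |>.2
    nlinarith [sq_nonneg (W1 - W2)]
  have hpM : p ≤ M := by linarith
  set u := rho ^ 2 / (8 * M) with hu
  have hu0 : 0 ≤ u := by positivity
  have hu1 : u ≤ 1 := by
    rw [hu, div_le_one (by positivity)]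
    exact hrho
  have h1 : p * Real.exp (u / 2) ≤ Wz := by
    have h11 : p * Real.exp (u / 2) ≤ p * (1 + u) :=
      mul_le_mul_of_nonneg_left (one_add_ge_exp_half hu0 hu1) hp0.le
    have h12 : p * u ≤ rho ^ 2 / 8 := by
      have : p * u = (p / M) * (rho ^ 2 / 8) := by
        rw [hu]; field_simp
      rw [this]
      have h13 : p / M ≤ 1 := by rw [div_le_one hM]; exact hpM
      have h14 : 0 ≤ rho ^ 2 / 8 := by positivity
      nlinarith
    rw [hWz]
    nlinarith
  have h2 : (p * Real.exp (u / 2)) ^ 2 ≤ Wz ^ 2 :=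
    pow_le_pow_left₀ (by positivity) h1 2
  have h3 : (p * Real.exp (u / 2)) ^ 2 = W1 * W2 * Real.exp u := by
    rw [mul_pow, hp2, ← Real.exp_nat_mul]
    congr 2
    push_cast
    ring
  have h4 : lam * (k1 - k2) ≤ 2 * (M * lam ^ 2 * L ^ 2) + u := by
    have := lam_bound (lam := lam) hM hk
    rw [hu]
    linarith
  have h5 : (W1 * Real.exp (lam * k1)) * (W2 * Real.exp (-lam * k2)) =
      W1 * W2 * Real.exp (lam * (k1 - k2)) := by
    have : Real.exp (lam * (k1 - k2)) = Real.exp (lam * k1) * Real.exp (-lam * k2) := by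
      rw [← Real.exp_add]; congr 1; ring
    rw [this]; ring
  have h6 : (Real.exp (M * lam ^ 2 * L ^ 2) * Wz) ^ 2 =
      Real.exp (2 * (M * lam ^ 2 * L ^ 2)) * Wz ^ 2 := by
    rw [mul_pow, ← Real.exp_nat_mul]
    push_cast
    rfl
  rw [h5, h6]
  have h7 : Real.exp (lam * (k1 - k2)) ≤ Real.exp (2 * (M * lam ^ 2 * L ^ 2)) * Real.exp u := by
    rw [← Real.exp_add]
    exact Real.exp_le_exp.2 h4
  have hW12 : 0 ≤ W1 * W2 := (mul_pos hW1 hW2).le
  calc W1 * W2 * Real.exp (lam * (k1 - k2))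
      ≤ W1 * W2 * (Real.exp (2 * (M * lam ^ 2 * L ^ 2)) * Real.exp u) :=
        mul_le_mul_of_nonneg_left h7 hW12
    _ = Real.exp (2 * (M * lam ^ 2 * L ^ 2)) * (W1 * W2 * Real.exp u) := by ring
    _ ≤ Real.exp (2 * (M * lam ^ 2 * L ^ 2)) * Wz ^ 2 := by
        apply mul_le_mul_of_nonneg_left _ (Real.exp_pos _).le
        rw [← h3]; exact h2

lemma intOn_bdd {S : Set (E d)} (hS : IsCompact S) {F : E d → ℝ} (hF : Measurable F) {A : ℝ}
    (hA : ∀ x ∈ S, |F x| ≤ A) : IntegrableOn F S := by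
  refine Measure.integrableOn_of_bounded (M := A) hS.measure_lt_top.ne hF.aestronglyMeasurable ?_
  filter_upwards [ae_restrict_mem hS.measurableSet] with x hx
  simpa [Real.norm_eq_abs] using hA x hx

/-- Weighted Jensen inequality for the exponential, via the tangent line. -/
lemma jensen {S : Set (E d)} (hS : IsCompact S) {W κ : E d → ℝ} (hWm : Measurable W)
    (hκm : Measurable κ) {M B : ℝ} (hW0 : ∀ x ∈ S, 0 ≤ W x) (hWM : ∀ x ∈ S, W x ≤ M)
    (hκB : ∀ x ∈ S, |κ x| ≤ B) (hω : 0 < ∫ x in S, W x) (μ : ℝ) :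
    (∫ x in S, W x) * Real.exp (μ * ((∫ x in S, W x * κ x) / ∫ x in S, W x)) ≤
      ∫ x in S, W x * Real.exp (μ * κ x) := by
  set ω := ∫ x in S, W x with hωdef
  set I := ∫ x in S, W x * κ x with hIdef
  set e := I / ω with hedef
  have hWab : ∀ x ∈ S, |W x| ≤ M := fun x hx => by
    rw [abs_of_nonneg (hW0 x hx)]; exact hWM x hx
  have hM0 : ∀ x ∈ S, 0 ≤ M := fun x hx => (hW0 x hx).trans (hWM x hx)
  have hB0 : ∀ x ∈ S, 0 ≤ B := fun x hx => (abs_nonneg _).trans (hκB x hx)
  have h1 : IntegrableOn W S := intOn_bdd hS hWm hWab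
  have h2 : IntegrableOn (fun x => W x * κ x) S := by
    refine intOn_bdd hS (hWm.mul hκm) (A := M * B) ?_
    intro x hx
    rw [abs_mul]
    exact mul_le_mul (hWab x hx) (hκB x hx) (abs_nonneg _) (hM0 x hx)
  have hexpm : Measurable (fun x => Real.exp (μ * κ x)) :=
    Real.measurable_exp.comp (hκm.const_mul μ)
  have h3 : IntegrableOn (fun x => W x * Real.exp (μ * κ x)) S := by
    refine intOn_bdd hS (hWm.mul hexpm) (A := M * Real.exp (|μ| * B)) ?_
    intro x hx
    rw [abs_mul, abs_of_pos (Real.exp_pos _)]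
    refine mul_le_mul (hWab x hx) (Real.exp_le_exp.2 ?_) (Real.exp_pos _).le (hM0 x hx)
    calc μ * κ x ≤ |μ * κ x| := le_abs_self _
      _ = |μ| * |κ x| := abs_mul _ _
      _ ≤ |μ| * B := mul_le_mul_of_nonneg_left (hκB x hx) (abs_nonneg _)
  have h4 : IntegrableOn
      (fun x => Real.exp (μ * e) * (W x + μ * (W x * κ x) - μ * e * W x)) S :=
    ((h1.add (h2.const_mul μ)).sub (h1.const_mul (μ * e))).const_mul _
  have hval : ∫ x in S, Real.exp (μ * e) * (W x + μ * (W x * κ x) - μ * e * W x) =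
      ω * Real.exp (μ * e) := by
    have hA : IntegrableOn (fun x => W x + μ * (W x * κ x)) S := h1.add (h2.const_mul μ)
    have hB : IntegrableOn (fun x => μ * e * W x) S := h1.const_mul _
    have hC : IntegrableOn (fun x => μ * (W x * κ x)) S := h2.const_mul _
    rw [integral_const_mul, integral_sub hA hB, integral_add h1 hC, integral_const_mul,
      integral_const_mul, ← hωdef, ← hIdef]
    have : e * ω = I := by rw [hedef]; field_simp
    have h' : μ * e * ω = μ * I := by rw [mul_assoc, this]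
    rw [h']
    ring
  rw [← hval]
  refine setIntegral_mono_on h4 h3 hS.measurableSet ?_
  intro x hx
  have h5 : Real.exp (μ * κ x) = Real.exp (μ * e) * Real.exp (μ * κ x - μ * e) := by
    rw [← Real.exp_add]; congr 1; ring
  have h6 : μ * κ x - μ * e + 1 ≤ Real.exp (μ * κ x - μ * e) := Real.add_one_le_exp _
  have h7 : Real.exp (μ * e) * (W x + μ * (W x * κ x) - μ * e * W x) =
      W x * (Real.exp (μ * e) * (μ * κ x - μ * e + 1)) := by ring
  rw [h7, h5]
  apply mul_le_mul_of_nonneg_left _ (hW0 x hx)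
  exact mul_le_mul_of_nonneg_left h6 (Real.exp_pos _).le

lemma final_arith {R P M L D lam : ℝ} (hR : 0 ≤ R) (hP : 0 ≤ P) (hM : 0 < M) (hL : 0 < L)
    (hlam : lam = D / (4 * M * L ^ 2))
    (H : R ^ 2 * Real.exp (lam * D) ≤ (Real.exp (M * lam ^ 2 * L ^ 2) * P) ^ 2) :
    R * D ^ 2 ≤ 16 * M * L ^ 2 * (P - R) := by
  set t := D ^ 2 / (16 * M * L ^ 2) with ht
  have hid : lam * D / 2 = M * lam ^ 2 * L ^ 2 + t := by
    rw [hlam, ht]; field_simp; ring
  have hsq : (R * Real.exp (lam * D / 2)) ^ 2 = R ^ 2 * Real.exp (lam * D) := by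
    rw [mul_pow, ← Real.exp_nat_mul]
    congr 2
    push_cast
    ring
  have h1 : R * Real.exp (lam * D / 2) ≤ Real.exp (M * lam ^ 2 * L ^ 2) * P := by
    refine abs_le_of_sq_le_sq' ?_ (by positivity) |>.2
    rw [hsq]; exact H
  have h2 : Real.exp (lam * D / 2) = Real.exp (M * lam ^ 2 * L ^ 2) * Real.exp t := by
    rw [hid, Real.exp_add]
  have h3 : R * Real.exp t ≤ P := by
    rw [h2] at h1
    have hpos := Real.exp_pos (M * lam ^ 2 * L ^ 2)
    have : Real.exp (M * lam ^ 2 * L ^ 2) * (R * Real.exp t) ≤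
        Real.exp (M * lam ^ 2 * L ^ 2) * P := by
      calc _ = R * (Real.exp (M * lam ^ 2 * L ^ 2) * Real.exp t) := by ring
        _ ≤ _ := h1
    exact le_of_mul_le_mul_left this hpos
  have h4 : t + 1 ≤ Real.exp t := Real.add_one_le_exp t
  have h5 : R * (t + 1) ≤ P := (mul_le_mul_of_nonneg_left h4 hR).trans h3
  have h6 : R * t ≤ P - R := by linarith
  have hA : 0 < 16 * M * L ^ 2 := by positivity
  have h7 : R * D ^ 2 = 16 * M * L ^ 2 * (R * t) := by
    rw [ht]; field_simp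
  rw [h7]
  exact mul_le_mul_of_nonneg_left h6 hA.le

end OneCellAux

open OneCellAux in
/-- The consequence of Prékopa–Leindler on one pair of cells. -/
theorem one_cell {K C C' Cb : Set (E d)} (hKconv : Convex ℝ K) {c : E d} {D M : ℝ} (hD : 0 < D)
    (hKD : ∀ x ∈ K, ‖x - c‖ ≤ D) (hM : 16 * D ^ 2 ≤ M)
    (hC : IsCompact C) (hC' : IsCompact C') (hCb : IsCompact Cb)
    (hCK : C ⊆ K) (hC'K : C' ⊆ K) (hCbK : Cb ⊆ K)
    (hmid : ∀ x ∈ C, ∀ x' ∈ C', (1 / 2 : ℝ) • (x + x') ∈ Cb)
    (hω : 0 < ∫ x in C, wt M c x) (hω' : 0 < ∫ x in C', wt M c x)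
    {κ : E d → ℝ} (hκm : Measurable κ) {B L : ℝ} (hL : 0 < L) (hκB : ∀ x ∈ K, |κ x| ≤ B)
    (hκ : ∀ x ∈ K, ∀ x' ∈ K, κ x - κ x' ≤ L * ‖x - x'‖) :
    Real.sqrt ((∫ x in C, wt M c x) * ∫ x in C', wt M c x) *
        ((∫ x in C, wt M c x * κ x) / (∫ x in C, wt M c x) -
          (∫ x in C', wt M c x * κ x) / (∫ x in C', wt M c x)) ^ 2 ≤
      16 * M * L ^ 2 * ((∫ x in Cb, wt M c x) -
        Real.sqrt ((∫ x in C, wt M c x) * ∫ x in C', wt M c x)) := by
  have hD2 : 0 < D ^ 2 := by positivity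
  have hMpos : 0 < M := by linarith
  have hWc : Continuous (wt M c) := wt_cont' M c
  have hWm : Measurable (wt M c) := hWc.measurable
  have hWK : ∀ x ∈ K, 0 < wt M c x := by
    intro x hx
    have h1 := hKD x hx
    have h2 : ‖x - c‖ ^ 2 ≤ D ^ 2 := pow_le_pow_left₀ (norm_nonneg _) h1 2
    unfold wt
    linarith
  have hWM : ∀ x, wt M c x ≤ M := by
    intro x
    unfold wt
    have : 0 ≤ ‖x - c‖ ^ 2 := by positivity
    linarith
  set ω := ∫ x in C, wt M c x with hωdef
  set ω' := ∫ x in C', wt M c x with hω'def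
  set P := ∫ x in Cb, wt M c x with hPdef
  set R := Real.sqrt (ω * ω') with hRdef
  set e := (∫ x in C, wt M c x * κ x) / ω with hedef
  set e' := (∫ x in C', wt M c x * κ x) / ω' with he'def
  set lam := (e - e') / (4 * M * L ^ 2) with hlamdef
  set θ := Real.exp (M * lam ^ 2 * L ^ 2) with hθdef
  have hθ : 0 < θ := Real.exp_pos _
  have hP0 : 0 ≤ P := setIntegral_nonneg hCb.measurableSet (fun x hx => (hWK x (hCbK hx)).le)
  -- the three functions
  have hexp1 : Measurable (fun x => wt M c x * Real.exp (lam * κ x)) :=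
    hWm.mul (Real.measurable_exp.comp (hκm.const_mul _))
  have hexp2 : Measurable (fun x => wt M c x * Real.exp (-lam * κ x)) :=
    hWm.mul (Real.measurable_exp.comp (hκm.const_mul _))
  have hexp3 : Measurable (fun x => θ * wt M c x) := hWm.const_mul _
  have hbd : ∀ (μ : ℝ) (S : Set (E d)), S ⊆ K → ∀ x ∈ S,
      |wt M c x * Real.exp (μ * κ x)| ≤ M * Real.exp (|μ| * B) := by
    intro μ S hS x hx
    have hxK := hS hx
    rw [abs_mul, abs_of_pos (Real.exp_pos _), abs_of_pos (hWK x hxK)]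
    refine mul_le_mul (hWM x) (Real.exp_le_exp.2 ?_) (Real.exp_pos _).le hMpos.le
    calc μ * κ x ≤ |μ * κ x| := le_abs_self _
      _ = |μ| * |κ x| := abs_mul _ _
      _ ≤ |μ| * B := mul_le_mul_of_nonneg_left (hκB x hxK) (abs_nonneg _)
  have hint1 : IntegrableOn (fun x => wt M c x * Real.exp (lam * κ x)) C :=
    intOn_bdd hC hexp1 (hbd lam C hCK)
  have hint2 : IntegrableOn (fun x => wt M c x * Real.exp (-lam * κ x)) C' :=
    intOn_bdd hC' hexp2 (hbd (-lam) C' hC'K)
  have hint3 : IntegrableOn (fun x => θ * wt M c x) Cb :=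
    (hWc.continuousOn.integrableOn_compact hCb).const_mul _
  have hPL := prekopa_leindler
    (f := C.indicator (fun x => wt M c x * Real.exp (lam * κ x)))
    (g := C'.indicator (fun x => wt M c x * Real.exp (-lam * κ x)))
    (h := Cb.indicator (fun x => θ * wt M c x))
    (hexp1.indicator hC.measurableSet) (hexp2.indicator hC'.measurableSet)
    (hexp3.indicator hCb.measurableSet)
    (fun x => indicator_nonneg
      (fun x hx => mul_nonneg (hWK x (hCK hx)).le (Real.exp_pos _).le) x)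
    (fun x => indicator_nonneg
      (fun x hx => mul_nonneg (hWK x (hC'K hx)).le (Real.exp_pos _).le) x)
    (fun x => indicator_nonneg
      (fun x hx => mul_nonneg hθ.le (hWK x (hCbK hx)).le) x)
    ((integrable_indicator_iff hC.measurableSet).2 hint1)
    ((integrable_indicator_iff hC'.measurableSet).2 hint2)
    ((integrable_indicator_iff hCb.measurableSet).2 hint3)
    (by
      intro x y
      by_cases hx : x ∈ C
      · by_cases hy : y ∈ C'
        · have hm := hmid x hx y hy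
          rw [indicator_of_mem hx, indicator_of_mem hy, indicator_of_mem hm]
          have hxK := hCK hx
          have hyK := hC'K hy
          have hρ : ‖x - y‖ ≤ 2 * D := by
            calc ‖x - y‖ = ‖(x - c) - (y - c)‖ := by congr 1; abel
              _ ≤ ‖x - c‖ + ‖y - c‖ := norm_sub_le _ _
              _ ≤ 2 * D := by linarith [hKD x hxK, hKD y hyK]
          have hρ2 : ‖x - y‖ ^ 2 ≤ 8 * M := by
            have : ‖x - y‖ ^ 2 ≤ (2 * D) ^ 2 := pow_le_pow_left₀ (norm_nonneg _) hρ 2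
            nlinarith
          have hk : |κ x - κ y| ≤ L * ‖x - y‖ := by
            rw [abs_le]
            constructor
            · have := hκ y hyK x hxK
              rw [norm_sub_rev] at this
              linarith
            · exact hκ x hxK y hyK
          exact pointwise hMpos hL (hWK x hxK) (hWK y hyK) (hWM x) (hWM y) (norm_nonneg _) hρ2
            (wt_mid M c x y) hk
        · rw [indicator_of_notMem hy, mul_zero]
          positivity
      · rw [indicator_of_notMem hx, zero_mul]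
        positivity)
  rw [integral_indicator hC.measurableSet, integral_indicator hC'.measurableSet,
    integral_indicator hCb.measurableSet, integral_const_mul, ← hPdef] at hPL
  have hJ1 := jensen hC hWm hκm (fun x hx => (hWK x (hCK hx)).le) (fun x _ => hWM x)
    (fun x hx => hκB x (hCK hx)) hω lam
  have hJ2 := jensen hC' hWm hκm (fun x hx => (hWK x (hC'K hx)).le) (fun x _ => hWM x)
    (fun x hx => hκB x (hC'K hx)) hω' (-lam)
  rw [← hωdef, ← hedef] at hJ1
  rw [← hω'def, ← he'def] at hJ2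
  have hR2 : R ^ 2 = ω * ω' := Real.sq_sqrt (mul_pos hω hω').le
  have hR0 : 0 ≤ R := Real.sqrt_nonneg _
  have hfinal : R ^ 2 * Real.exp (lam * (e - e')) ≤ (θ * P) ^ 2 := by
    have h1 : (ω * Real.exp (lam * e)) * (ω' * Real.exp (-lam * e')) ≤
        (∫ x in C, wt M c x * Real.exp (lam * κ x)) *
          ∫ x in C', wt M c x * Real.exp (-lam * κ x) :=
      mul_le_mul hJ1 hJ2 (mul_nonneg hω'.le (Real.exp_pos _).le)
        (setIntegral_nonneg hC.measurableSet
          (fun x hx => mul_nonneg (hWK x (hCK hx)).le (Real.exp_pos _).le))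
    have h2 : R ^ 2 * Real.exp (lam * (e - e')) =
        (ω * Real.exp (lam * e)) * (ω' * Real.exp (-lam * e')) := by
      have : Real.exp (lam * (e - e')) = Real.exp (lam * e) * Real.exp (-lam * e') := by
        rw [← Real.exp_add]; congr 1; ring
      rw [hR2, this]; ring
    rw [h2]
    exact h1.trans hPL
  exact final_arith hR0 hP0 hMpos hL hlamdef hfinal

end Vale.Agent.P074T
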