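import Vale.Agent.Lib.P074.Defs

open MeasureTheory Set Filter Topology Metric
open scoped ENNReal

namespace Vale.Agent.P074T

open Vale.Agent.P074

set_option linter.unusedSectionVars false

variable {d : ℕ}

namespace PLaux

/-- Volume of the set `{x | 2 * x - c ∈ A}`. -/
lemma vol_half (A : Set ℝ) (c : ℝ) :
    2 * volume {x : ℝ | 2 * x - c ∈ A} = volume A := by
  have h1 : {x : ℝ | 2 * x - c ∈ A} = (fun x : ℝ => 2 * x) ⁻¹' ((fun y : ℝ => y + (-c)) ⁻¹' A) := by
    ext x; simp [sub_eq_add_neg]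
  rw [h1, Real.volume_preimage_mul_left (by norm_num : (2 : ℝ) ≠ 0), measure_preimage_add_right]
  rw [← mul_assoc]
  have : (2 : ℝ≥0∞) * ENNReal.ofReal |(2 : ℝ)⁻¹| = 1 := by
    rw [abs_of_pos (by norm_num : (0 : ℝ) < 2⁻¹)]
    rw [show (2 : ℝ≥0∞) = ENNReal.ofReal 2 by simp, ← ENNReal.ofReal_mul (by norm_num)]
    norm_num
  rw [this, one_mul]

/-- One-dimensional Brunn–Minkowski for compact sets. -/
lemma bm_compact {A B S : Set ℝ} (hA : IsCompact A) (hB : IsCompact B)
    (hAne : A.Nonempty) (hBne : B.Nonempty)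
    (h : ∀ a ∈ A, ∀ b ∈ B, (a + b) / 2 ∈ S) :
    volume A + volume B ≤ 2 * volume S := by
  set α := sSup A
  set β := sInf B
  have hα : α ∈ A := hA.sSup_mem hAne
  have hβ : β ∈ B := hB.sInf_mem hBne
  set X := {x : ℝ | 2 * x - β ∈ A}
  set Y := {x : ℝ | 2 * x - α ∈ B}
  have hXS : X ⊆ S := by
    intro x hx
    have := h _ hx β hβ
    convert this using 1; ring
  have hYS : Y ⊆ S := by
    intro x hx
    have := h α hα _ hx
    convert this using 1; ring
  have hYm : MeasurableSet Y := by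
    have : Y = (fun x : ℝ => 2 * x - α) ⁻¹' B := rfl
    rw [this]
    exact hB.measurableSet.preimage (by fun_prop)
  have hinter : X ∩ Y ⊆ {(α + β) / 2} := by
    rintro x ⟨hx, hy⟩
    have h1 : 2 * x - β ≤ α := le_csSup hA.bddAbove hx
    have h2 : β ≤ 2 * x - α := csInf_le hB.bddBelow hy
    simp only [mem_singleton_iff]
    linarith
  have h0 : volume (X ∩ Y) = 0 := by
    refine measure_mono_null hinter ?_
    exact measure_singleton _
  have hsum := measure_union_add_inter (μ := volume) X hYm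
  rw [h0, add_zero] at hsum
  have hle : volume X + volume Y ≤ volume S := by
    rw [← hsum]
    exact measure_mono (union_subset hXS hYS)
  calc volume A + volume B = 2 * volume X + 2 * volume Y := by
        rw [vol_half A β, vol_half B α]
    _ = 2 * (volume X + volume Y) := by ring
    _ ≤ 2 * volume S := by gcongr

/-- One-dimensional Brunn–Minkowski for measurable sets. -/
lemma bm1 {A B S : Set ℝ} (hA : MeasurableSet A) (hB : MeasurableSet B)
    (hAne : A.Nonempty) (hBne : B.Nonempty)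
    (h : ∀ a ∈ A, ∀ b ∈ B, (a + b) / 2 ∈ S) :
    volume A + volume B ≤ 2 * volume S := by
  obtain ⟨a0, ha0⟩ := hAne
  obtain ⟨b0, hb0⟩ := hBne
  have key : ∀ K L : Set ℝ, K ⊆ A → L ⊆ B → IsCompact K → IsCompact L →
      volume K + volume L ≤ 2 * volume S := by
    intro K L hK hL hKc hLc
    have h1 := bm_compact (A := insert a0 K) (B := insert b0 L) (S := S)
      (hKc.insert a0) (hLc.insert b0) ⟨a0, mem_insert _ _⟩ ⟨b0, mem_insert _ _⟩
      (fun a ha b hb => h a (insert_subset ha0 hK ha) b (insert_subset hb0 hL hb))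
    refine le_trans ?_ h1
    gcongr <;> exact subset_insert _ _
  by_contra hlt
  push Not at hlt
  by_cases hA0 : volume A = 0
  · rw [hA0, zero_add] at hlt
    obtain ⟨L, hL, hLc, hLlt⟩ := hB.exists_lt_isCompact hlt
    have := key {a0} L (singleton_subset_iff.2 ha0) hL isCompact_singleton hLc
    rw [measure_singleton, zero_add] at this
    exact absurd hLlt (not_lt.2 this)
  by_cases hB0 : volume B = 0
  · rw [hB0, add_zero] at hlt
    obtain ⟨K, hK, hKc, hKlt⟩ := hA.exists_lt_isCompact hlt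
    have := key K {b0} hK (singleton_subset_iff.2 hb0) hKc isCompact_singleton
    rw [measure_singleton, add_zero] at this
    exact absurd hKlt (not_lt.2 this)
  obtain ⟨r, hr, r', hr', hrr⟩ := ENNReal.exists_lt_add_of_lt_add hlt hA0 hB0
  obtain ⟨K, hK, hKc, hKlt⟩ := hA.exists_lt_isCompact hr
  obtain ⟨L, hL, hLc, hLlt⟩ := hB.exists_lt_isCompact hr'
  have := key K L hK hL hKc hLc
  exact absurd (lt_of_lt_of_le hrr (add_le_add hKlt.le hLlt.le)) (not_lt.2 this)

/-- Pointwise layer-cake upper bound. -/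
lemma layer_le (w : ℝ≥0∞) :
    volume {t : ℝ | t ∈ Ioo (0:ℝ) 1 ∧ ENNReal.ofReal t < w} ≤ w := by
  by_cases hw : w = ⊤
  · simp [hw]
  have hsub : {t : ℝ | t ∈ Ioo (0:ℝ) 1 ∧ ENNReal.ofReal t < w} ⊆ Ioo 0 w.toReal := by
    rintro t ⟨⟨h0, _⟩, h2⟩
    refine ⟨h0, ?_⟩
    exact (ENNReal.ofReal_lt_iff_lt_toReal h0.le hw).1 h2
  refine (measure_mono hsub).trans ?_
  rw [Real.volume_Ioo]
  simp [ENNReal.ofReal_toReal hw]

/-- Pointwise layer-cake exact value for values at most one. -/
lemma layer_eq {w : ℝ≥0∞} (hw : w ≤ 1) :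
    volume {t : ℝ | t ∈ Ioo (0:ℝ) 1 ∧ ENNReal.ofReal t < w} = w := by
  refine le_antisymm (layer_le w) ?_
  have hwt : w ≠ ⊤ := ne_top_of_le_ne_top ENNReal.one_ne_top hw
  have hle1 : w.toReal ≤ 1 := by
    have := ENNReal.toReal_mono ENNReal.one_ne_top hw
    simpa using this
  have hsub : Ioo 0 w.toReal ⊆ {t : ℝ | t ∈ Ioo (0:ℝ) 1 ∧ ENNReal.ofReal t < w} := by
    rintro t ⟨h0, h1⟩
    exact ⟨⟨h0, h1.trans_le hle1⟩, (ENNReal.ofReal_lt_iff_lt_toReal h0.le hwt).2 h1⟩
  refine le_trans ?_ (measure_mono hsub)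
  rw [Real.volume_Ioo]
  simp [ENNReal.ofReal_toReal hwt]

/-- The level set integral. -/
noncomputable def lev (v : ℝ → ℝ≥0∞) : ℝ≥0∞ :=
  ∫⁻ t in Ioo (0:ℝ) 1, volume {x : ℝ | ENNReal.ofReal t < v x}

lemma measurable_level (v : ℝ → ℝ≥0∞) (hv : Measurable v) :
    MeasurableSet {p : ℝ × ℝ | ENNReal.ofReal p.1 < v p.2} :=
  measurableSet_lt (ENNReal.measurable_ofReal.comp measurable_fst) (hv.comp measurable_snd)

lemma lev_eq_swap (v : ℝ → ℝ≥0∞) (hv : Measurable v) :
    lev v = ∫⁻ x, volume {t : ℝ | t ∈ Ioo (0:ℝ) 1 ∧ ENNReal.ofReal t < v x} := by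
  classical
  have hS := measurable_level v hv
  set W : Set (ℝ × ℝ) := Ioo (0:ℝ) 1 ×ˢ univ ∩ {p : ℝ × ℝ | ENNReal.ofReal p.1 < v p.2} with hW
  have hWm : MeasurableSet W := (measurableSet_Ioo.prod MeasurableSet.univ).inter hS
  have h1 : lev v = ∫⁻ t, ∫⁻ x, W.indicator (fun _ => (1:ℝ≥0∞)) (t, x) := by
    unfold lev
    rw [← lintegral_indicator measurableSet_Ioo]
    refine lintegral_congr fun t => ?_
    by_cases ht : t ∈ Ioo (0:ℝ) 1
    · rw [indicator_of_mem ht]
      have : (fun x => W.indicator (fun _ => (1:ℝ≥0∞)) (t, x)) =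
          {x : ℝ | ENNReal.ofReal t < v x}.indicator (fun _ => 1) := by
        ext x
        by_cases hx : ENNReal.ofReal t < v x
        · simp [indicator, ht, hx, hW]
        · simp [indicator, ht, hx, hW]
      simp_rw [this]
      rw [lintegral_indicator_const (measurableSet_lt measurable_const hv), one_mul]
    · rw [indicator_of_notMem ht]
      have : ∀ x, W.indicator (fun _ => (1:ℝ≥0∞)) (t, x) = 0 := by
        intro x
        simp [indicator, ht, hW]
      simp [this]
  have hm : Measurable (fun p : ℝ × ℝ => W.indicator (fun _ => (1:ℝ≥0∞)) p) :=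
    measurable_const.indicator hWm
  rw [h1, lintegral_lintegral_swap hm.aemeasurable]
  refine lintegral_congr fun x => ?_
  have : (fun t => W.indicator (fun _ => (1:ℝ≥0∞)) (t, x)) =
      {t : ℝ | (t, x) ∈ W}.indicator (fun _ => 1) := by
    ext t
    rfl
  simp_rw [this]
  have hmt : MeasurableSet {t : ℝ | (t, x) ∈ W} :=
    hWm.preimage (measurable_id.prodMk measurable_const)
  rw [lintegral_indicator_const hmt, one_mul]
  congr 1
  ext t
  simp [hW]

lemma lev_le (v : ℝ → ℝ≥0∞) (hv : Measurable v) : lev v ≤ ∫⁻ x, v x := by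
  rw [lev_eq_swap v hv]
  exact lintegral_mono fun x => layer_le (v x)

lemma lev_eq (v : ℝ → ℝ≥0∞) (hv : Measurable v) (h1 : ∀ x, v x ≤ 1) : lev v = ∫⁻ x, v x := by
  rw [lev_eq_swap v hv]
  exact lintegral_congr fun x => layer_eq (h1 x)

lemma amgm_enn {x y z : ℝ≥0∞} (h : x + y ≤ 2 * z) : x * y ≤ z ^ 2 := by
  by_cases hz : z = ⊤
  · by_cases hx : x = 0
    · simp [hx]
    by_cases hy : y = 0
    · simp [hy]
    simp [hz]
  have hrhs : 2 * z ≠ ⊤ := ENNReal.mul_ne_top (by simp) hz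
  have hx : x ≠ ⊤ := ne_top_of_le_ne_top hrhs (le_trans le_self_add h)
  have hy : y ≠ ⊤ := ne_top_of_le_ne_top hrhs (le_trans le_add_self h)
  lift x to NNReal using hx
  lift y to NNReal using hy
  lift z to NNReal using hz
  norm_cast at h ⊢
  have h' : (x : ℝ) + y ≤ 2 * z := by exact_mod_cast h
  have hx0 : (0:ℝ) ≤ x := x.2
  have hy0 : (0:ℝ) ≤ y := y.2
  have hz0 : (0:ℝ) ≤ z := z.2
  have : (x : ℝ) * y ≤ (z:ℝ) ^ 2 := by nlinarith [sq_nonneg ((x:ℝ) - y)]
  exact_mod_cast this

/-- One-dimensional Prékopa–Leindler, bounded nondegenerate case. -/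
lemma pl1_bdd {F G H : ℝ → ℝ≥0∞} (hF : Measurable F) (hG : Measurable G) (hH : Measurable H)
    (Hle : ∀ x y, F x * G y ≤ H ((x + y) / 2) ^ 2)
    {a b : ℝ≥0∞} (haS : a = ⨆ x, F x) (hbS : b = ⨆ x, G x)
    (ha0 : a ≠ 0) (hat : a ≠ ⊤) (hb0 : b ≠ 0) (hbt : b ≠ ⊤) :
    (∫⁻ x, F x) * (∫⁻ x, G x) ≤ (∫⁻ x, H x) ^ 2 := by
  set s : ℝ≥0∞ := ENNReal.ofReal (Real.sqrt (a.toReal * b.toReal)) with hs
  have hs2 : s ^ 2 = a * b := by
    rw [hs, ← ENNReal.ofReal_pow (Real.sqrt_nonneg _), Real.sq_sqrt (by positivity),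
      ENNReal.ofReal_mul (by positivity), ENNReal.ofReal_toReal hat, ENNReal.ofReal_toReal hbt]
  have hs0 : s ≠ 0 := by
    intro h0
    rw [h0] at hs2
    have : a * b ≠ 0 := mul_ne_zero ha0 hb0
    exact this (by rw [← hs2]; simp)
  have hst : s ≠ ⊤ := ENNReal.ofReal_ne_top
  have hFle : ∀ x, F x ≤ a := fun x => haS ▸ le_iSup F x
  have hGle : ∀ x, G x ≤ b := fun x => hbS ▸ le_iSup G x
  set u : ℝ → ℝ≥0∞ := fun x => F x / a with hu
  set v : ℝ → ℝ≥0∞ := fun x => G x / b with hv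
  set w : ℝ → ℝ≥0∞ := fun x => H x / s with hw
  have hum : Measurable u := hF.div_const a
  have hvm : Measurable v := hG.div_const b
  have hwm : Measurable w := hH.div_const s
  have hu1 : ∀ x, u x ≤ 1 := fun x => ENNReal.div_le_of_le_mul (by simpa using hFle x)
  have hv1 : ∀ x, v x ≤ 1 := fun x => ENNReal.div_le_of_le_mul (by simpa using hGle x)
  have hFu : (∫⁻ x, F x) = a * lev u := by
    rw [lev_eq u hum hu1, ← lintegral_const_mul _ hum]
    refine lintegral_congr fun x => ?_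
    exact (ENNReal.mul_div_cancel ha0 hat).symm
  have hGv : (∫⁻ x, G x) = b * lev v := by
    rw [lev_eq v hvm hv1, ← lintegral_const_mul _ hvm]
    refine lintegral_congr fun x => ?_
    exact (ENNReal.mul_div_cancel hb0 hbt).symm
  have hHw : s * lev w ≤ ∫⁻ x, H x := by
    calc s * lev w ≤ s * ∫⁻ x, w x := by gcongr; exact lev_le w hwm
      _ = ∫⁻ x, s * w x := (lintegral_const_mul _ hwm).symm
      _ = ∫⁻ x, H x := lintegral_congr fun x => ENNReal.mul_div_cancel hs0 hst
  have hkey : lev u + lev v ≤ 2 * lev w := by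
    unfold lev
    rw [← lintegral_add_left, ← lintegral_const_mul]
    · refine setLIntegral_mono' measurableSet_Ioo fun t ht => ?_
      have ht0 : 0 < t := ht.1
      have ht1 : t < 1 := ht.2
      have htlt : ENNReal.ofReal t < 1 := by
        rw [← ENNReal.ofReal_one]
        exact (ENNReal.ofReal_lt_ofReal_iff (by norm_num)).2 ht1
      have htop : ENNReal.ofReal t ≠ ⊤ := ENNReal.ofReal_ne_top
      have hA : ({x | ENNReal.ofReal t < u x}).Nonempty := by
        have : ENNReal.ofReal t * a < ⨆ x, F x := by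
          rw [← haS]
          calc ENNReal.ofReal t * a < 1 * a :=
                (ENNReal.mul_lt_mul_iff_left ha0 hat).2 htlt
            _ = a := one_mul a
        obtain ⟨x, hx⟩ := lt_iSup_iff.1 this
        exact ⟨x, (ENNReal.lt_div_iff_mul_lt (Or.inl ha0) (Or.inl hat)).2 hx⟩
      have hB : ({x | ENNReal.ofReal t < v x}).Nonempty := by
        have : ENNReal.ofReal t * b < ⨆ x, G x := by
          rw [← hbS]
          calc ENNReal.ofReal t * b < 1 * b :=
                (ENNReal.mul_lt_mul_iff_left hb0 hbt).2 htlt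
            _ = b := one_mul b
        obtain ⟨x, hx⟩ := lt_iSup_iff.1 this
        exact ⟨x, (ENNReal.lt_div_iff_mul_lt (Or.inl hb0) (Or.inl hbt)).2 hx⟩
      refine bm1 (measurableSet_lt measurable_const hum)
        (measurableSet_lt measurable_const hvm) hA hB ?_
      intro x hx y hy
      have hx' : ENNReal.ofReal t * a < F x :=
        (ENNReal.lt_div_iff_mul_lt (Or.inl ha0) (Or.inl hat)).1 hx
      have hy' : ENNReal.ofReal t * b < G y :=
        (ENNReal.lt_div_iff_mul_lt (Or.inl hb0) (Or.inl hbt)).1 hy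
      have hprod : (ENNReal.ofReal t * s) ^ 2 < F x * G y := by
        calc (ENNReal.ofReal t * s) ^ 2 = (ENNReal.ofReal t * a) * (ENNReal.ofReal t * b) := by
              rw [mul_pow, hs2]; ring
          _ < F x * G y := ENNReal.mul_lt_mul hx' hy'
      have hlt2 : (ENNReal.ofReal t * s) ^ 2 < H ((x + y) / 2) ^ 2 :=
        lt_of_lt_of_le hprod (Hle x y)
      have hlt : ENNReal.ofReal t * s < H ((x + y) / 2) := by
        by_contra hcon
        push Not at hcon
        exact absurd hlt2 (not_lt.2 (pow_le_pow_left' hcon 2))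
      exact (ENNReal.lt_div_iff_mul_lt (Or.inl hs0) (Or.inl hst)).2 hlt
    · -- measurability of the level function of `w`
      exact (measurable_measure_prodMk_left (measurable_level w hwm))
    · exact (measurable_measure_prodMk_left (measurable_level u hum))
  have hxy := amgm_enn hkey
  calc (∫⁻ x, F x) * (∫⁻ x, G x) = (a * lev u) * (b * lev v) := by rw [hFu, hGv]
    _ = (a * b) * (lev u * lev v) := by ring
    _ ≤ (s ^ 2) * (lev w) ^ 2 := by rw [hs2]; gcongr
    _ = (s * lev w) ^ 2 := by ring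
    _ ≤ (∫⁻ x, H x) ^ 2 := by gcongr

/-- One-dimensional Prékopa–Leindler. -/
lemma pl1 {F G H : ℝ → ℝ≥0∞} (hF : Measurable F) (hG : Measurable G) (hH : Measurable H)
    (Hle : ∀ x y, F x * G y ≤ H ((x + y) / 2) ^ 2) :
    (∫⁻ x, F x) * (∫⁻ x, G x) ≤ (∫⁻ x, H x) ^ 2 := by
  set Fn : ℕ → ℝ → ℝ≥0∞ := fun n x => min (F x) n with hFn
  set Gn : ℕ → ℝ → ℝ≥0∞ := fun n x => min (G x) n with hGn
  have hFm : ∀ n, Measurable (Fn n) := fun n => hF.min measurable_const
  have hGm : ∀ n, Measurable (Gn n) := fun n => hG.min measurable_const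
  have hFmono : Monotone Fn := fun i j hij x =>
    min_le_min_left _ (by exact_mod_cast hij)
  have hGmono : Monotone Gn := fun i j hij x =>
    min_le_min_left _ (by exact_mod_cast hij)
  have hsupF : ∀ x, (⨆ n, Fn n x) = F x := by
    intro x
    refine le_antisymm (iSup_le fun n => min_le_left _ _) (le_of_forall_lt fun c hc => ?_)
    obtain ⟨n, hn⟩ := ENNReal.exists_nat_gt (ne_top_of_lt hc)
    exact lt_of_lt_of_le (lt_min hc hn) (le_iSup (fun n => Fn n x) n)
  have hsupG : ∀ x, (⨆ n, Gn n x) = G x := by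
    intro x
    refine le_antisymm (iSup_le fun n => min_le_left _ _) (le_of_forall_lt fun c hc => ?_)
    obtain ⟨n, hn⟩ := ENNReal.exists_nat_gt (ne_top_of_lt hc)
    exact lt_of_lt_of_le (lt_min hc hn) (le_iSup (fun n => Gn n x) n)
  have hF1 : (∫⁻ x, F x) = ⨆ n, ∫⁻ x, Fn n x := by
    rw [← lintegral_iSup hFm hFmono]
    exact lintegral_congr fun x => by simp [hsupF]
  have hG1 : (∫⁻ x, G x) = ⨆ n, ∫⁻ x, Gn n x := by
    rw [← lintegral_iSup hGm hGmono]
    exact lintegral_congr fun x => by simp [hsupG]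
  rw [hF1, hG1]
  rw [ENNReal.iSup_mul]
  refine iSup_le fun i => ?_
  rw [ENNReal.mul_iSup]
  refine iSup_le fun j => ?_
  have Hle' : ∀ x y, Fn i x * Gn j y ≤ H ((x + y) / 2) ^ 2 := fun x y =>
    le_trans (mul_le_mul' (min_le_left _ _) (min_le_left _ _)) (Hle x y)
  by_cases ha0 : (⨆ x, Fn i x) = 0
  · have : ∀ x, Fn i x = 0 := fun x => by
      have := le_iSup (Fn i) x
      rw [ha0] at this
      exact le_antisymm this bot_le
    simp [this]
  by_cases hb0 : (⨆ x, Gn j x) = 0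
  · have : ∀ x, Gn j x = 0 := fun x => by
      have := le_iSup (Gn j) x
      rw [hb0] at this
      exact le_antisymm this bot_le
    simp [this]
  have hat : (⨆ x, Fn i x) ≠ ⊤ := by
    refine ne_top_of_le_ne_top (ENNReal.natCast_ne_top i) (iSup_le fun x => min_le_right _ _)
  have hbt : (⨆ x, Gn j x) ≠ ⊤ := by
    refine ne_top_of_le_ne_top (ENNReal.natCast_ne_top j) (iSup_le fun x => min_le_right _ _)
  exact pl1_bdd (hFm i) (hGm j) hH Hle' rfl rfl ha0 hat hb0 hbt

/-- Prékopa–Leindler on `Fin n → ℝ`. -/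
theorem pl_pi (n : ℕ) : ∀ {f g h : (Fin n → ℝ) → ℝ≥0∞}, Measurable f → Measurable g → Measurable h →
    (∀ x y, f x * g y ≤ h ((1 / 2 : ℝ) • (x + y)) ^ 2) →
    (∫⁻ x, f x) * (∫⁻ x, g x) ≤ (∫⁻ x, h x) ^ 2 := by
  induction n with
  | zero =>
    intro f g h hf hg hh H
    have hone : (volume : Measure (Fin 0 → ℝ)) univ = 1 := by
      simp [volume_pi]
    simp only [lintegral_unique, hone, mul_one]
    have := H default default
    convert this using 3
  | succ n ih =>
    intro f g h hf hg hh H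
    have hmp := (volume_preserving_piFinSuccAbove (fun _ : Fin (n + 1) => ℝ) 0).symm
    set e := (MeasurableEquiv.piFinSuccAbove (fun _ : Fin (n + 1) => ℝ) 0).symm with he
    have hint : ∀ {u : (Fin (n + 1) → ℝ) → ℝ≥0∞}, Measurable u →
        (∫⁻ x, u x) = ∫⁻ t : ℝ, ∫⁻ x : Fin n → ℝ, u (e (t, x)) := by
      intro u hu
      rw [← hmp.lintegral_comp hu, Measure.volume_eq_prod,
        lintegral_prod (fun z => u (e z)) (hu.comp e.measurable).aemeasurable]
    have hmeas : ∀ {u : (Fin (n + 1) → ℝ) → ℝ≥0∞}, Measurable u →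
        Measurable (fun t : ℝ => ∫⁻ x : Fin n → ℝ, u (e (t, x))) := by
      intro u hu
      exact (hu.comp e.measurable).lintegral_prod_right'
    have hsec : ∀ {u : (Fin (n + 1) → ℝ) → ℝ≥0∞}, Measurable u → ∀ t : ℝ,
        Measurable (fun x : Fin n → ℝ => u (e (t, x))) := by
      intro u hu t
      exact hu.comp (e.measurable.comp (measurable_const.prodMk measurable_id))
    rw [hint hf, hint hg, hint hh]
    refine pl1 (hmeas hf) (hmeas hg) (hmeas hh) ?_
    intro t t'
    refine ih (hsec hf t) (hsec hg t') (hsec hh ((t + t') / 2)) ?_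
    intro x y
    have hmid : e ((t + t') / 2, (1 / 2 : ℝ) • (x + y)) = (1 / 2 : ℝ) • (e (t, x) + e (t', y)) := by
      ext i
      refine Fin.cases ?_ (fun j => ?_) i
      · simp [he, MeasurableEquiv.piFinSuccAbove]
        ring
      · simp [he, MeasurableEquiv.piFinSuccAbove]
        ring
    rw [hmid]
    exact H _ _

end PLaux

/-- Prékopa–Leindler, lintegral form. -/
theorem prekopa_leindler_lintegral {f g h : E d → ℝ≥0∞} (hf : Measurable f) (hg : Measurable g)
    (hh : Measurable h) (H : ∀ x y, f x * g y ≤ h ((1 / 2 : ℝ) • (x + y)) ^ 2) :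
    (∫⁻ x, f x) * (∫⁻ x, g x) ≤ (∫⁻ x, h x) ^ 2 := by
  have hmp := PiLp.volume_preserving_toLp (Fin d)
  have hint : ∀ {u : E d → ℝ≥0∞}, Measurable u →
      (∫⁻ x, u x) = ∫⁻ x : Fin d → ℝ, u (WithLp.toLp 2 x) := by
    intro u hu
    exact (hmp.lintegral_comp hu).symm
  rw [hint hf, hint hg, hint hh]
  refine PLaux.pl_pi d (hf.comp hmp.measurable) (hg.comp hmp.measurable) (hh.comp hmp.measurable) ?_
  intro x y
  have : WithLp.toLp 2 ((1 / 2 : ℝ) • (x + y)) =
      (1 / 2 : ℝ) • (WithLp.toLp 2 x + WithLp.toLp 2 y : E d) := by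
    simp
  simp only []
  rw [this]
  exact H _ _

/-- Prékopa–Leindler, Bochner form. -/
theorem prekopa_leindler {f g h : E d → ℝ} (hf : Measurable f) (hg : Measurable g)
    (hh : Measurable h) (hf0 : ∀ x, 0 ≤ f x) (hg0 : ∀ x, 0 ≤ g x) (hh0 : ∀ x, 0 ≤ h x)
    (hfi : Integrable f) (hgi : Integrable g) (hhi : Integrable h)
    (H : ∀ x y, f x * g y ≤ h ((1 / 2 : ℝ) • (x + y)) ^ 2) :
    (∫ x, f x) * (∫ x, g x) ≤ (∫ x, h x) ^ 2 := by
  have key := prekopa_leindler_lintegral (f := fun x => ENNReal.ofReal (f x))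
    (g := fun x => ENNReal.ofReal (g x)) (h := fun x => ENNReal.ofReal (h x))
    hf.ennreal_ofReal hg.ennreal_ofReal hh.ennreal_ofReal (by
      intro x y
      rw [← ENNReal.ofReal_mul (hf0 x), ← ENNReal.ofReal_pow (hh0 _)]
      exact ENNReal.ofReal_le_ofReal (H x y))
  rw [← ofReal_integral_eq_lintegral_ofReal hfi (Eventually.of_forall hf0),
    ← ofReal_integral_eq_lintegral_ofReal hgi (Eventually.of_forall hg0),
    ← ofReal_integral_eq_lintegral_ofReal hhi (Eventually.of_forall hh0),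
    ← ENNReal.ofReal_mul (integral_nonneg hf0), ← ENNReal.ofReal_pow (integral_nonneg hh0)] at key
  exact (ENNReal.ofReal_le_ofReal_iff (sq_nonneg _)).1 key

end Vale.Agent.P074T
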