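import Vale.Agent.Lib.P074T.KeyF

open MeasureTheory Set Filter Topology Metric
open scoped ENNReal

namespace Vale.Agent.P074T

open Vale.Agent.P074

set_option linter.unusedSectionVars false

variable {d : ℕ}

lemma shrink_zero (K : Set (E d)) (c : E d) : shrink K c 0 = K := by
  ext x
  simp [shrink]

/-- Translation of almost everywhere statements. -/
lemma ae_translate {K A : Set (E d)} (hKm : MeasurableSet K) (hAm : MeasurableSet A) {w : E d}
    (hAK : ∀ x ∈ A, x + w ∈ K) {P : E d → Prop} (h : ∀ᵐ x ∂(volume.restrict K), P x) :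
    ∀ᵐ x ∂(volume.restrict A), P (x + w) := by
  have h1 : ∀ᵐ x ∂volume, x ∈ K → P x := (ae_restrict_iff' hKm).mp h
  have h2 : ∀ᵐ x ∂volume, x + w ∈ K → P (x + w) :=
    (measurePreserving_add_right volume w).quasiMeasurePreserving.ae h1
  rw [ae_restrict_iff' hAm]
  filter_upwards [h2] with x hx hxA using hx (hAK x hxA)

/-- The integral over a translate differs little from the integral over `A`. -/
lemma tele_shift {K A : Set (E d)} (hKc : IsCompact K) (hAm : MeasurableSet A) (hAK0 : A ⊆ K)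
    {w : E d} (hAK : ∀ x ∈ A, x + w ∈ K) {g : E d → ℝ} (hgm : Measurable g) {R : ℝ}
    (hgR : ∀ᵐ x ∂(volume.restrict K), |g x| ≤ R) :
    (∫ x in A, g (x + w)) - ∫ x in A, g x ≤ 2 * R * (volume.real K - volume.real A) := by
  have hKf : volume K ≠ ⊤ := hKc.measure_lt_top.ne
  have hKm := hKc.measurableSet
  set f : E d → E d := fun y => y - w with hf
  have hfm : MeasurePreserving f volume volume := measurePreserving_sub_right volume w
  have hfe : MeasurableEmbedding f := (MeasurableEquiv.subRight w).measurableEmbedding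
  set A' : Set (E d) := f ⁻¹' A with hA'
  have hA'm : MeasurableSet A' := hfm.measurable hAm
  have hA'vol : volume A' = volume A := hfm.measure_preimage hAm.nullMeasurableSet
  have hA'K : A' ⊆ K := by
    intro y hy
    have := hAK _ hy
    simpa [hf] using this
  have hcv : ∫ x in A, g (x + w) = ∫ y in A', g y := by
    have := hfm.setIntegral_preimage_emb hfe (fun x => g (x + w)) A
    rw [← this]
    apply setIntegral_congr_fun hA'm
    intro y _
    simp [hf]
  have hgi : IntegrableOn g K :=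
    bd_intOn hKc hgm (C := R) (by filter_upwards [hgR] with x hx using hx)
  have d1 := setIntegral_sdiff hAm hgi hAK0
  have d2 := setIntegral_sdiff hA'm hgi hA'K
  have b : ∀ B : Set (E d), B ⊆ K → |∫ x in K \ B, g x| ≤ R * volume.real (K \ B) := by
    intro B _
    have := norm_setIntegral_le_of_norm_le_const_ae (μ := volume) (s := K \ B)
      (f := g) (C := R) ((measure_mono sdiff_subset).trans_lt hKc.measure_lt_top)
      (ae_restrict_of_ae_restrict_of_subset sdiff_subset hgR)
    rwa [Real.norm_eq_abs] at this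
  have v1 : volume.real (K \ A) = volume.real K - volume.real A := measureReal_sdiff hAK0 hAm hKf
  have v2 : volume.real (K \ A') = volume.real K - volume.real A := by
    rw [measureReal_sdiff hA'K hA'm hKf]
    simp only [Measure.real, hA'vol]
  have b1 := abs_le.mp (b A hAK0)
  have b2 := abs_le.mp (b A' hA'K)
  rw [v1] at b1
  rw [v2] at b2
  rw [hcv]
  linarith [b1.1, b1.2, b2.1, b2.2]

/-- The estimate for one direction. -/
lemma dir_estimate {K Y : Set (E d)} (hKc : IsCompact K) (hKconv : Convex ℝ K) (hK0 : volume K ≠ 0)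
    (hY : IsCompact Y) {c : E d} {a D R : ℝ} (ha : 0 < a) (hball : closedBall c a ⊆ K)
    (hD : 0 < D) (hKD : ∀ x ∈ K, ‖x - c‖ ≤ D) (hR : 0 < R)
    {μ ν : Measure (E d)} [IsProbabilityMeasure μ] [IsProbabilityMeasure ν]
    (hμY : μ Yᶜ = 0) (hνY : ν Yᶜ = 0) {T S : E d → E d} (hT : IsOptimalMap K μ T)
    (hS : IsOptimalMap K ν S) (hYR : ∀ y ∈ Y, ‖y‖ ≤ R)
    (hTR : ∀ᵐ x ∂(volume.restrict K), ‖T x‖ ≤ R) (hSR : ∀ᵐ x ∂(volume.restrict K), ‖S x‖ ≤ R)
    {φ : E d → ℝ} (hφ : ∀ᵐ x ∂(volume.restrict K), ∀ y, φ x + inner ℝ (y - x) (T x) ≤ φ y)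
    {e : E d} (he : ‖e‖ = 1) {δ : ℝ} (hδ : 0 < δ) (hδa : δ ≤ a) :
    δ * ∫ x in K, (max (inner ℝ e (S x - T x)) 0) ^ 2 ≤
      68 * D * Real.sqrt (volume.real K) * Real.sqrt (∫ x in K, ‖T x - S x‖ ^ 2) * W2 μ ν +
        δ ^ 2 * (8 * R ^ 2 * volume.real K * d / a) := by
  have hKm := hKc.measurableSet
  have hKf : volume K ≠ ⊤ := hKc.measure_lt_top.ne
  have : IsFiniteMeasure (volume.restrict K) := isFiniteMeasure_restrict.mpr hKf
  have hTm := hT.1
  have hSm := hS.1
  set V := volume.real K with hV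
  have hV0 : 0 ≤ V := measureReal_nonneg
  have hcK : c ∈ K := hball (mem_closedBall_self ha.le)
  have hε0 : 0 ≤ δ / a := by positivity
  have hε1 : δ / a ≤ 1 := (div_le_one ha).mpr hδa
  set A := shrink K c (δ / a) with hA
  have hAK0 : A ⊆ K := shrink_subset hKconv hcK hε0 hε1
  have hAm : MeasurableSet A := (shrink_compact hKc c _).measurableSet
  have hAK : ∀ x ∈ A, x + δ • e ∈ K := by
    intro x hx
    have h1 := shrink_add hKconv hball (ε1 := 0) (ε2 := δ / a) (by positivity) hε1 hx
      (w := δ • e) (by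
        rw [norm_smul, he, Real.norm_eq_abs, abs_of_pos hδ, sub_zero]
        field_simp
        exact le_refl _)
    rwa [shrink_zero] at h1
  have hvol : V - volume.real A ≤ V * (d * (δ / a)) := by
    have h1 := shrink_volume_diff hKf c le_rfl hε0 hε1
    rwa [shrink_zero, sub_zero] at h1
  have hvol0 : 0 ≤ V - volume.real A := by
    have : volume.real A ≤ volume.real K := measureReal_mono hAK0 hKf
    linarith
  set f : E d → ℝ := fun x => inner ℝ e (S x - T x) with hf
  have hfm : Measurable f := measurable_const.inner (hSm.sub hTm)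
  have hfle : ∀ x, |f x| ≤ ‖S x - T x‖ := by
    intro x
    have := abs_real_inner_le_norm e (S x - T x)
    rwa [he, one_mul] at this
  have hST : ∀ᵐ x ∂(volume.restrict K), ‖S x - T x‖ ≤ 2 * R := by
    filter_upwards [hTR, hSR] with x h1 h2
    exact (norm_sub_le _ _).trans (by linarith)
  have hfb : ∀ᵐ x ∂(volume.restrict K), |f x| ≤ 2 * R := by
    filter_upwards [hST] with x hx
    exact (hfle x).trans hx
  set p : E d → ℝ := fun x => max (f x) 0 with hp
  have hpm : Measurable p := hfm.max measurable_const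
  have hp0 : ∀ x, 0 ≤ p x := fun x => le_max_right _ _
  have hple : ∀ x, p x ≤ |f x| := fun x => max_le (le_abs_self _) (abs_nonneg _)
  have hpf : ∀ x, p x ^ 2 = p x * f x := by
    intro x
    rcases le_total 0 (f x) with h | h
    · simp only [hp, max_eq_left h]
      ring
    · simp only [hp, max_eq_right h]
      ring
  set ζ : E d → ℝ := A.indicator (fun x => min (p x) (2 * R)) with hζ
  have hζm : Measurable ζ := (hpm.min measurable_const).indicator hAm
  have hζ0 : ∀ x, 0 ≤ ζ x := by
    intro x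
    exact indicator_nonneg (fun y _ => le_min (hp0 y) (by positivity)) x
  have hζ1 : ∀ x, ζ x ≤ 2 * R := by
    intro x
    by_cases hx : x ∈ A
    · simp only [hζ, indicator_of_mem hx]
      exact min_le_right _ _
    · simp only [hζ, indicator_of_notMem hx]
      positivity
  have hζK : ∀ x, ζ x ≠ 0 → x ∈ K ∧ x + δ • e ∈ K := by
    intro x hx
    have hxA : x ∈ A := by
      by_contra h
      exact hx (indicator_of_notMem h _)
    exact ⟨hAK0 hxA, hAK x hxA⟩
  have hζp : ∀ᵐ x ∂(volume.restrict K), ∀ hxA : x ∈ A, ζ x = p x := by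
    filter_upwards [hfb] with x hx hxA
    simp only [hζ, indicator_of_mem hxA]
    exact min_eq_left ((hple x).trans hx)
  have hζout : ∀ x, x ∉ A → ζ x = 0 := fun x hx => indicator_of_notMem hx _
  have key := key_F hKc hKconv hK0 hY hD hKD hμY hνY hT hS hYR he hδ hζm hζ0 hζ1 hζK
  set T' : E d → E d := fun x => T (x + δ • e) with hT'
  have hT'm : Measurable T' := hTm.comp (measurable_id.add_const _)
  have hT'R : ∀ᵐ x ∂(volume.restrict K), x ∈ A → ‖T' x‖ ≤ R :=
    ae_restrict_of_ae ((ae_restrict_iff' hAm).mp (ae_translate hKm hAm hAK hTR))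
  have hmono : ∀ᵐ x ∂(volume.restrict A), 0 ≤ (inner ℝ e (T' x) : ℝ) - inner ℝ e (T x) := by
    have h1 := ae_translate (w := δ • e) hKm hAm hAK hφ
    have h2 : ∀ᵐ x ∂(volume.restrict A), ∀ y, φ x + inner ℝ (y - x) (T x) ≤ φ y :=
      ae_restrict_of_ae_restrict_of_subset hAK0 hφ
    filter_upwards [h1, h2] with x hx1 hx2
    have a1 := hx1 x
    have a2 := hx2 (x + δ • e)
    have e1 : x - (x + δ • e) = -(δ • e) := by abel
    have e2 : x + δ • e - x = δ • e := by abel
    rw [e1, inner_neg_left, inner_smul_left] at a1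
    rw [e2, inner_smul_left] at a2
    simp only [conj_trivial] at a1 a2
    have a3 : 0 ≤ δ * ((inner ℝ e (T' x) : ℝ) - inner ℝ e (T x)) := by
      simp only [hT']
      nlinarith
    exact nonneg_of_mul_nonneg_right a3 hδ
  have hmono' : ∀ᵐ x ∂(volume.restrict K), x ∈ A →
      0 ≤ (inner ℝ e (T' x) : ℝ) - inner ℝ e (T x) :=
    ae_restrict_of_ae ((ae_restrict_iff' hAm).mp hmono)
  set h : E d → ℝ := fun x => inner ℝ e (T' x) - inner ℝ e (T x) with hh
  have hhm : Measurable h := (measurable_const.inner hT'm).sub (measurable_const.inner hTm)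
  have habs : ∀ u : E d, |(inner ℝ e u : ℝ)| ≤ ‖u‖ := by
    intro u
    have := abs_real_inner_le_norm e u
    rwa [he, one_mul] at this
  have htele : ∫ x in A, h x ≤ 2 * R * (V - volume.real A) := by
    have hgm : Measurable (fun x => (inner ℝ e (T x) : ℝ)) := measurable_const.inner hTm
    have hgR : ∀ᵐ x ∂(volume.restrict K), |(inner ℝ e (T x) : ℝ)| ≤ R := by
      filter_upwards [hTR] with x hx
      exact (habs _).trans hx
    have ht := tele_shift hKc hAm hAK0 hAK hgm hgR
    have hgRA := ae_restrict_of_ae_restrict_of_subset hAK0 hgR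
    have hA_f : volume A ≠ ⊤ := ne_top_of_le_ne_top hKf (measure_mono hAK0)
    have i1 : IntegrableOn (fun x => (inner ℝ e (T' x) : ℝ)) A := by
      apply Measure.integrableOn_of_bounded hA_f (measurable_const.inner hT'm).aestronglyMeasurable
        (M := R)
      filter_upwards [ae_translate hKm hAm hAK hTR] with x hx
      exact (habs _).trans hx
    have i2 : IntegrableOn (fun x => (inner ℝ e (T x) : ℝ)) A := by
      apply Measure.integrableOn_of_bounded hA_f hgm.aestronglyMeasurable (M := R)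
      filter_upwards [hgRA] with x hx
      exact hx
    simp only [hh]
    rw [integral_sub i1 i2]
    exact ht
  -- integrability
  have iζ2 : IntegrableOn (fun x => ζ x ^ 2) K := by
    refine bd_intOn hKc (hζm.pow_const 2) (C := (2 * R) ^ 2) (Eventually.of_forall ?_)
    intro x
    rw [Real.norm_eq_abs, abs_of_nonneg (sq_nonneg _)]
    exact pow_le_pow_left₀ (hζ0 x) (hζ1 x) 2
  have ip2 : IntegrableOn (fun x => p x ^ 2) K := by
    refine bd_intOn hKc (hpm.pow_const 2) (C := (2 * R) ^ 2) ?_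
    filter_upwards [hfb] with x hx
    rw [Real.norm_eq_abs, abs_of_nonneg (sq_nonneg _)]
    exact pow_le_pow_left₀ (hp0 x) ((hple x).trans hx) 2
  have iJ : IntegrableOn (fun x => ζ x * inner ℝ e (S x - T' x)) K := by
    refine bd_intOn hKc (hζm.mul (measurable_const.inner (hSm.sub hT'm))) (C := 2 * R * (2 * R)) ?_
    filter_upwards [hSR, hT'R] with x h1 h2
    by_cases hxA : x ∈ A
    · rw [norm_mul, Real.norm_eq_abs, abs_of_nonneg (hζ0 x), Real.norm_eq_abs]
      apply mul_le_mul (hζ1 x) _ (abs_nonneg _) (by positivity)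
      exact (habs _).trans ((norm_sub_le _ _).trans (by linarith [h2 hxA]))
    · rw [hζout x hxA]
      simp only [zero_mul, norm_zero]
      positivity
  have iAh : IntegrableOn (A.indicator h) K := by
    refine bd_intOn hKc (hhm.indicator hAm) (C := 2 * R) ?_
    filter_upwards [hT'R, hTR] with x h1 h2
    by_cases hxA : x ∈ A
    · rw [indicator_of_mem hxA, Real.norm_eq_abs]
      have b1 := (habs (T' x)).trans (h1 hxA)
      have b2 := (habs (T x)).trans h2
      rw [abs_le] at b1 b2 ⊢
      constructor <;> simp only [hh] <;> linarith [b1.1, b1.2, b2.1, b2.2]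
    · rw [indicator_of_notMem hxA]
      simp only [norm_zero]
      positivity
  have iI : IntegrableOn (fun x => ‖T x - S x‖ ^ 2) K := by
    refine bd_intOn hKc ((hTm.sub hSm).norm.pow_const 2) (C := (2 * R) ^ 2) ?_
    filter_upwards [hST] with x hx
    rw [Real.norm_eq_abs, abs_of_nonneg (sq_nonneg _), norm_sub_rev]
    exact pow_le_pow_left₀ (norm_nonneg _) hx 2
  -- the main inequality
  set Z := ∫ x in K, ζ x ^ 2 with hZ
  set J := ∫ x in K, ζ x * inner ℝ e (S x - T' x) with hJ
  set P := ∫ x in K, p x ^ 2 with hP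
  set I := ∫ x in K, ‖T x - S x‖ ^ 2 with hI
  have hZJ : Z ≤ J + 2 * R * (2 * R * (V - volume.real A)) := by
    have h1 : Z ≤ ∫ x in K, (ζ x * inner ℝ e (S x - T' x) + 2 * R * A.indicator h x) := by
      apply integral_mono_ae iζ2 (iJ.add (iAh.const_mul _))
      filter_upwards [hζp, hmono'] with x hx1 hx2
      by_cases hxA : x ∈ A
      · have e1 := hx1 hxA
        have e2 := hx2 hxA
        have e3 : f x = inner ℝ e (S x - T' x) + h x := by
          simp only [hf, hh, inner_sub_right]
          ring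
        have e4 : ζ x ≤ 2 * R := hζ1 x
        show ζ x ^ 2 ≤ ζ x * inner ℝ e (S x - T' x) + 2 * R * A.indicator h x
        rw [indicator_of_mem hxA]
        rw [e1] at e4 ⊢
        rw [hpf x, e3, mul_add]
        have : p x * h x ≤ 2 * R * h x := mul_le_mul_of_nonneg_right e4 e2
        linarith
      · show ζ x ^ 2 ≤ ζ x * inner ℝ e (S x - T' x) + 2 * R * A.indicator h x
        rw [hζout x hxA, indicator_of_notMem hxA]
        simp
    have hh2 : IntegrableOn (fun x => 2 * R * A.indicator h x) K := iAh.const_mul _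
    rw [integral_add iJ hh2, integral_const_mul, setIntegral_indicator hAm,
      inter_eq_right.mpr hAK0] at h1
    have : 2 * R * ∫ x in A, h x ≤ 2 * R * (2 * R * (V - volume.real A)) :=
      mul_le_mul_of_nonneg_left htele (by positivity)
    linarith
  have hPZ : P ≤ Z + (2 * R) ^ 2 * (V - volume.real A) := by
    set q : E d → ℝ := fun x => 1 - A.indicator (fun _ => (1 : ℝ)) x with hq
    have iind : IntegrableOn (A.indicator (fun _ => (1 : ℝ))) K := by
      refine bd_intOn hKc (measurable_const.indicator hAm) (C := 1) (Eventually.of_forall ?_)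
      intro x
      by_cases hxA : x ∈ A <;> simp [hxA]
    have iq : IntegrableOn q K := (integrable_const _).sub iind
    have e1 : ∫ x in K, q x = V - volume.real A := by
      simp only [hq]
      rw [integral_sub (integrable_const _) iind, setIntegral_indicator hAm,
        inter_eq_right.mpr hAK0, setIntegral_const, setIntegral_const]
      simp [hV]
    have h1 : P ≤ ∫ x in K, (ζ x ^ 2 + (2 * R) ^ 2 * q x) := by
      apply integral_mono_ae ip2 (iζ2.add (iq.const_mul _))
      filter_upwards [hζp, hfb] with x hx1 hx2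
      show p x ^ 2 ≤ ζ x ^ 2 + (2 * R) ^ 2 * q x
      by_cases hxA : x ∈ A
      · rw [hx1 hxA]
        simp only [hq, indicator_of_mem hxA]
        simp
      · rw [hζout x hxA]
        simp only [hq, indicator_of_notMem hxA]
        simp only [sub_zero, mul_one]
        have := pow_le_pow_left₀ (hp0 x) ((hple x).trans hx2) 2
        nlinarith [sq_nonneg (ζ x)]
    have hh2 : IntegrableOn (fun x => (2 * R) ^ 2 * q x) K := iq.const_mul _
    rw [integral_add iζ2 hh2, integral_const_mul, e1] at h1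
    exact h1
  have hZI : Z ≤ I := by
    apply integral_mono_ae iζ2 iI
    filter_upwards with x
    have h1 : ζ x ≤ p x := by
      by_cases hxA : x ∈ A
      · simp only [hζ, indicator_of_mem hxA]
        exact min_le_left _ _
      · rw [hζout x hxA]
        exact hp0 x
    have h2 : p x ≤ ‖T x - S x‖ := by
      rw [norm_sub_rev]
      exact (hple x).trans (hfle x)
    exact pow_le_pow_left₀ (hζ0 x) (h1.trans h2) 2
  have hW : 0 ≤ W2 μ ν := Real.sqrt_nonneg _
  have hsq : Real.sqrt Z ≤ Real.sqrt I := Real.sqrt_le_sqrt hZI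
  have hkey2 : δ * J ≤ 68 * D * Real.sqrt V * Real.sqrt I * W2 μ ν := by
    refine key.trans ?_
    apply mul_le_mul_of_nonneg_right _ hW
    apply mul_le_mul_of_nonneg_left hsq (by positivity)
  have hfin : δ * P ≤ δ * J + δ * (8 * R ^ 2 * (V - volume.real A)) := by
    have : P ≤ J + 8 * R ^ 2 * (V - volume.real A) := by
      have e : 2 * R * (2 * R * (V - volume.real A)) + (2 * R) ^ 2 * (V - volume.real A) =
          8 * R ^ 2 * (V - volume.real A) := by ring
      linarith
    have := mul_le_mul_of_nonneg_left this hδ.le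
    linarith
  have hvol2 : δ * (8 * R ^ 2 * (V - volume.real A)) ≤ δ ^ 2 * (8 * R ^ 2 * V * d / a) := by
    have h1 : 8 * R ^ 2 * (V - volume.real A) ≤ 8 * R ^ 2 * (V * (d * (δ / a))) :=
      mul_le_mul_of_nonneg_left hvol (by positivity)
    have h2 := mul_le_mul_of_nonneg_left h1 hδ.le
    refine h2.trans (le_of_eq ?_)
    field_simp
  linarith

lemma scalar_case {X u c1 c2 : ℝ} (hX : 0 ≤ X) (hu : 0 ≤ u) (hc1 : 0 ≤ c1) (hc2 : 0 ≤ c2)
    (h : X ^ 2 ≤ c1 * X * u + c2 * u ^ 2) : X ≤ (c1 + Real.sqrt c2) * u := by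
  by_contra hcon
  push Not at hcon
  set r := Real.sqrt c2 with hr
  have hr0 : 0 ≤ r := Real.sqrt_nonneg _
  have hr2 : r ^ 2 = c2 := Real.sq_sqrt hc2
  have h0 : 0 ≤ (c1 + r) * u := by positivity
  have h1 : 0 < X := lt_of_le_of_lt h0 hcon
  have h2 : (c1 + r) * u * X < X * X := mul_lt_mul_of_pos_right hcon h1
  have h3 : r * u * ((c1 + r) * u) ≤ r * u * X :=
    mul_le_mul_of_nonneg_left hcon.le (by positivity)
  have h4 : 0 ≤ r * u * (c1 * u) := by positivity
  have e1 : r * u * ((c1 + r) * u) = r * u * (c1 * u) + c2 * u ^ 2 := by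
    rw [← hr2]
    ring
  nlinarith

/-- Decomposition of the square of the distance along the coordinate directions. -/
lemma sum_dirs {K : Set (E d)} (hKc : IsCompact K) {T S : E d → E d} (hTm : Measurable T)
    (hSm : Measurable S) {R : ℝ}
    (hTR : ∀ᵐ x ∂(volume.restrict K), ‖T x‖ ≤ R) (hSR : ∀ᵐ x ∂(volume.restrict K), ‖S x‖ ≤ R) :
    ∫ x in K, ‖T x - S x‖ ^ 2 =
      ∑ k : Fin d, ((∫ x in K, (max (inner ℝ (ee k : E d) (S x - T x)) 0) ^ 2) +
        ∫ x in K, (max (inner ℝ (-(ee k : E d)) (S x - T x)) 0) ^ 2) := by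
  have hb : ∀ e : E d, ‖e‖ = 1 →
      IntegrableOn (fun x => (max (inner ℝ e (S x - T x)) 0 : ℝ) ^ 2) K := by
    intro e he
    refine bd_intOn hKc
      (((measurable_const.inner (hSm.sub hTm)).max measurable_const).pow_const 2)
      (C := (R + R) ^ 2) ?_
    filter_upwards [hTR, hSR] with x h1 h2
    rw [Real.norm_eq_abs, abs_of_nonneg (sq_nonneg _)]
    apply pow_le_pow_left₀ (le_max_right _ _)
    apply max_le
    · have := real_inner_le_norm e (S x - T x)
      rw [he, one_mul] at this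
      exact this.trans ((norm_sub_le _ _).trans (by linarith))
    · exact le_trans (norm_nonneg _) h1 |>.trans (by linarith [norm_nonneg (S x)])
  have hne : ∀ k : Fin d, ‖(-(ee k : E d))‖ = 1 := by
    intro k
    rw [norm_neg, norm_ee]
  have hc : ∀ k : Fin d, IntegrableOn (fun x => (S x - T x) k ^ 2) K := by
    intro k
    have hm : Measurable (fun x => (S x - T x) k) := ((EuclideanSpace.proj k : E d →L[ℝ] ℝ).continuous.measurable).comp (hSm.sub hTm)
    refine bd_intOn hKc (hm.pow_const 2) (C := (R + R) ^ 2) ?_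
    filter_upwards [hTR, hSR] with x h1 h2
    rw [Real.norm_eq_abs, abs_of_nonneg (sq_nonneg _), ← sq_abs]
    apply pow_le_pow_left₀ (abs_nonneg _)
    have := PiLp.norm_apply_le (S x - T x) k
    rw [Real.norm_eq_abs] at this
    exact this.trans ((norm_sub_le _ _).trans (by linarith))
  have e1 : ∀ k : Fin d, (∫ x in K, (max (inner ℝ (ee k : E d) (S x - T x)) 0) ^ 2) +
        ∫ x in K, (max (inner ℝ (-(ee k : E d)) (S x - T x)) 0) ^ 2 =
      ∫ x in K, (S x - T x) k ^ 2 := by
    intro k
    rw [← integral_add (hb _ (norm_ee k)) (hb _ (hne k))]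
    apply integral_congr_ae
    filter_upwards with x
    have e2 : inner ℝ (ee k : E d) (S x - T x) = (S x - T x) k :=
      EuclideanSpace.basisFun_inner _ _ (S x - T x) k
    have e3 : inner ℝ (-(ee k : E d)) (S x - T x) = -(S x - T x) k := by
      rw [inner_neg_left, e2]
    simp only [e2, e3]
    rcases le_total 0 ((S x - T x) k) with h | h
    · rw [max_eq_left h, max_eq_right (by linarith)]
      ring
    · rw [max_eq_right h, max_eq_left (by linarith)]
      ring
  simp only [e1]
  rw [← integral_finsetSum _ (fun k _ => hc k)]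
  apply integral_congr_ae
  filter_upwards with x
  rw [norm_sub_rev, EuclideanSpace.real_norm_sq_eq]

/-- **Main theorem:** the exponent `1/3` is admissible. -/
theorem admissible_third (hd : 1 ≤ d) : Admissible d (1 / 3) := by
  intro K hKc hKconv hKint Y hY
  have hd0 : (0 : ℝ) < d := by exact_mod_cast hd
  obtain ⟨c, hc⟩ := hKint
  obtain ⟨a, ha, hball⟩ : ∃ a > 0, closedBall c a ⊆ K := by
    rcases Metric.nhds_basis_closedBall.mem_iff.mp (mem_interior_iff_mem_nhds.mp hc) with ⟨a, ha, h⟩
    exact ⟨a, ha, h⟩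
  have hYm : MeasurableSet Y := hY.measurableSet
  have hKm : MeasurableSet K := hKc.measurableSet
  have hKt : volume K ≠ ⊤ := hKc.measure_lt_top.ne
  have hK0 : volume K ≠ 0 := by
    have hpos : 0 < volume (closedBall c a) := measure_closedBall_pos volume c ha
    exact (hpos.trans_le (measure_mono hball)).ne'
  obtain ⟨R0, hR0⟩ := hY.isBounded.exists_norm_le
  obtain ⟨Rk0, hRk0⟩ := hKc.isBounded.exists_norm_le
  obtain ⟨R, hRdef⟩ : ∃ R, R = max R0 1 := ⟨_, rfl⟩
  obtain ⟨Rk, hRkdef⟩ : ∃ Rk, Rk = max Rk0 1 := ⟨_, rfl⟩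
  have hR1 : 1 ≤ R := by rw [hRdef]; exact le_max_right _ _
  have hRk1 : 1 ≤ Rk := by rw [hRkdef]; exact le_max_right _ _
  have hR0' : 0 < R := by linarith
  have hRk0' : 0 < Rk := by linarith
  have hRY : ∀ y ∈ Y, ‖y‖ ≤ R := fun y hy => (hR0 y hy).trans (by rw [hRdef]; exact le_max_left _ _)
  have hRK : ∀ y ∈ K, ‖y‖ ≤ Rk := fun y hy => (hRk0 y hy).trans (by rw [hRkdef]; exact le_max_left _ _)
  obtain ⟨D, hDdef⟩ : ∃ D, D = Rk + ‖c‖ := ⟨_, rfl⟩
  have hD0 : 0 < D := by rw [hDdef]; positivity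
  have hKD : ∀ x ∈ K, ‖x - c‖ ≤ D := by
    intro x hx
    rw [hDdef]
    exact (norm_sub_le _ _).trans (by linarith [hRK x hx])
  obtain ⟨V, hV⟩ : ∃ V, V = volume.real K := ⟨_, rfl⟩
  have hV0 : 0 < V := by
    rw [hV, measureReal_def]
    exact ENNReal.toReal_pos hK0 hKt
  obtain ⟨c1, hc1⟩ : ∃ c1, c1 = 2 * (d : ℝ) * (68 * D * Real.sqrt V) := ⟨_, rfl⟩
  obtain ⟨c2, hc2⟩ : ∃ c2, c2 = 2 * (d : ℝ) * (8 * R ^ 2 * V * d / a) := ⟨_, rfl⟩
  have hc10 : 0 ≤ c1 := by rw [hc1]; positivity
  have hc20 : 0 ≤ c2 := by rw [hc2]; positivity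
  obtain ⟨B, hB⟩ : ∃ B, B = 2 * R * Real.sqrt V / Real.sqrt a := ⟨_, rfl⟩
  have hB0 : 0 ≤ B := by rw [hB]; positivity
  have hsa : 0 < Real.sqrt a := Real.sqrt_pos.mpr ha
  refine ⟨Real.sqrt V⁻¹ * (c1 + Real.sqrt c2 + B), ?_⟩
  intro μ ν hμp hνp hμY hνY T S hT hS
  have hTY := ae_map_mem hK0 hKt hT hYm hμY
  have hSY := ae_map_mem hK0 hKt hS hYm hνY
  have hTR : ∀ᵐ x ∂(volume.restrict K), ‖T x‖ ≤ R := by
    filter_upwards [hTY] with x hx using hRY _ hx
  have hSR : ∀ᵐ x ∂(volume.restrict K), ‖S x‖ ≤ R := by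
    filter_upwards [hSY] with x hx using hRY _ hx
  have hgT := ae_goodPt hKm hKconv hT.1 hTR
  have hneBot : NeBot (ae (volume.restrict K)) := by
    rw [ae_neBot]
    intro h
    rw [Measure.restrict_eq_zero] at h
    exact hK0 h
  obtain ⟨x1, hx1⟩ := hgT.exists
  obtain ⟨φ, -, -, hφs⟩ := exists_potential hKm hK0 hKt hT (cost_ne_top hK0 hKt hKm hRK hTR)
    hR0'.le hx1
  have hφ : ∀ᵐ x ∂(volume.restrict K), ∀ y, φ x + inner ℝ (y - x) (T x) ≤ φ y := by
    filter_upwards [hgT] with x hx using hφs x hx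
  obtain ⟨W, hW⟩ : ∃ W, W = W2 μ ν := ⟨_, rfl⟩
  have hW0 : 0 ≤ W := by rw [hW]; exact Real.sqrt_nonneg _
  obtain ⟨I, hI⟩ : ∃ I, I = ∫ x in K, ‖T x - S x‖ ^ 2 := ⟨_, rfl⟩
  have hI0 : 0 ≤ I := by
    rw [hI]
    exact integral_nonneg (fun x => sq_nonneg _)
  obtain ⟨X, hX⟩ : ∃ X, X = Real.sqrt I := ⟨_, rfl⟩
  have hX0 : 0 ≤ X := by rw [hX]; exact Real.sqrt_nonneg _
  have hX2 : X ^ 2 = I := by rw [hX]; exact Real.sq_sqrt hI0
  have hIB : I ≤ (2 * R) ^ 2 * V := by
    rw [hI, hV]
    have := norm_setIntegral_le_of_norm_le_const_ae (μ := volume) (s := K)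
      (f := fun x => ‖T x - S x‖ ^ 2) (C := (2 * R) ^ 2) hKc.measure_lt_top (by
        filter_upwards [hTR, hSR] with x h1 h2
        have h3 : ‖T x - S x‖ ≤ 2 * R := (norm_sub_le _ _).trans (by linarith)
        rw [Real.norm_eq_abs, abs_of_nonneg (sq_nonneg _)]
        exact pow_le_pow_left₀ (norm_nonneg _) h3 2)
    exact (le_abs_self _).trans this
  -- the key inequality for every step
  have hkey : ∀ δ, 0 < δ → δ ≤ a → δ * I ≤ c1 * X * W + c2 * δ ^ 2 := by
    intro δ hδ hδa
    have hdir : ∀ e : E d, ‖e‖ = 1 → δ * ∫ x in K, (max (inner ℝ e (S x - T x)) 0) ^ 2 ≤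
        68 * D * Real.sqrt V * X * W + δ ^ 2 * (8 * R ^ 2 * V * d / a) := by
      intro e he
      have := dir_estimate hKc hKconv hK0 hY ha hball hD0 hKD hR0' hμY hνY hT hS hRY hTR hSR hφ he
        hδ hδa
      rw [← hV, ← hI, ← hX, ← hW] at this
      exact this
    have e1 := sum_dirs hKc hT.1 hS.1 hTR hSR
    rw [← hI] at e1
    rw [e1, Finset.mul_sum]
    calc ∑ k : Fin d, δ * ((∫ x in K, (max (inner ℝ (ee k : E d) (S x - T x)) 0) ^ 2) +
          ∫ x in K, (max (inner ℝ (-(ee k : E d)) (S x - T x)) 0) ^ 2)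
        ≤ ∑ _k : Fin d, 2 * (68 * D * Real.sqrt V * X * W + δ ^ 2 * (8 * R ^ 2 * V * d / a)) := by
          apply Finset.sum_le_sum
          intro k _
          have h1 := hdir _ (norm_ee k)
          have h2 := hdir (-(ee k : E d)) (by rw [norm_neg, norm_ee])
          rw [mul_add]
          linarith
      _ = c1 * X * W + c2 * δ ^ 2 := by
          simp only [Finset.sum_const, Finset.card_univ, Fintype.card_fin, nsmul_eq_mul]
          rw [hc1, hc2]
          ring
  -- the exponent
  obtain ⟨u, hu⟩ : ∃ u, u = W ^ ((1 : ℝ) / 3) := ⟨_, rfl⟩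
  have hu0 : 0 ≤ u := by rw [hu]; exact Real.rpow_nonneg hW0 _
  have hu3 : u ^ 3 = W := by
    rw [hu, ← Real.rpow_natCast, ← Real.rpow_mul hW0]
    norm_num
  have hmain : X ≤ (c1 + Real.sqrt c2 + B) * u := by
    have hs2 : 0 ≤ Real.sqrt c2 := Real.sqrt_nonneg _
    rcases hu0.eq_or_lt with hu00 | hupos
    · -- `W = 0`
      have hW00 : W = 0 := by
        rw [← hu3, ← hu00]
        norm_num
      have hI00 : I ≤ 0 := by
        by_contra hcon
        push Not at hcon
        set δ := min a (I / (2 * (c2 + 1))) with hδdef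
        have hδ0 : 0 < δ := lt_min ha (by positivity)
        have h1 := hkey δ hδ0 (min_le_left _ _)
        rw [hW00, mul_zero, zero_add] at h1
        have h2 : δ * I ≤ δ * (c2 * δ) := by
          refine h1.trans (le_of_eq ?_)
          ring
        have h3 : I ≤ c2 * δ := le_of_mul_le_mul_left h2 hδ0
        have h4 : δ ≤ I / (2 * (c2 + 1)) := min_le_right _ _
        have h5 : c2 * δ ≤ c2 * (I / (2 * (c2 + 1))) := mul_le_mul_of_nonneg_left h4 hc20
        have h6 : c2 * (I / (2 * (c2 + 1))) ≤ I / 2 := by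
          rw [mul_div_assoc', div_le_iff₀ (by positivity)]
          nlinarith
        linarith
      have : X = 0 := by
        rw [hX]
        exact Real.sqrt_eq_zero_of_nonpos hI00
      rw [this, ← hu00, mul_zero]
    · rcases le_or_gt (u ^ 2) a with hua | hua
      · have hδ0 : 0 < u ^ 2 := by positivity
        have h1 := hkey (u ^ 2) hδ0 hua
        rw [← hX2, ← hu3] at h1
        have h2 : u ^ 2 * X ^ 2 ≤ u ^ 2 * (c1 * X * u + c2 * u ^ 2) := by
          refine h1.trans (le_of_eq ?_)
          ring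
        have h3 := le_of_mul_le_mul_left h2 hδ0
        have h4 := scalar_case hX0 hu0 hc10 hc20 h3
        have h5 : 0 ≤ B * u := by positivity
        nlinarith
      · have h1 : Real.sqrt a < u := (Real.sqrt_lt' hupos).mpr hua
        have h2 : X ≤ 2 * R * Real.sqrt V := by
          rw [hX]
          apply Real.sqrt_le_iff.mpr
          constructor
          · positivity
          · rw [mul_pow, Real.sq_sqrt hV0.le]
            exact hIB
        have h3 : 2 * R * Real.sqrt V = B * Real.sqrt a := by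
          rw [hB]
          field_simp
        have h4 : B * Real.sqrt a ≤ B * u := mul_le_mul_of_nonneg_left h1.le hB0
        have h5 : 0 ≤ (c1 + Real.sqrt c2) * u := by positivity
        nlinarith
  -- conclusion
  have hU := unif_prob hK0 hKt
  obtain ⟨H, hH⟩ : ∃ H, H = (∫⁻ x, ENNReal.ofReal (‖T x - S x‖ ^ 2) ∂(unif K)).toReal := ⟨_, rfl⟩
  have hHI : H = V⁻¹ * I := by
    have hqm : Measurable (fun x => ‖T x - S x‖ ^ 2) := ((hT.1.sub hS.1).norm).pow_const 2
    rw [hH, ← integral_eq_lintegral_of_nonneg_ae (ae_of_all _ (fun x => sq_nonneg _))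
      hqm.aestronglyMeasurable, integral_unif_eq hV, hI]
  have hL : L2dist K T S = Real.sqrt V⁻¹ * X := by
    rw [L2dist, ← hH, hHI, Real.sqrt_mul (by positivity), hX]
  rw [hL, ← hW, ← hu, mul_assoc]
  exact mul_le_mul_of_nonneg_left hmain (Real.sqrt_nonneg _)

end Vale.Agent.P074T
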